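import Vale.Agent.Lib.P154Anti.LatTree

/-!
# Three colours on the `d`-ary tree, with any sign of the eigenvalue: from merge inequalities with a budget

The chain of potentials `pot 1, pot 2, ..., pot (k + 1)` along the children of a vertex satisfies merge inequalities with
an additional term `C j * p2T a * p2T b ^ 3`.  The sum of these additional terms is controlled by a bound on
the expectation of `p2T` on the partial merges, which is given at every depth from some depth on.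
-/

open Filter Topology

namespace Vale.Agent.Lib.P154Neg

open Vale.Agent.Lib.P154 Vale.Agent.Lib.P154Anti Tp

noncomputable section

/-- The merge operator on centred messages. -/
def KT (ψ : Tp → ℝ) (a b : Tp) : ℝ := avg6 (fun b' => (1 + 3 * sF a b') * ψ (wF a b')) b

lemma GG_mrg' {x y : W3} (ψ : Tp → ℝ) (hx : 0 < M3 x) (hy : 0 < M3 y) (hnx : NN x) (hny : NN y) :
    GG ψ (mrg x y) = M3 x * M3 y * ((1 + 3 * sF (cen x) (cen y)) * ψ (wF (cen x) (cen y))) := by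
  have hM := mrg_M3 hx hy
  have hM0 : 0 ≤ M3 (mrg x y) := M3_nonneg (mrg_nn hnx hny)
  have hxy : 0 < M3 x * M3 y := mul_pos hx hy
  have hN : 0 ≤ 1 + 3 * sF (cen x) (cen y) := by
    rw [hM] at hM0
    exact nonneg_of_mul_nonneg_right hM0 hxy
  rcases hN.eq_or_lt with h0 | h1
  · simp only [GG, hM, ← h0]
    ring
  · exact GG_mrg ψ hx hy h1

/-- The average over the rearrangements. -/
lemma avg_mrg (ψ : Tp → ℝ) {x y : W3} (hx : 0 < M3 x) (hy : 0 < M3 y) (hnx : NN x) (hny : NN y) :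
    avgF (fun y' => GG ψ (mrg x y')) y = M3 x * M3 y * KT ψ (cen x) (cen y) := by
  have hperm : ∀ σ : Equiv.Perm (Fin 3), NN (y ∘ σ) := fun σ i => hny (σ i)
  have h0 := GG_mrg' ψ hx hy hnx hny
  have h1 := GG_mrg' ψ hx (by rw [M3_s1]; exact hy) hnx (hperm s1)
  have h2 := GG_mrg' ψ hx (by rw [M3_s2]; exact hy) hnx (hperm s2)
  have h3 := GG_mrg' ψ hx (by rw [M3_s3]; exact hy) hnx (hperm s3)
  have h4 := GG_mrg' ψ hx (by rw [M3_s4]; exact hy) hnx (hperm s4)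
  have h5 := GG_mrg' ψ hx (by rw [M3_s5]; exact hy) hnx (hperm s5)
  rw [M3_s1, cen_s1] at h1
  rw [M3_s2, cen_s2] at h2
  rw [M3_s3, cen_s3] at h3
  rw [M3_s4, cen_s4] at h4
  rw [M3_s5, cen_s5] at h5
  simp only [avgF, KT, avg6]
  rw [h0, h1, h2, h3, h4, h5]
  ring

section families

variable {A Ω : Type} [Fintype A] [Fintype Ω]

/-- The sum of the merged function, under a pointwise inequality on the supports. -/
lemma sum_merge_le {x : A → W3} {y : Ω → W3} (hy : Fam y) (hx : ∀ η, NN (x η)) {Da Db : Tp → Prop}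
    {ψ : Tp → ℝ} {u : Tp → Tp → ℝ}
    (hxd : ∀ η, 0 < M3 (x η) → Da (cen (x η))) (hyd : ∀ ξ, 0 < M3 (y ξ) → Db (cen (y ξ)))
    (h : ∀ a b, Da a → Db b → KT ψ a b ≤ u a b) :
    ∑ η, ∑ ξ, GG ψ (mrg (x η) (y ξ)) ≤
      ∑ η, ∑ ξ, M3 (x η) * M3 (y ξ) * u (cen (x η)) (cen (y ξ)) := by
  apply Finset.sum_le_sum
  intro η _
  rw [hy.avg (fun y' => GG ψ (mrg (x η) y'))]
  apply Finset.sum_le_sum
  intro ξ _
  have hperm : ∀ σ : Equiv.Perm (Fin 3), NN (y ξ ∘ σ) := fun σ i => hy.nn ξ (σ i)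
  rcases (M3_nonneg (hx η)).eq_or_lt with h0 | hxp
  · have e : ∀ y', NN y' → GG ψ (mrg (x η) y') = 0 := fun y' hy' =>
      mrg_zero_M3 (hx η) hy' (Or.inl h0.symm) ψ
    simp only [avgF]
    rw [e _ (hy.nn ξ), e _ (hperm s1), e _ (hperm s2), e _ (hperm s3), e _ (hperm s4), e _ (hperm s5),
      ← h0]
    simp
  rcases (M3_nonneg (hy.nn ξ)).eq_or_lt with h0 | hyp
  · have e : ∀ y', M3 y' = 0 → NN y' → GG ψ (mrg (x η) y') = 0 := fun y' h' hy' =>
      mrg_zero_M3 (hx η) hy' (Or.inr h') ψ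
    simp only [avgF]
    rw [e _ h0.symm (hy.nn ξ), e _ (by rw [M3_s1]; exact h0.symm) (hperm s1),
      e _ (by rw [M3_s2]; exact h0.symm) (hperm s2), e _ (by rw [M3_s3]; exact h0.symm) (hperm s3),
      e _ (by rw [M3_s4]; exact h0.symm) (hperm s4), e _ (by rw [M3_s5]; exact h0.symm) (hperm s5),
      ← h0]
    simp
  rw [avg_mrg ψ hxp hyp (hx η) (hy.nn ξ)]
  exact mul_le_mul_of_nonneg_left (h _ _ (hxd η hxp) (hyd ξ hyp)) (by positivity)

lemma sum_prod (x : A → W3) (y : Ω → W3) (f g : Tp → ℝ) :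
    ∑ η, ∑ ξ, M3 (x η) * M3 (y ξ) * (f (cen (x η)) * g (cen (y ξ))) =
      (∑ η, GG f (x η)) * ∑ ξ, GG g (y ξ) := by
  rw [Finset.sum_mul_sum]
  apply Finset.sum_congr rfl
  intro η _
  apply Finset.sum_congr rfl
  intro ξ _
  simp only [GG]
  ring

/-- One step, in the form used by the chain: the first sum is over `x`, of total mass one. -/
lemma step_le {x : A → W3} {y : Ω → W3} (hy : Fam y) (hx : ∀ η, NN (x η)) (hmx : ∑ η, M3 (x η) = 1)
    {Da Db : Tp → Prop} {ψp ψ0 Y : Tp → ℝ} {C t : ℝ} {m : ℕ}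
    (hxd : ∀ η, 0 < M3 (x η) → Da (cen (x η))) (hyd : ∀ ξ, 0 < M3 (y ξ) → Db (cen (y ξ)))
    (h : ∀ a b, Da a → Db b → KT ψp a b ≤
      ψ0 a + Y b + C * (p2T a * p2T b ^ m) - t * (p2T a * p2T b)) :
    ∑ η, ∑ ξ, GG ψp (mrg (x η) (y ξ)) ≤
      ∑ η, GG ψ0 (x η) + ∑ ξ, GG Y (y ξ) +
        C * ((∑ η, GG p2T (x η)) * ∑ ξ, GG (fun c => p2T c ^ m) (y ξ)) -
        t * ((∑ η, GG p2T (x η)) * ∑ ξ, GG p2T (y ξ)) := by
  refine (sum_merge_le hy hx hxd hyd h).trans (le_of_eq ?_)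
  have e1 := sum_prod x y p2T (fun c => p2T c ^ m)
  have e2 := sum_prod x y p2T p2T
  have e3 : ∑ η, GG ψ0 (x η) =
      ∑ η, ∑ ξ, M3 (x η) * M3 (y ξ) * (ψ0 (cen (x η)) * 1) := by
    apply Finset.sum_congr rfl
    intro η _
    have : ∑ ξ, M3 (x η) * M3 (y ξ) * (ψ0 (cen (x η)) * 1) =
        GG ψ0 (x η) * ∑ ξ, M3 (y ξ) := by
      rw [Finset.mul_sum]
      apply Finset.sum_congr rfl
      intro ξ _
      simp only [GG]
      ring
    rw [this, hy.mass, mul_one]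
  have e4 : ∑ ξ, GG Y (y ξ) =
      ∑ η, ∑ ξ, M3 (x η) * M3 (y ξ) * (1 * Y (cen (y ξ))) := by
    rw [Finset.sum_comm]
    apply Finset.sum_congr rfl
    intro ξ _
    have : ∑ η, M3 (x η) * M3 (y ξ) * (1 * Y (cen (y ξ))) =
        (∑ η, M3 (x η)) * GG Y (y ξ) := by
      rw [Finset.sum_mul]
      apply Finset.sum_congr rfl
      intro η _
      simp only [GG]
      ring
    rw [this, hmx, one_mul]
  rw [e3, e4, ← e1, ← e2, Finset.mul_sum, Finset.mul_sum, ← Finset.sum_add_distrib,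
    ← Finset.sum_add_distrib, ← Finset.sum_sub_distrib]
  apply Finset.sum_congr rfl
  intro η _
  rw [Finset.mul_sum, Finset.mul_sum, ← Finset.sum_add_distrib, ← Finset.sum_add_distrib,
    ← Finset.sum_sub_distrib]
  apply Finset.sum_congr rfl
  intro ξ _
  ring

end families

section chain

variable {Ω : Type} [Fintype Ω] {y : Ω → W3}

/-- The expectation of `p2T` on the merge of `j + 1` children. -/
def eJ (y : Ω → W3) (j : ℕ) : ℝ := VV y p2T j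

lemma eJ_nonneg (hy : Fam y) (j : ℕ) : 0 ≤ eJ y j :=
  Finset.sum_nonneg fun ξ _ => mul_nonneg (M3_nonneg (xk_nn hy.nn j ξ)) (p2T_nonneg _)

lemma xk_domain (hy : Fam y) {Db : Tp → Prop} (hyd : ∀ ξ, 0 < M3 (y ξ) → Db (cen (y ξ)))
    (η : Fin 1 → Ω) (h : 0 < M3 (xk y 0 η)) : Db (cen (xk y 0 η)) := by
  have e : η = fun _ => η 0 := by
    funext c
    rw [Subsingleton.elim c 0]
  rw [e, xk_zero] at h ⊢
  exact hyd _ h

/-- The chain of merge inequalities. -/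
theorem chain_budget (hy : Fam y) {Db : Tp → Prop} (hyd : ∀ ξ, 0 < M3 (y ξ) → Db (cen (y ξ)))
    {pot : ℕ → Tp → ℝ} {Y : Tp → ℝ} {Cc : ℕ → ℝ} {t : ℝ} {K : ℕ}
    (h0 : ∀ a b, Db a → Db b → KT (pot 1) a b ≤
      Y a + Y b + Cc 0 * (p2T a * p2T b ^ 3) - t * (p2T a * p2T b))
    (hj : ∀ j, 1 ≤ j → j ≤ K → ∀ a b, InSx 1 a → Db b → KT (pot (j + 1)) a b ≤
      pot j a + Y b + Cc j * (p2T a * p2T b ^ 3) - 0 * (p2T a * p2T b)) :
    ∀ k : ℕ, k ≤ K → VV y (pot (k + 1)) (k + 1) ≤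
      ((k : ℝ) + 2) * ∑ ω, GG Y (y ω) +
        (∑ j ∈ Finset.range (k + 1), Cc j * eJ y j) * ∑ ω, GG (fun c => p2T c ^ 3) (y ω) -
        t * (∑ ω, GG p2T (y ω)) ^ 2 := by
  intro k
  induction k with
  | zero =>
    intro _
    rw [VV_succ]
    have key := step_le (x := xk y 0) hy (xk_nn hy.nn 0) (mass_xk hy 0) (Da := Db) (Db := Db)
      (ψp := pot 1) (ψ0 := Y) (Y := Y) (C := Cc 0) (t := t) (m := 3)
      (xk_domain hy hyd) hyd h0
    have e0 := VV_zero y Y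
    have e1 := VV_zero y p2T
    simp only [VV] at e0 e1
    rw [e0, e1] at key
    have e2 : eJ y 0 = ∑ ω, GG p2T (y ω) := VV_zero y p2T
    have e5 : ∑ j ∈ Finset.range (0 + 1), Cc j * eJ y j = Cc 0 * ∑ ω, GG p2T (y ω) := by
      rw [Finset.sum_range_succ, Finset.sum_range_zero, zero_add, e2]
    rw [e5]
    push_cast
    nlinarith [key]
  | succ k ih =>
    intro hk
    have ih := ih (by omega)
    rw [VV_succ]
    have hxd : ∀ η : Fin (k + 1 + 1) → Ω, 0 < M3 (xk y (k + 1) η) → InSx 1 (cen (xk y (k + 1) η)) :=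
      fun η h => cen_inSx (xk_nn hy.nn _ η) h
    have key := step_le (x := xk y (k + 1)) hy (xk_nn hy.nn (k + 1)) (mass_xk hy (k + 1))
      (Da := InSx 1) (Db := Db) (ψp := pot (k + 1 + 1)) (ψ0 := pot (k + 1)) (Y := Y)
      (C := Cc (k + 1)) (t := 0) (m := 3) hxd hyd (hj (k + 1) (by omega) hk)
    have e : ∑ η, GG (pot (k + 1)) (xk y (k + 1) η) = VV y (pot (k + 1)) (k + 1) := rfl
    have e' : ∑ η, GG p2T (xk y (k + 1) η) = eJ y (k + 1) := rfl
    rw [e, e'] at key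
    rw [Finset.sum_range_succ _ (k + 1)]
    push_cast
    nlinarith [key, ih]

/-- The partial merges. -/
theorem eJ_le (hy : Fam y) {Db : Tp → Prop} (hyd : ∀ ξ, 0 < M3 (y ξ) → Db (cen (y ξ))) {δ M : ℝ}
    (hδ : 0 ≤ δ) (hM : 0 ≤ M)
    (hP : ∀ a b, InSx 1 a → Db b → KT p2T a b ≤ p2T a + (1 + δ) * p2T b + M * p2T b ^ 2) (j : ℕ) :
    eJ y j ≤ ((j : ℝ) + 1) * ((1 + δ) * ∑ ω, GG p2T (y ω) + M * ∑ ω, GG (fun c => p2T c ^ 2) (y ω)) := by
  have hnn : 0 ≤ ∑ ω, GG p2T (y ω) :=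
    Finset.sum_nonneg fun ξ _ => mul_nonneg (M3_nonneg (hy.nn ξ)) (p2T_nonneg _)
  have hnn2 : 0 ≤ ∑ ω, GG (fun c => p2T c ^ 2) (y ω) :=
    Finset.sum_nonneg fun ξ _ => mul_nonneg (M3_nonneg (hy.nn ξ)) (by positivity)
  induction j with
  | zero =>
    have e2 : eJ y 0 = ∑ ω, GG p2T (y ω) := VV_zero y p2T
    rw [e2]
    push_cast
    have := mul_nonneg hδ hnn
    have := mul_nonneg hM hnn2
    nlinarith
  | succ j ih =>
    have e : eJ y (j + 1) = ∑ ξ' : Fin (j + 1) → Ω, ∑ ω, GG p2T (mrg (xk y j ξ') (y ω)) :=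
      VV_succ y p2T j
    have hxd : ∀ η : Fin (j + 1) → Ω, 0 < M3 (xk y j η) → InSx 1 (cen (xk y j η)) :=
      fun η h => cen_inSx (xk_nn hy.nn _ η) h
    have key := sum_merge_le (x := xk y j) hy (xk_nn hy.nn j) (Da := InSx 1) (Db := Db) (ψ := p2T)
      (u := fun a b => p2T a + (1 + δ) * p2T b + M * p2T b ^ 2) hxd hyd hP
    have e1 : ∑ η, GG p2T (xk y j η) = eJ y j := rfl
    have hm := mass_xk hy j
    have e3 : ∑ η, ∑ ξ, M3 (xk y j η) * M3 (y ξ) * (p2T (cen (xk y j η)) + (1 + δ) * p2T (cen (y ξ)) +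
          M * p2T (cen (y ξ)) ^ 2) =
        eJ y j + (1 + δ) * ∑ ω, GG p2T (y ω) + M * ∑ ω, GG (fun c => p2T c ^ 2) (y ω) := by
      have e31 : ∀ η, ∑ ξ, M3 (xk y j η) * M3 (y ξ) * (p2T (cen (xk y j η)) + (1 + δ) * p2T (cen (y ξ)) +
          M * p2T (cen (y ξ)) ^ 2) =
          GG p2T (xk y j η) + M3 (xk y j η) * ((1 + δ) * ∑ ω, GG p2T (y ω) +
            M * ∑ ω, GG (fun c => p2T c ^ 2) (y ω)) := by
        intro η
        have e32 : ∀ ξ, M3 (xk y j η) * M3 (y ξ) * (p2T (cen (xk y j η)) + (1 + δ) * p2T (cen (y ξ)) +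
            M * p2T (cen (y ξ)) ^ 2) =
            GG p2T (xk y j η) * M3 (y ξ) + M3 (xk y j η) * ((1 + δ) * GG p2T (y ξ) +
              M * GG (fun c => p2T c ^ 2) (y ξ)) := by
          intro ξ
          simp only [GG]
          ring
        simp only [e32]
        rw [Finset.sum_add_distrib, ← Finset.mul_sum, hy.mass, mul_one, ← Finset.mul_sum,
          Finset.sum_add_distrib, ← Finset.mul_sum, ← Finset.mul_sum]
      simp only [e31]
      rw [Finset.sum_add_distrib, ← Finset.sum_mul, hm, one_mul, e1]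
      ring
    rw [e3] at key
    rw [e]
    push_cast
    nlinarith [key, ih]

end chain

section tree

variable {k : ℕ} {lam : ℝ}

lemma GG_yn_scale (hl0 : -1 / 2 ≤ lam) (hl1 : lam ≤ 1) (f : Tp → ℝ) (g : Tp → ℝ)
    (hfg : ∀ c, InSx 1 c → f (scale lam c) ≤ g c) (n : ℕ) :
    ∑ ω, GG f (yn (k + 2) lam n ω) ≤ PhiN k lam g n := by
  simp only [PhiN]
  apply Finset.sum_le_sum
  intro ξ _
  rcases (M3_nonneg (xn_nn' (d := k + 2) hl0 hl1 n ξ)).eq_or_lt with h | h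
  · rw [GG_zero (by rw [M3_yn]; exact h.symm), GG_zero h.symm]
  · rw [GG_yn_eq n ξ h]
    simp only [GG]
    exact mul_le_mul_of_nonneg_left (hfg _ (cen_inSx (xn_nn' hl0 hl1 n ξ) h)) h.le

lemma GG_yn_scale_eq (hl0 : -1 / 2 ≤ lam) (hl1 : lam ≤ 1) (f : Tp → ℝ) (g : Tp → ℝ)
    (hfg : ∀ c, f (scale lam c) = g c) (n : ℕ) :
    ∑ ω, GG f (yn (k + 2) lam n ω) = PhiN k lam g n := by
  simp only [PhiN]
  apply Finset.sum_congr rfl
  intro ξ _
  rcases (M3_nonneg (xn_nn' (d := k + 2) hl0 hl1 n ξ)).eq_or_lt with h | h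
  · rw [GG_zero (by rw [M3_yn]; exact h.symm), GG_zero h.symm]
  · rw [GG_yn_eq n ξ h]
    simp only [GG]
    rw [hfg]

lemma PhiN_nonneg' (hl0 : -1 / 2 ≤ lam) (hl1 : lam ≤ 1) {g : Tp → ℝ}
    (hg : ∀ c, InSx 1 c → 0 ≤ g c) (n : ℕ) : 0 ≤ PhiN k lam g n := by
  apply Finset.sum_nonneg
  intro ξ _
  rcases (M3_nonneg (xn_nn' (d := k + 2) hl0 hl1 n ξ)).eq_or_lt with h | h
  · rw [GG_zero h.symm]
  · exact mul_nonneg h.le (hg _ (cen_inSx (xn_nn' hl0 hl1 n ξ) h))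

lemma PhiN_mono' (hl0 : -1 / 2 ≤ lam) (hl1 : lam ≤ 1) {f g : Tp → ℝ}
    (hfg : ∀ c, InSx 1 c → f c ≤ g c) (n : ℕ) : PhiN k lam f n ≤ PhiN k lam g n := by
  apply Finset.sum_le_sum
  intro ξ _
  rcases (M3_nonneg (xn_nn' (d := k + 2) hl0 hl1 n ξ)).eq_or_lt with h | h
  · rw [GG_zero h.symm, GG_zero h.symm]
  · exact mul_le_mul_of_nonneg_left (hfg _ (cen_inSx (xn_nn' hl0 hl1 n ξ) h)) h.le

/-- The distance is bounded by the second moment, with any sign of the eigenvalue. -/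
lemma reconDist_sq_le' (k : ℕ) (hl0 : -1 / 2 ≤ lam) (hl1 : lam ≤ 1) (n : ℕ) :
    reconDist 3 (k + 2) lam n ^ 2 ≤ 3 / 4 * PhiN k lam p2T n := by
  rw [reconDist_eq]
  set M : ((Fin n → Fin (k + 2)) → Fin 3) → ℝ := fun ξ => M3 (xn (k + 2) lam n ξ) with hM
  set h : ((Fin n → Fin (k + 2)) → Fin 3) → ℝ := fun ξ => (1 / 2) *
      (|(cen (xn (k + 2) lam n ξ)).x| + |(cen (xn (k + 2) lam n ξ)).y| + |(cen (xn (k + 2) lam n ξ)).z|) with hh
  have hM0 : ∀ ξ, 0 ≤ M ξ := fun ξ => M3_nonneg (xn_nn' hl0 hl1 n ξ)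
  have hCS := Finset.sum_mul_sq_le_sq_mul_sq Finset.univ (fun ξ => Real.sqrt (M ξ))
    (fun ξ => Real.sqrt (M ξ) * h ξ)
  have e1 : ∀ ξ, Real.sqrt (M ξ) * (Real.sqrt (M ξ) * h ξ) = M ξ * h ξ := by
    intro ξ
    rw [← mul_assoc, Real.mul_self_sqrt (hM0 ξ)]
  have e2 : ∀ ξ, Real.sqrt (M ξ) ^ 2 = M ξ := fun ξ => Real.sq_sqrt (hM0 ξ)
  have e3 : ∀ ξ, (Real.sqrt (M ξ) * h ξ) ^ 2 = M ξ * h ξ ^ 2 := by
    intro ξ
    rw [mul_pow, e2]
  simp only [e1, e2, e3] at hCS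
  have hmass : ∑ ξ, M ξ = 1 := sum_xn_mass n
  rw [hmass, one_mul] at hCS
  refine hCS.trans ?_
  simp only [PhiN, GG]
  rw [Finset.mul_sum]
  apply Finset.sum_le_sum
  intro ξ _
  have := mul_le_mul_of_nonneg_left (abs_bound (cen (xn (k + 2) lam n ξ))) (hM0 ξ)
  calc M ξ * h ξ ^ 2 ≤ M ξ * (3 / 4 * p2T (cen (xn (k + 2) lam n ξ))) := this
    _ = 3 / 4 * (M3 (xn (k + 2) lam n ξ) * p2T (cen (xn (k + 2) lam n ξ))) := by
      simp only [hM]
      ring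

lemma reconDist_nonneg' (k : ℕ) (hl0 : -1 / 2 ≤ lam) (hl1 : lam ≤ 1) (n : ℕ) :
    0 ≤ reconDist 3 (k + 2) lam n := by
  rw [reconDist_eq]
  apply Finset.sum_nonneg
  intro ξ _
  exact mul_nonneg (M3_nonneg (xn_nn' hl0 hl1 n ξ)) (by positivity)

/-- The potential decreases from some depth on. -/
theorem tendsto_of_decrease {ψ : Tp → ℝ} {t K : ℝ} {N : ℕ} (ht : 0 < t) (hlam : lam ≠ 0)
    (hl0 : -1 / 2 ≤ lam) (hl1 : lam ≤ 1) (hK : 0 < K)
    (hge : ∀ c, InSx 1 c → p2T c ≤ K * ψ c)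
    (hrec : ∀ n, N ≤ n → PhiN k lam ψ (n + 1) ≤ PhiN k lam ψ n - t * (lam ^ 2 * PhiN k lam p2T n) ^ 2) :
    Tendsto (reconDist 3 (k + 2) lam) atTop (𝓝 0) := by
  have hψ0 : ∀ c, InSx 1 c → 0 ≤ ψ c := by
    intro c hc
    have h1 := hge c hc
    have h2 := p2T_nonneg c
    by_contra h
    push Not at h
    nlinarith
  have hPhi0 : ∀ n, 0 ≤ PhiN k lam ψ n := PhiN_nonneg' hl0 hl1 hψ0
  have hX0 : ∀ n, 0 ≤ PhiN k lam p2T n := PhiN_nonneg' hl0 hl1 (fun c _ => p2T_nonneg c)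
  have hsum : ∀ m, ∑ i ∈ Finset.range m, t * (lam ^ 2 * PhiN k lam p2T (N + i)) ^ 2 ≤ PhiN k lam ψ N := by
    intro m
    have h1 : ∑ i ∈ Finset.range m, t * (lam ^ 2 * PhiN k lam p2T (N + i)) ^ 2 ≤
        PhiN k lam ψ N - PhiN k lam ψ (N + m) := by
      induction m with
      | zero => simp
      | succ m ih =>
        rw [Finset.sum_range_succ]
        have := hrec (N + m) (by omega)
        have e : N + (m + 1) = N + m + 1 := rfl
        rw [e]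
        linarith
    linarith [hPhi0 (N + m)]
  have hs : Summable (fun i => t * (lam ^ 2 * PhiN k lam p2T (N + i)) ^ 2) :=
    summable_of_sum_range_le (fun n => by positivity) hsum
  have hlim := hs.tendsto_atTop_zero
  have hc : 0 < t * (lam ^ 2) ^ 2 := by positivity
  have h2 : Tendsto (fun i => (t * (lam ^ 2) ^ 2)⁻¹ * (t * (lam ^ 2 * PhiN k lam p2T (N + i)) ^ 2)) atTop
      (𝓝 ((t * (lam ^ 2) ^ 2)⁻¹ * 0)) := hlim.const_mul _
  rw [mul_zero] at h2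
  have h3 : (fun i => (t * (lam ^ 2) ^ 2)⁻¹ * (t * (lam ^ 2 * PhiN k lam p2T (N + i)) ^ 2)) =
      fun i => (PhiN k lam p2T (N + i)) ^ 2 := by
    funext i
    have : t * (lam ^ 2 * PhiN k lam p2T (N + i)) ^ 2 =
        (t * (lam ^ 2) ^ 2) * (PhiN k lam p2T (N + i)) ^ 2 := by ring
    rw [this, ← mul_assoc, inv_mul_cancel₀ (ne_of_gt hc), one_mul]
  rw [h3] at h2
  have h4 := h2.sqrt
  simp only [Real.sqrt_zero] at h4
  have h5 : (fun i => Real.sqrt (PhiN k lam p2T (N + i) ^ 2)) = fun i => PhiN k lam p2T (N + i) := by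
    funext i
    exact Real.sqrt_sq (hX0 _)
  rw [h5] at h4
  have h6 : Tendsto (fun n => PhiN k lam p2T (n + N)) atTop (𝓝 0) := by
    simpa [add_comm] using h4
  have hX : Tendsto (PhiN k lam p2T) atTop (𝓝 0) := (tendsto_add_atTop_iff_nat N).1 h6
  have h7 : Tendsto (fun n => Real.sqrt (3 / 4 * PhiN k lam p2T n)) atTop (𝓝 0) := by
    have := (hX.const_mul (3 / 4)).sqrt
    simpa using this
  refine squeeze_zero (reconDist_nonneg' k hl0 hl1) ?_ h7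
  intro n
  exact Real.le_sqrt_of_sq_le (reconDist_sq_le' k hl0 hl1 n)

/-- **Assembly.**  A chain of merge inequalities with budget, and bounds on the moments at all depths `≥ N`,
give nonreconstruction on the `d`-ary tree, `d = k + 2`. -/
theorem tendsto_far {pot : ℕ → Tp → ℝ} {Y : Tp → ℝ} {Cc : ℕ → ℝ} {t β δ M y₀ m₀ K₀ : ℝ} {N : ℕ}
    (hl0 : -1 / 2 ≤ lam) (hl1 : lam ≤ 1) (hlam : lam ≠ 0) (hd : ((k : ℝ) + 2) * lam ^ 2 ≤ 1) (ht : 0 < t)
    (hδ : 0 ≤ δ) (hM : 0 ≤ M) (hK : 0 < K₀) (hCc : ∀ j, 0 ≤ Cc j)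
    (h0 : ∀ c c', InSx 1 c → InSx 1 c' → KT (pot 1) (scale lam c) (scale lam c') ≤
      Y (scale lam c) + Y (scale lam c') + Cc 0 * (p2T (scale lam c) * p2T (scale lam c') ^ 3) -
        t * (p2T (scale lam c) * p2T (scale lam c')))
    (hj : ∀ j, 1 ≤ j → j ≤ k → ∀ a c', InSx 1 a → InSx 1 c' → KT (pot (j + 1)) a (scale lam c') ≤
      pot j a + Y (scale lam c') + Cc j * (p2T a * p2T (scale lam c') ^ 3))
    (hY : ∀ c, InSx 1 c → Y (scale lam c) ≤ lam ^ 2 * pot (k + 1) c - β * p2T (scale lam c) ^ 3)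
    (hP : ∀ a c', InSx 1 a → InSx 1 c' → KT p2T a (scale lam c') ≤
      p2T a + (1 + δ) * p2T (scale lam c') + M * p2T (scale lam c') ^ 2)
    (hge : ∀ c, InSx 1 c → p2T c ≤ K₀ * pot (k + 1) c)
    (hfar : ∀ n, N ≤ n → PhiN k lam p2T n ≤ y₀ ∧ PhiN k lam (fun c => p2T c ^ 2) n ≤ m₀)
    (hbudget : ∑ j ∈ Finset.range (k + 1), Cc j * (((j : ℝ) + 1) * ((1 + δ) * (lam ^ 2 * y₀) + M * (lam ^ 4 * m₀))) ≤
      ((k : ℝ) + 2) * β) :
    Tendsto (reconDist 3 (k + 2) lam) atTop (𝓝 0) := by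
  set F := pot (k + 1) with hF
  have hψ0 : ∀ c, InSx 1 c → 0 ≤ F c := by
    intro c hc
    have h1 := hge c hc
    have h2 := p2T_nonneg c
    by_contra h
    push Not at h
    nlinarith
  refine tendsto_of_decrease (ψ := F) (N := N) ht hlam hl0 hl1 hK hge ?_
  intro n hn
  have hfam := yn_fam' (d := k + 2) hl0 hl1 n
  set Db : Tp → Prop := fun b => ∃ c, InSx 1 c ∧ b = scale lam c with hDb
  have hyd : ∀ ξ, 0 < M3 (yn (k + 2) lam n ξ) → Db (cen (yn (k + 2) lam n ξ)) := by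
    intro ξ h
    rw [M3_yn] at h
    exact ⟨_, cen_inSx (xn_nn' hl0 hl1 n ξ) h, cen_yn n ξ h⟩
  have hchain := chain_budget (pot := pot) (Y := Y) (Cc := Cc) (t := t) (K := k) hfam hyd
    (by rintro a b ⟨c, hc, rfl⟩ ⟨c', hc', rfl⟩; exact h0 c c' hc hc')
    (by
      rintro j hj1 hj2 a b ha ⟨c', hc', rfl⟩
      have := hj j hj1 hj2 a c' ha hc'
      linarith) k le_rfl
  rw [← PhiN_succ] at hchain
  -- the moments of the children
  have hE : ∑ ω, GG Y (yn (k + 2) lam n ω) ≤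
      lam ^ 2 * PhiN k lam F n - β * ∑ ω, GG (fun c => p2T c ^ 3) (yn (k + 2) lam n ω) := by
    have e3 : ∑ ω, GG (fun c => p2T c ^ 3) (yn (k + 2) lam n ω) =
        PhiN k lam (fun c => p2T (scale lam c) ^ 3) n :=
      GG_yn_scale_eq hl0 hl1 _ _ (fun c => rfl) n
    rw [e3]
    have e4 : lam ^ 2 * PhiN k lam F n - β * PhiN k lam (fun c => p2T (scale lam c) ^ 3) n =
        PhiN k lam (fun c => lam ^ 2 * F c - β * p2T (scale lam c) ^ 3) n := by
      simp only [PhiN, GG]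
      rw [Finset.mul_sum, Finset.mul_sum, ← Finset.sum_sub_distrib]
      apply Finset.sum_congr rfl
      intro ξ _
      ring
    rw [e4]
    exact GG_yn_scale hl0 hl1 _ _ hY n
  have e0 : ∑ ω, GG p2T (yn (k + 2) lam n ω) = lam ^ 2 * PhiN k lam p2T n := by
    rw [GG_yn_scale_eq hl0 hl1 p2T (fun c => lam ^ 2 * p2T c) (fun c => p2T_scale lam c) n]
    simp only [PhiN, GG]
    rw [Finset.mul_sum]
    apply Finset.sum_congr rfl
    intro ξ _
    ring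
  have e2 : ∑ ω, GG (fun c => p2T c ^ 2) (yn (k + 2) lam n ω) =
      lam ^ 4 * PhiN k lam (fun c => p2T c ^ 2) n := by
    rw [GG_yn_scale_eq hl0 hl1 (fun c => p2T c ^ 2) (fun c => lam ^ 4 * p2T c ^ 2)
      (fun c => by simp only [p2T_scale]; ring) n]
    simp only [PhiN, GG]
    rw [Finset.mul_sum]
    apply Finset.sum_congr rfl
    intro ξ _
    ring
  obtain ⟨hy1, hy2⟩ := hfar n hn
  -- the partial merges
  have heJ : ∀ j : ℕ, eJ (yn (k + 2) lam n) j ≤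
      ((j : ℝ) + 1) * ((1 + δ) * (lam ^ 2 * y₀) + M * (lam ^ 4 * m₀)) := by
    intro j
    have := eJ_le hfam hyd hδ hM
      (by rintro a b ha ⟨c', hc', rfl⟩; exact hP a c' ha hc') j
    rw [e0, e2] at this
    refine this.trans (mul_le_mul_of_nonneg_left ?_ (by positivity))
    have h1 : lam ^ 2 * PhiN k lam p2T n ≤ lam ^ 2 * y₀ := mul_le_mul_of_nonneg_left hy1 (by positivity)
    have h2 : lam ^ 4 * PhiN k lam (fun c => p2T c ^ 2) n ≤ lam ^ 4 * m₀ :=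
      mul_le_mul_of_nonneg_left hy2 (by positivity)
    have h3 := mul_le_mul_of_nonneg_left h1 (by linarith : (0 : ℝ) ≤ 1 + δ)
    have h4 := mul_le_mul_of_nonneg_left h2 hM
    linarith
  have hsumC : ∑ j ∈ Finset.range (k + 1), Cc j * eJ (yn (k + 2) lam n) j ≤ ((k : ℝ) + 2) * β :=
    (Finset.sum_le_sum fun j _ => mul_le_mul_of_nonneg_left (heJ j) (hCc j)).trans hbudget
  have hS3 : 0 ≤ ∑ ω, GG (fun c => p2T c ^ 3) (yn (k + 2) lam n ω) :=
    Finset.sum_nonneg fun ξ _ => mul_nonneg (M3_nonneg (hfam.nn ξ)) (by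
      have := p2T_nonneg (cen (yn (k + 2) lam n ξ))
      positivity)
  have hPhi : 0 ≤ PhiN k lam F n := PhiN_nonneg' hl0 hl1 hψ0 n
  have hk2 : (0 : ℝ) ≤ (k : ℝ) + 2 := by positivity
  have h5 := mul_le_mul_of_nonneg_left hE hk2
  have h6 := mul_le_mul_of_nonneg_right hsumC hS3
  have h7 : ((k : ℝ) + 2) * (lam ^ 2 * PhiN k lam F n) ≤ PhiN k lam F n := by
    have := mul_le_mul_of_nonneg_right hd hPhi
    nlinarith [this]
  rw [e0] at hchain
  nlinarith [hchain, h5, h6, h7]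

end tree

end

end Vale.Agent.Lib.P154Neg
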