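import Vale.Agent.Lib.P154Neg.QForm

/-!
# Checks on uniform grids

The ray inequality and the bound on the normalization are checked on small cells of a uniform grid.
-/

namespace Vale.Agent.Lib.P154Neg

open Vale.Agent.Lib.P154 Vale.Agent.Lib.P154GW Vale.Agent.Lib.P154K Tp

noncomputable section

/-- A point of a real interval lies in a cell of a uniform grid. -/
lemma exists_cell {a b y : ℝ} {K : ℕ} (hK : 0 < K) (hab : a < b) (h0 : a ≤ y) (h1 : y ≤ b) :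
    ∃ i, i < K ∧ a + (b - a) * ((i : ℝ) / K) ≤ y ∧ y ≤ a + (b - a) * (((i : ℝ) + 1) / K) := by
  have hK' : (0 : ℝ) < K := by exact_mod_cast hK
  have hd : 0 < b - a := by linarith
  classical
  set P : ℕ → Prop := fun i => y ≤ a + (b - a) * (((i : ℝ) + 1) / K) with hP
  have hex : ∃ i, P i := by
    refine ⟨K, ?_⟩
    simp only [hP]
    have : (1 : ℝ) ≤ ((K : ℝ) + 1) / K := by
      rw [le_div_iff₀ hK']; linarith
    nlinarith
  let i := Nat.find hex
  have hi : P i := Nat.find_spec hex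
  have hiK : i < K := by
    by_contra hn
    have hn : K ≤ i := by omega
    have hmin : ∀ j, j < i → ¬ P j := fun j hj => Nat.find_min hex hj
    by_cases hK1 : K = 0
    · omega
    · have hlt : K - 1 < i := by omega
      apply hmin _ hlt
      simp only [hP]
      have e : (((K - 1 : ℕ) : ℝ) + 1) / K = 1 := by
        have : ((K - 1 : ℕ) : ℝ) + 1 = K := by
          have h1K : 1 ≤ K := by omega
          push_cast [Nat.cast_sub h1K]
          ring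
        rw [this, div_self hK'.ne']
      rw [e]
      linarith
  refine ⟨i, hiK, ?_, hi⟩
  by_cases h00 : i = 0
  · rw [h00]
    simp only [Nat.cast_zero, zero_div, mul_zero, add_zero]
    exact h0
  · have hj : i - 1 < i := by omega
    have hn : ¬ P (i - 1) := Nat.find_min hex hj
    simp only [hP, not_le] at hn
    have e : (((i - 1 : ℕ) : ℝ) + 1) = (i : ℝ) := by
      have h1K : 1 ≤ i := by omega
      push_cast [Nat.cast_sub h1K]
      ring
    rw [e] at hn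
    exact hn.le

/-- The sum of two variables of the first group. -/
def sA2 : Ex := .add (.v 0) (.v 1)
/-- The sum of two variables of the second group. -/
def sB2 : Ex := .add (.v 3) (.v 4)

/-- The expression of a coefficient list on a cell: `A = (A0 r0 + A1 r1) / eA`, `μ = (m0 r3 + m1 r4) / em`. -/
def qEc (Q : List (ℕ × ℕ × ℤ)) (na m : ℕ) (A0 A1 eA m0 m1 em : ℤ) : Ex :=
  sumE (Q.map fun t => .mul (.c t.2.2) (.mul (.mul
    (.pow (.add (.mul (.c A0) (.v 0)) (.mul (.c A1) (.v 1))) t.1)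
    (.pow (.mul (.c eA) sA2) (na - t.1)))
    (.mul (.sub (.pow (.mul (.c em) sB2) t.2.1)
        (.pow (.add (.mul (.c m0) (.v 3)) (.mul (.c m1) (.v 4))) t.2.1))
      (.pow (.mul (.c em) sB2) (m - t.2.1)))))

lemma val_qEc {Q : List (ℕ × ℕ × ℤ)} (hne : Q ≠ []) {na m : ℕ} (h1 : ∀ t ∈ Q, t.1 ≤ na)
    (h2 : ∀ t ∈ Q, t.2.1 ≤ m) (A0 A1 eA m0 m1 em : ℤ) (r : Fin 6 → ℝ)
    (hS : sA2.val r = 1) (hT : sB2.val r = 1) {A μ : ℝ} (hA : (eA : ℝ) * A = A0 * r 0 + A1 * r 1)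
    (hμ : (em : ℝ) * μ = m0 * r 3 + m1 * r 4) :
    (qEc Q na m A0 A1 eA m0 m1 em).val r = (eA : ℝ) ^ na * (em : ℝ) ^ m * qVal Q A μ := by
  rw [qEc, val_sumE _ (by simpa using hne), qVal, List.map_map, ← List.sum_map_mul_left]
  apply congrArg
  apply List.map_congr_left
  intro t ht
  simp only [Function.comp, Ex.val, hS, hT, mul_one]
  have b1 := h1 t ht
  have b2 := h2 t ht
  rw [← hμ, ← hA]
  have e1 : (eA : ℝ) ^ na = eA ^ (na - t.1) * eA ^ t.1 := by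
    rw [← pow_add]; congr 1; omega
  have e2 : (em : ℝ) ^ m = em ^ t.2.1 * em ^ (m - t.2.1) := by
    rw [← pow_add]; congr 1; omega
  rw [e1, e2, mul_pow, mul_pow]
  ring

/-- The discriminant on a cell. -/
def discEc (Qa Qb Qg : List (ℕ × ℕ × ℤ)) (na m : ℕ) (A0 A1 eA m0 m1 em : ℤ) : Ex :=
  .sub (.mul (.c 4) (.mul (qEc Qa na m A0 A1 eA m0 m1 em) (qEc Qg na m A0 A1 eA m0 m1 em)))
    (.pow (qEc Qb na m A0 A1 eA m0 m1 em) 2)

/-- All three checks on one cell. -/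
def cellCheck (W na m : ℕ) (Qa Qb Qg : List (ℕ × ℕ × ℤ)) (A0 A1 eA m0 m1 em : ℤ) : Bool :=
  check W na m (qEc Qa na m A0 A1 eA m0 m1 em) &&
  check W na m (qEc Qg na m A0 A1 eA m0 m1 em) &&
  check W (2 * na) (2 * m) (discEc Qa Qb Qg na m A0 A1 eA m0 m1 em)

/-- The grid on `A` in `[0, Ah / eA]` and `μ` in `[l / e, h / e]`. -/
def gridCheck (W na m : ℕ) (Qa Qb Qg : List (ℕ × ℕ × ℤ)) (Ah eA : ℤ) (KA : ℕ) (l h e : ℤ) (Km : ℕ) : Bool :=
  (List.range KA).all fun i => (List.range Km).all fun j =>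
    cellCheck W na m Qa Qb Qg (Ah * i) (Ah * (i + 1)) (eA * KA)
      (l * Km + (h - l) * j) (l * Km + (h - l) * (j + 1)) (e * Km)

variable {Qa Qb Qg : List (ℕ × ℕ × ℤ)} {W na m : ℕ}

/-- The three inequalities on a cell. -/
theorem cell_ineq (hneA : Qa ≠ []) (hneB : Qb ≠ []) (hneG : Qg ≠ [])
    (h1A : ∀ t ∈ Qa, t.1 ≤ na) (h2A : ∀ t ∈ Qa, t.2.1 ≤ m)
    (h1B : ∀ t ∈ Qb, t.1 ≤ na) (h2B : ∀ t ∈ Qb, t.2.1 ≤ m)
    (h1G : ∀ t ∈ Qg, t.1 ≤ na) (h2G : ∀ t ∈ Qg, t.2.1 ≤ m)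
    {A0 A1 eA m0 m1 em : ℤ} (hc : cellCheck W na m Qa Qb Qg A0 A1 eA m0 m1 em = true)
    (heA : 0 < eA) (hem : 0 < em) (hA01 : A0 < A1) (hm01 : m0 < m1) {A μ : ℝ}
    (hA0 : (A0 : ℝ) / eA ≤ A) (hA1 : A ≤ (A1 : ℝ) / eA)
    (hμ0 : (m0 : ℝ) / em ≤ μ) (hμ1 : μ ≤ (m1 : ℝ) / em) :
    0 ≤ qVal Qa A μ ∧ 0 ≤ qVal Qg A μ ∧ qVal Qb A μ ^ 2 ≤ 4 * (qVal Qa A μ * qVal Qg A μ) := by
  simp only [cellCheck, Bool.and_eq_true] at hc
  obtain ⟨⟨c1, c2⟩, c3⟩ := hc
  have heA' : (0 : ℝ) < eA := by exact_mod_cast heA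
  have hem' : (0 : ℝ) < em := by exact_mod_cast hem
  have hA' : (A0 : ℝ) < A1 := by exact_mod_cast hA01
  have hm' : (m0 : ℝ) < m1 := by exact_mod_cast hm01
  have dA : (0 : ℝ) < A1 - A0 := by linarith
  have dm : (0 : ℝ) < m1 - m0 := by linarith
  set v : ℝ := A * eA with hv
  set u : ℝ := μ * em with hu
  have v0 : (A0 : ℝ) ≤ v := by rw [hv]; rwa [div_le_iff₀ heA'] at hA0
  have v1 : v ≤ A1 := by rw [hv]; rwa [le_div_iff₀ heA'] at hA1
  have u0 : (m0 : ℝ) ≤ u := by rw [hu]; rwa [div_le_iff₀ hem'] at hμ0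
  have u1 : u ≤ m1 := by rw [hu]; rwa [le_div_iff₀ hem'] at hμ1
  set r : Fin 6 → ℝ := ![(A1 - v) / (A1 - A0), (v - A0) / (A1 - A0), 0,
    (m1 - u) / (m1 - m0), (u - m0) / (m1 - m0), 0] with hr'
  have hr : ∀ i, 0 ≤ r i := by
    intro i
    fin_cases i
    · simp only [hr']; exact div_nonneg (by linarith) dA.le
    · simp only [hr']; exact div_nonneg (by linarith) dA.le
    · simp [hr']
    · simp only [hr']; exact div_nonneg (by linarith) dm.le
    · simp only [hr']; exact div_nonneg (by linarith) dm.le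
    · simp [hr']
  have hS : sA2.val r = 1 := by
    simp only [sA2, Ex.val, hr']; simp; field_simp; ring
  have hT : sB2.val r = 1 := by
    simp only [sB2, Ex.val, hr']; simp; field_simp; ring
  have hAe : (eA : ℝ) * A = A0 * r 0 + A1 * r 1 := by
    simp only [hr']; simp
    have : (eA : ℝ) * A = v := by rw [hv]; ring
    rw [this]
    field_simp
    ring
  have hμe : (em : ℝ) * μ = m0 * r 3 + m1 * r 4 := by
    simp only [hr']; simp
    have : (em : ℝ) * μ = u := by rw [hu]; ring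
    rw [this]
    field_simp
    ring
  have hpos : (0 : ℝ) < (eA : ℝ) ^ na * (em : ℝ) ^ m := by positivity
  have ea := val_qEc hneA h1A h2A A0 A1 eA m0 m1 em r hS hT hAe hμe
  have eb := val_qEc hneB h1B h2B A0 A1 eA m0 m1 em r hS hT hAe hμe
  have eg := val_qEc hneG h1G h2G A0 A1 eA m0 m1 em r hS hT hAe hμe
  have k1 := check_val c1 r hr
  have k2 := check_val c2 r hr
  have k3 := check_val c3 r hr
  rw [ea] at k1
  rw [eg] at k2
  simp only [discEc, Ex.val, ea, eb, eg] at k3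
  refine ⟨nonneg_of_mul_nonneg_right k1 hpos, nonneg_of_mul_nonneg_right k2 hpos, ?_⟩
  have e2 : ((4 : ℤ) : ℝ) * ((eA : ℝ) ^ na * (em : ℝ) ^ m * qVal Qa A μ *
      ((eA : ℝ) ^ na * (em : ℝ) ^ m * qVal Qg A μ)) -
      ((eA : ℝ) ^ na * (em : ℝ) ^ m * qVal Qb A μ) ^ 2 =
      ((eA : ℝ) ^ na * (em : ℝ) ^ m) ^ 2 * (4 * (qVal Qa A μ * qVal Qg A μ) - qVal Qb A μ ^ 2) := by
    push_cast
    ring
  rw [e2] at k3
  have := nonneg_of_mul_nonneg_right k3 (by positivity)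
  linarith

/-- The three inequalities from the check of the whole grid. -/
theorem grid_ineq (hneA : Qa ≠ []) (hneB : Qb ≠ []) (hneG : Qg ≠ [])
    (h1A : ∀ t ∈ Qa, t.1 ≤ na) (h2A : ∀ t ∈ Qa, t.2.1 ≤ m)
    (h1B : ∀ t ∈ Qb, t.1 ≤ na) (h2B : ∀ t ∈ Qb, t.2.1 ≤ m)
    (h1G : ∀ t ∈ Qg, t.1 ≤ na) (h2G : ∀ t ∈ Qg, t.2.1 ≤ m)
    {Ah eA l h e : ℤ} {KA Km : ℕ} (hKA : 0 < KA) (hKm : 0 < Km)
    (hc : gridCheck W na m Qa Qb Qg Ah eA KA l h e Km = true)
    (heA : 0 < eA) (he : 0 < e) (hAh : 0 < Ah) (hlh : l < h) {A μ : ℝ}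
    (hA0 : 0 ≤ A) (hA1 : A ≤ (Ah : ℝ) / eA)
    (hμ0 : (l : ℝ) / e ≤ μ) (hμ1 : μ ≤ (h : ℝ) / e) :
    0 ≤ qVal Qa A μ ∧ 0 ≤ qVal Qg A μ ∧ qVal Qb A μ ^ 2 ≤ 4 * (qVal Qa A μ * qVal Qg A μ) := by
  have hKA' : (0 : ℝ) < KA := by exact_mod_cast hKA
  have hKm' : (0 : ℝ) < Km := by exact_mod_cast hKm
  have heA' : (0 : ℝ) < eA := by exact_mod_cast heA
  have he' : (0 : ℝ) < e := by exact_mod_cast he
  have hAh' : (0 : ℝ) < Ah := by exact_mod_cast hAh
  have hlh' : (l : ℝ) < h := by exact_mod_cast hlh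
  have hab : (l : ℝ) / e < (h : ℝ) / e := div_lt_div_of_pos_right hlh' he'
  obtain ⟨i, hi, ci0, ci1⟩ := exists_cell hKA (a := 0) (b := (Ah : ℝ) / eA) (by positivity) hA0 hA1
  obtain ⟨j, hj, cj0, cj1⟩ := exists_cell hKm hab hμ0 hμ1
  simp only [gridCheck, List.all_eq_true, List.mem_range] at hc
  have hcell := hc i hi j hj
  refine cell_ineq hneA hneB hneG h1A h2A h1B h2B h1G h2G hcell (by positivity) (by positivity)
    (by nlinarith) ?_ ?_ ?_ ?_ ?_
  · have : (l * Km + (h - l) * j : ℤ) < l * Km + (h - l) * (j + 1) := by nlinarith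
    exact this
  · push_cast
    have e1 : (Ah : ℝ) * i / (eA * KA) = 0 + (Ah : ℝ) / eA * ((i : ℝ) / KA) := by
      field_simp
      ring
    rw [e1]
    rw [sub_zero] at ci0
    exact ci0
  · push_cast
    have e1 : (Ah : ℝ) * (i + 1) / (eA * KA) = 0 + (Ah : ℝ) / eA * (((i : ℝ) + 1) / KA) := by
      field_simp
      ring
    rw [e1]
    rw [sub_zero] at ci1
    exact ci1
  · push_cast
    have e1 : ((l : ℝ) * Km + (h - l) * j) / (e * Km) =
        (l : ℝ) / e + ((h : ℝ) / e - (l : ℝ) / e) * ((j : ℝ) / Km) := by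
      field_simp
    rw [e1]
    exact cj0
  · push_cast
    have e1 : ((l : ℝ) * Km + (h - l) * (j + 1)) / (e * Km) =
        (l : ℝ) / e + ((h : ℝ) / e - (l : ℝ) / e) * (((j : ℝ) + 1) / Km) := by
      field_simp
    rw [e1]
    exact cj1

/-- The bound on the normalization on a uniform grid of an interval. -/
def qGrid (W : ℕ) (Q : List (ℕ × ℤ)) (D g : ℕ) (qd l h e : ℤ) (K : ℕ) : Bool :=
  (List.range K).all fun i =>
    check W 0 (D - 1 + g) (qBoundE Q D g qd (l * K + (h - l) * i) (l * K + (h - l) * (i + 1)) (e * K))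

/-- The bound from the check of the whole grid. -/
theorem qGrid_bound {W : ℕ} {Q : List (ℕ × ℤ)} {D g : ℕ} {qd l h e : ℤ} {K : ℕ} (hK : 0 < K)
    (hQne : Q ≠ []) (hQ : ∀ t ∈ Q, t.1 ≤ g) (he : 0 < e) (hlh : l < h)
    (hc : qGrid W Q D g qd l h e K = true) {y : ℝ}
    (hy0 : (l : ℝ) / e ≤ y) (hy1 : y ≤ (h : ℝ) / e) :
    (qd : ℝ) ≤ y ^ (D - 1) * qPoly Q y := by
  have hK' : (0 : ℝ) < K := by exact_mod_cast hK
  have he' : (0 : ℝ) < e := by exact_mod_cast he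
  have hlh' : (l : ℝ) < h := by exact_mod_cast hlh
  have hab : (l : ℝ) / e < (h : ℝ) / e := div_lt_div_of_pos_right hlh' he'
  obtain ⟨i, hi, c0, c1⟩ := exists_cell hK hab hy0 hy1
  simp only [qGrid, List.all_eq_true, List.mem_range] at hc
  refine qBound_of_check hQne hQ (by positivity) ?_ (hc i hi) ?_ ?_
  · nlinarith
  · push_cast
    have e1 : ((l : ℝ) * K + (h - l) * i) / (e * K) =
        (l : ℝ) / e + ((h : ℝ) / e - (l : ℝ) / e) * ((i : ℝ) / K) := by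
      field_simp
    rw [e1]
    exact c0
  · push_cast
    have e1 : ((l : ℝ) * K + (h - l) * (i + 1)) / (e * K) =
        (l : ℝ) / e + ((h : ℝ) / e - (l : ℝ) / e) * (((i : ℝ) + 1) / K) := by
      field_simp
    rw [e1]
    exact c1

end

end Vale.Agent.Lib.P154Neg
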