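import Vale.Agent.Lib.P154Neg.Grid

/-!
# Small pieces: a bound on the power of the normalization for each rotation and each piece

On a pair of small triangles the normalization of each rotation has a narrow range, and the bound on its power
is a polynomial of low degree.
-/

namespace Vale.Agent.Lib.P154Neg

open Vale.Agent.Lib.P154 Vale.Agent.Lib.P154GW Vale.Agent.Lib.P154K Tp

noncomputable section

/-- The polynomial whose nonnegativity gives the merge inequality, with a bound for each rotation. -/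
def mkFQ3 (Ta Tb : Trg) (L : List (ℕ × ℕ × ℤ)) (D : ℕ) (Q0 Q1 Q2 : List (ℕ × ℤ)) (g : ℕ) (qd : ℤ)
    (R : List (ℕ × ℕ × ℕ × ℕ × ℤ)) : Ex :=
  let Da : Int := Ta.den
  let Db : Int := Tb.den
  let A := Ta.exA
  let B := Tb.exB
  let N0 := nE Da Db A B
  let N1 := nE Da Db A B.r1
  let N2 := nE Da Db A B.r2
  let C0 := cE Da Db A B
  let C1 := cE Da Db A B.r1
  let C2 := cE Da Db A B.r2
  let σ : Ex := .mul (.c (Da * Db)) (.mul sA sB)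
  let T0 := tE L (D - 1) (p2E C0) (p3E C0) N0
  let T1 := tE L (D - 1) (p2E C1) (p3E C1) N1
  let T2 := tE L (D - 1) (p2E C2) (p3E C2) N2
  .sub (.mul (.c (3 * qd)) (rE R (D + g) (D + g) Da Db A B))
    (.add (.add (.mul T0 (qHom Q0 g N0 σ)) (.mul T1 (qHom Q1 g N1 σ))) (.mul T2 (qHom Q2 g N2 σ)))

/-- The merge inequality at a point, from the check with a bound for each rotation. -/
theorem cyc_le_of_checkQ3 {W n m : ℕ} {Ta Tb : Trg} {L : List (ℕ × ℕ × ℤ)} {D g : ℕ}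
    {Q0 Q1 Q2 : List (ℕ × ℤ)} {qd : ℤ} {R : List (ℕ × ℕ × ℕ × ℕ × ℤ)}
    (hc : check W n m (mkFQ3 Ta Tb L D Q0 Q1 Q2 g qd R) = true)
    (hLne : L ≠ []) (hRne : R ≠ []) (hQ0ne : Q0 ≠ []) (hQ1ne : Q1 ≠ []) (hQ2ne : Q2 ≠ [])
    (hD1 : 1 ≤ D) (hqd : 0 < qd)
    (hL : ∀ t ∈ L, 2 * t.1 + 3 * t.2.1 ≤ D - 1 + 1)
    (hR : ∀ t ∈ R, 2 * t.1 + 3 * t.2.1 ≤ D + g ∧ 2 * t.2.2.1 + 3 * t.2.2.2.1 ≤ D + g)
    (hQ0 : ∀ t ∈ Q0, t.1 ≤ g) (hQ1 : ∀ t ∈ Q1, t.1 ≤ g) (hQ2 : ∀ t ∈ Q2, t.1 ≤ g)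
    (hDa : 0 < Ta.den) (hDb : 0 < Tb.den)
    {r : Fin 6 → ℝ} (hr : ∀ i, 0 ≤ r i) {a b : Tp} (hP : Pt r Ta Tb a b)
    (h0 : GQ L D Q0 qd a b) (h1 : GQ L D Q1 qd a b.r1) (h2 : GQ L D Q2 qd a b.r2) :
    cyc L a b ≤ rhsL R a b := by
  have key := check_val hc r hr
  set Da : ℝ := (Ta.den : ℝ) with hDa'
  set Db : ℝ := (Tb.den : ℝ) with hDb'
  have pa : 0 < Da := by rw [hDa']; exact_mod_cast hDa
  have pb : 0 < Db := by rw [hDb']; exact_mod_cast hDb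
  have hS : sA.val r = 1 := by rw [val_sA]; exact hP.sa
  have hT : sB.val r = 1 := by rw [val_sB]; exact hP.sb
  have hA : Ta.exA.val r = scale Da a := hP.va
  have hB : Tb.exB.val r = scale Db b := hP.vb
  have hB1 : Tb.exB.r1.val r = scale Db b.r1 := by rw [r1_val, hB, r1_scale]
  have hB2 : Tb.exB.r2.val r = scale Db b.r2 := by rw [r2_val, hB, r2_scale]
  have i1 : (((Ta.den : ℕ) : ℤ) : ℝ) = Da := by rw [hDa']; push_cast; rfl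
  have i2 : (((Tb.den : ℕ) : ℤ) : ℝ) = Db := by rw [hDb']; push_cast; rfl
  set DD := Da * Db with hDD
  have pD : 0 < DD := mul_pos pa pb
  have n0 := val_nE hS hT hA hB _ _ i1 i2
  have n1 := val_nE hS hT hA hB1 _ _ i1 i2
  have n2 := val_nE hS hT hA hB2 _ _ i1 i2
  have c0 := val_cE hS hT hA hB _ _ i1 i2
  have c1 := val_cE hS hT hA hB1 _ _ i1 i2
  have c2 := val_cE hS hT hA hB2 _ _ i1 i2
  have t0 := val_tE (r := r) hLne hL (P2 := p2E (cE Ta.den Tb.den Ta.exA Tb.exB))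
    (P3 := p3E (cE Ta.den Tb.den Ta.exA Tb.exB)) (N := nE Ta.den Tb.den Ta.exA Tb.exB)
    (a := a) (b := b) (D := DD) (ne_of_gt pD) h0.pos
    (by rw [val_p2E, c0, p2T_scale']) (by rw [val_p3E, c0, p3T_scale']) n0
  have t1 := val_tE (r := r) hLne hL (P2 := p2E (cE Ta.den Tb.den Ta.exA Tb.exB.r1))
    (P3 := p3E (cE Ta.den Tb.den Ta.exA Tb.exB.r1)) (N := nE Ta.den Tb.den Ta.exA Tb.exB.r1)
    (a := a) (b := b.r1) (D := DD) (ne_of_gt pD) h1.pos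
    (by rw [val_p2E, c1, p2T_scale']) (by rw [val_p3E, c1, p3T_scale']) n1
  have t2 := val_tE (r := r) hLne hL (P2 := p2E (cE Ta.den Tb.den Ta.exA Tb.exB.r2))
    (P3 := p3E (cE Ta.den Tb.den Ta.exA Tb.exB.r2)) (N := nE Ta.den Tb.den Ta.exA Tb.exB.r2)
    (a := a) (b := b.r2) (D := DD) (ne_of_gt pD) h2.pos
    (by rw [val_p2E, c2, p2T_scale']) (by rw [val_p3E, c2, p3T_scale']) n2
  have rr := val_rE (r := r) hRne hR _ _ i1 i2 hS hT hA hB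
  have hσ : (Ex.mul (.c (((Ta.den : ℕ) : ℤ) * ((Tb.den : ℕ) : ℤ))) (.mul sA sB)).val r = DD := by
    simp only [Ex.val, hS, hT, mul_one]
    push_cast
    rfl
  have q0 := val_qHom hQ0ne hQ0 n0 hσ
  have q1 := val_qHom hQ1ne hQ1 n1 hσ
  have q2 := val_qHom hQ2ne hQ2 n2 hσ
  have e1 : D - 1 + 1 = D := by omega
  rw [e1] at t0 t1 t2
  simp only [mkFQ3, Ex.val, t0, t1, t2, q0, q1, q2, rr] at key
  have hqd' : (0 : ℝ) < qd := by exact_mod_cast hqd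
  have e2 : ((3 * qd : ℤ) : ℝ) * (Da ^ (D + g) * Db ^ (D + g) * rhsL R a b) =
      3 * (qd : ℝ) * (DD ^ (D + g) * rhsL R a b) := by
    rw [hDD, mul_pow]
    push_cast
    ring
  rw [e2] at key
  exact alg_finalQ DD (rhsL R a b) qd D g _ _ _ _ _ _ _ _ _ hD1 pD h0.pos h1.pos h2.pos hqd' h0.nn h1.nn h2.nn
    h0.bd h1.bd h2.bd key

/-- The data of a rotation on a piece: the polynomial, and the range of the normalization split at `m`. -/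
structure RotD where
  Q : List (ℕ × ℤ)
  l : ℤ
  m : ℤ
  h : ℤ
  e : ℤ
  K1 : ℕ
  K2 : ℕ

/-- The numerator of `N - l / e`. -/
def nLoE (Ta Tb : Trg) (B : E3) (l e : ℤ) : Ex :=
  .sub (.mul (.c e) (nE Ta.den Tb.den Ta.exA B))
    (.mul (.c l) (.mul (.c (((Ta.den : ℕ) : ℤ) * ((Tb.den : ℕ) : ℤ))) (.mul sA sB)))

/-- The numerator of `h / e - N`. -/
def nHiE (Ta Tb : Trg) (B : E3) (h e : ℤ) : Ex :=
  .sub (.mul (.c h) (.mul (.c (((Ta.den : ℕ) : ℤ) * ((Tb.den : ℕ) : ℤ))) (.mul sA sB)))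
    (.mul (.c e) (nE Ta.den Tb.den Ta.exA B))

/-- The checks of a rotation. -/
def rotOK (W2 W3 D g : ℕ) (qd : ℤ) (Ta Tb : Trg) (B : E3) (d : RotD) : Bool :=
  check W2 1 1 (nLoE Ta Tb B d.l d.e) && check W2 1 1 (nHiE Ta Tb B d.h d.e) &&
  decide (0 < d.e) && decide (0 < d.l) && decide (d.l < d.m) && decide (d.m < d.h) &&
  decide (0 < d.K1) && decide (0 < d.K2) && !d.Q.isEmpty && d.Q.all (fun t => decide (t.1 ≤ g)) &&
  qGrid W3 d.Q D g qd d.l d.m d.e d.K1 && qGrid W3 d.Q D g qd d.m d.h d.e d.K2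

/-- The consequences of the checks of a rotation at a point. -/
theorem rot_sound {W2 W3 D g : ℕ} {qd : ℤ} {Ta Tb : Trg} {B : E3} {d : RotD}
    (h : rotOK W2 W3 D g qd Ta Tb B d = true) (hDa : 0 < Ta.den) (hDb : 0 < Tb.den)
    {r : Fin 6 → ℝ} (hr : ∀ i, 0 ≤ r i) {a b : Tp} (hS : sA.val r = 1) (hT : sB.val r = 1)
    (hA : Ta.exA.val r = scale Ta.den a) (hB : B.val r = scale Tb.den b) :
    0 < 1 + 3 * sF a b ∧ d.Q ≠ [] ∧ (∀ t ∈ d.Q, t.1 ≤ g) ∧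
      (qd : ℝ) ≤ (1 + 3 * sF a b) ^ (D - 1) * qPoly d.Q (1 + 3 * sF a b) := by
  simp only [rotOK, Bool.and_eq_true, decide_eq_true_eq, Bool.not_eq_true', List.isEmpty_eq_false_iff,
    List.all_eq_true] at h
  obtain ⟨⟨⟨⟨⟨⟨⟨⟨⟨⟨⟨c1, c2⟩, he⟩, hl⟩, hlm⟩, hmh⟩, hK1⟩, hK2⟩, hQne⟩, hQ⟩, g1⟩, g2⟩ := h
  have pa : (0 : ℝ) < (Ta.den : ℝ) := by exact_mod_cast hDa
  have pb : (0 : ℝ) < (Tb.den : ℝ) := by exact_mod_cast hDb
  set Da : ℝ := (Ta.den : ℝ) with hDa'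
  set Db : ℝ := (Tb.den : ℝ) with hDb'
  have i1 : (((Ta.den : ℕ) : ℤ) : ℝ) = Da := by rw [hDa']; push_cast; rfl
  have i2 : (((Tb.den : ℕ) : ℤ) : ℝ) = Db := by rw [hDb']; push_cast; rfl
  have n0 := val_nE hS hT hA hB _ _ i1 i2
  have e3 : ((((Ta.den : ℕ) : ℤ) * ((Tb.den : ℕ) : ℤ) : ℤ) : ℝ) = Da * Db := by
    push_cast
    rfl
  have k1 := check_val c1 r hr
  have k2 := check_val c2 r hr
  simp only [nLoE, Ex.val, n0, hS, hT, mul_one, e3] at k1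
  simp only [nHiE, Ex.val, n0, hS, hT, mul_one, e3] at k2
  have pD : 0 < Da * Db := mul_pos pa pb
  set N := 1 + 3 * sF a b with hN
  have he' : (0 : ℝ) < d.e := by exact_mod_cast he
  have hl' : (0 : ℝ) < d.l := by exact_mod_cast hl
  have y0 : (d.l : ℝ) / d.e ≤ N := by
    rw [div_le_iff₀ he']
    have : 0 ≤ (Da * Db) * (d.e * N - d.l) := by nlinarith
    have := nonneg_of_mul_nonneg_right this pD
    linarith
  have y1 : N ≤ (d.h : ℝ) / d.e := by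
    rw [le_div_iff₀ he']
    have : 0 ≤ (Da * Db) * (d.h - d.e * N) := by nlinarith
    have := nonneg_of_mul_nonneg_right this pD
    linarith
  have hNpos : 0 < N := lt_of_lt_of_le (div_pos hl' he') y0
  have hQ' : ∀ t ∈ d.Q, t.1 ≤ g := hQ
  refine ⟨hNpos, hQne, hQ', ?_⟩
  rcases le_total N ((d.m : ℝ) / d.e) with hm | hm
  · exact qGrid_bound hK1 hQne hQ' he hlm g1 y0 hm
  · exact qGrid_bound hK2 hQne hQ' he hmh g2 hm y1

/-- A triangle inside the simplex, with positive denominator. -/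
def okT (T : Trg) : Bool :=
  decide (0 < T.den) &&
  decide (T.x0 + T.y0 + T.z0 = 0) && decide (T.x1 + T.y1 + T.z1 = 0) && decide (T.x2 + T.y2 + T.z2 = 0) &&
  decide (-(T.den : ℤ) ≤ 3 * T.x0) && decide (-(T.den : ℤ) ≤ 3 * T.y0) && decide (-(T.den : ℤ) ≤ 3 * T.z0) &&
  decide (-(T.den : ℤ) ≤ 3 * T.x1) && decide (-(T.den : ℤ) ≤ 3 * T.y1) && decide (-(T.den : ℤ) ≤ 3 * T.z1) &&
  decide (-(T.den : ℤ) ≤ 3 * T.x2) && decide (-(T.den : ℤ) ≤ 3 * T.y2) && decide (-(T.den : ℤ) ≤ 3 * T.z2)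

lemma okT_den {T : Trg} (h : okT T = true) : 0 < T.den := by
  simp only [okT, Bool.and_eq_true, decide_eq_true_eq] at h
  tauto

lemma okT_inSx {T : Trg} (h : okT T = true) {u v w : ℝ} (hu : 0 ≤ u) (hv : 0 ≤ v) (hw : 0 ≤ w)
    (hs : u + v + w = 1) : InSx 1 (T.pt u v w) := by
  simp only [okT, Bool.and_eq_true, decide_eq_true_eq] at h
  obtain ⟨⟨⟨⟨⟨⟨⟨⟨⟨⟨⟨⟨hd, s0⟩, s1⟩, s2⟩, a0⟩, b0⟩, c0⟩, a1⟩, b1⟩, c1⟩, a2⟩, b2⟩, c2⟩ := h
  have hD : (0 : ℝ) < (T.den : ℝ) := by exact_mod_cast hd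
  have cast : ∀ {x : ℤ}, -(T.den : ℤ) ≤ 3 * x → -(T.den : ℝ) ≤ 3 * (x : ℝ) := by
    intro x hx
    exact_mod_cast hx
  have cs : ∀ {x y z : ℤ}, x + y + z = 0 → (x : ℝ) + y + z = 0 := by
    intro x y z hx
    exact_mod_cast hx
  have key : ∀ x0 x1 x2 : ℝ, -(T.den : ℝ) ≤ 3 * x0 → -(T.den : ℝ) ≤ 3 * x1 → -(T.den : ℝ) ≤ 3 * x2 →
      -1 / 3 ≤ (x0 * u + x1 * v + x2 * w) / (T.den : ℝ) := by
    intro x0 x1 x2 h0 h1 h2
    rw [le_div_iff₀ hD]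
    nlinarith [mul_le_mul_of_nonneg_right h0 hu, mul_le_mul_of_nonneg_right h1 hv,
      mul_le_mul_of_nonneg_right h2 hw]
  have s0' := cs s0
  have s1' := cs s1
  have s2' := cs s2
  refine ⟨?_, key _ _ _ (cast a0) (cast a1) (cast a2), key _ _ _ (cast b0) (cast b1) (cast b2),
    key _ _ _ (cast c0) (cast c1) (cast c2)⟩
  simp only [Tp.ZS, Trg.pt]
  rw [← add_div, ← add_div]
  have : (T.x0 : ℝ) * u + T.x1 * v + T.x2 * w + ((T.y0 : ℝ) * u + T.y1 * v + T.y2 * w) +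
      ((T.z0 : ℝ) * u + T.z1 * v + T.z2 * w) = 0 := by
    linear_combination u * s0' + v * s1' + w * s2'
  rw [this, zero_div]

/-- All the checks of a piece. -/
def leafOK (W W2 W3 : ℕ) (Ta Tb : Trg) (L : List (ℕ × ℕ × ℤ)) (D g : ℕ) (qd : ℤ)
    (R : List (ℕ × ℕ × ℕ × ℕ × ℤ)) (d0 d1 d2 : RotD) : Bool :=
  okT Ta && okT Tb && rotOK W2 W3 D g qd Ta Tb Tb.exB d0 && rotOK W2 W3 D g qd Ta Tb Tb.exB.r1 d1 &&
  rotOK W2 W3 D g qd Ta Tb Tb.exB.r2 d2 &&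
  check W (D + g) (D + g) (mkFQ3 Ta Tb L D d0.Q d1.Q d2.Q g qd R)

/-- **The merge inequality on a piece.** -/
theorem holdsOn_of_leafOK {W W2 W3 : ℕ} {Ta Tb : Trg} {L : List (ℕ × ℕ × ℤ)} {D g : ℕ} {qd : ℤ}
    {R : List (ℕ × ℕ × ℕ × ℕ × ℤ)} {d0 d1 d2 : RotD}
    (hLne : L ≠ []) (hRne : R ≠ []) (hD1 : 1 ≤ D) (hqd : 0 < qd)
    (hL : ∀ t ∈ L, 2 * t.1 + 3 * t.2.1 ≤ D - 1 + 1)
    (hR : ∀ t ∈ R, 2 * t.1 + 3 * t.2.1 ≤ D + g ∧ 2 * t.2.2.1 + 3 * t.2.2.2.1 ≤ D + g)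
    (hψ : ∀ c, InSx 1 c → 0 ≤ potL L c)
    (h : leafOK W W2 W3 Ta Tb L D g qd R d0 d1 d2 = true) : HoldsOn L R Ta Tb := by
  simp only [leafOK, Bool.and_eq_true] at h
  obtain ⟨⟨⟨⟨⟨oa, ob⟩, r0⟩, r1⟩, r2⟩, hc⟩ := h
  have hDa := okT_den oa
  have hDb := okT_den ob
  intro u v w u' v' w' hu hv hw hu' hv' hw' hs hs' _ _ _
  have hr : ∀ i, 0 ≤ mkR u v w u' v' w' i := by
    intro i; fin_cases i <;> simp [mkR] <;> assumption
  have hP : Pt (mkR u v w u' v' w') Ta Tb (Ta.pt u v w) (Tb.pt u' v' w') := by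
    refine ⟨by simpa [mkR] using hs, by simpa [mkR] using hs', ?_, ?_⟩
    · rw [exA_val _ _ hDa]; rfl
    · rw [exB_val _ _ hDb]; rfl
  have hS : sA.val (mkR u v w u' v' w') = 1 := by rw [val_sA]; exact hP.sa
  have hT : sB.val (mkR u v w u' v' w') = 1 := by rw [val_sB]; exact hP.sb
  have ha := okT_inSx oa hu hv hw hs
  have hb := okT_inSx ob hu' hv' hw' hs'
  set a := Ta.pt u v w with ha'
  set b := Tb.pt u' v' w' with hb'
  have hB : Tb.exB.val (mkR u v w u' v' w') = scale Tb.den b := hP.vb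
  have hB1 : Tb.exB.r1.val (mkR u v w u' v' w') = scale Tb.den b.r1 := by rw [r1_val, hB, r1_scale]
  have hB2 : Tb.exB.r2.val (mkR u v w u' v' w') = scale Tb.den b.r2 := by rw [r2_val, hB, r2_scale]
  obtain ⟨p0, ne0, q0, b0⟩ := rot_sound r0 hDa hDb hr hS hT hP.va hB
  obtain ⟨p1, ne1, q1, b1⟩ := rot_sound r1 hDa hDb hr hS hT hP.va hB1
  obtain ⟨p2, ne2, q2, b2⟩ := rot_sound r2 hDa hDb hr hS hT hP.va hB2
  exact cyc_le_of_checkQ3 hc hLne hRne ne0 ne1 ne2 hD1 hqd hL hR q0 q1 q2 hDa hDb hr hP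
    ⟨p0, b0, hψ _ (wF_inSx ha hb p0)⟩ ⟨p1, b1, hψ _ (wF_inSx ha hb.r1' p1)⟩
    ⟨p2, b2, hψ _ (wF_inSx ha hb.r2' p2)⟩

/-- Two triangles with the same points. -/
def Trg.eqv (T T' : Trg) : Bool :=
  decide (0 < T.den) && decide (0 < T'.den) &&
  decide ((T'.den : ℤ) * T.x0 = T.den * T'.x0) && decide ((T'.den : ℤ) * T.y0 = T.den * T'.y0) &&
  decide ((T'.den : ℤ) * T.z0 = T.den * T'.z0) && decide ((T'.den : ℤ) * T.x1 = T.den * T'.x1) &&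
  decide ((T'.den : ℤ) * T.y1 = T.den * T'.y1) && decide ((T'.den : ℤ) * T.z1 = T.den * T'.z1) &&
  decide ((T'.den : ℤ) * T.x2 = T.den * T'.x2) && decide ((T'.den : ℤ) * T.y2 = T.den * T'.y2) &&
  decide ((T'.den : ℤ) * T.z2 = T.den * T'.z2)

lemma Trg.pt_eq_of_eqv {T T' : Trg} (h : Trg.eqv T T' = true) (u v w : ℝ) : T.pt u v w = T'.pt u v w := by
  simp only [Trg.eqv, Bool.and_eq_true, decide_eq_true_eq] at h
  obtain ⟨⟨⟨⟨⟨⟨⟨⟨⟨⟨hd, hd'⟩, a0⟩, b0⟩, c0⟩, a1⟩, b1⟩, c1⟩, a2⟩, b2⟩, c2⟩ := h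
  have pd : (0 : ℝ) < (T.den : ℝ) := by exact_mod_cast hd
  have pd' : (0 : ℝ) < (T'.den : ℝ) := by exact_mod_cast hd'
  have cast : ∀ {x x' : ℤ}, (T'.den : ℤ) * x = T.den * x' → (T'.den : ℝ) * (x : ℝ) = T.den * (x' : ℝ) := by
    intro x x' hx
    exact_mod_cast hx
  have a0' := cast a0
  have b0' := cast b0
  have c0' := cast c0
  have a1' := cast a1
  have b1' := cast b1
  have c1' := cast c1
  have a2' := cast a2
  have b2' := cast b2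
  have c2' := cast c2
  simp only [Trg.pt]
  congr 1
  · rw [div_eq_div_iff pd.ne' pd'.ne']
    linear_combination u * a0' + v * a1' + w * a2'
  · rw [div_eq_div_iff pd.ne' pd'.ne']
    linear_combination u * b0' + v * b1' + w * b2'
  · rw [div_eq_div_iff pd.ne' pd'.ne']
    linear_combination u * c0' + v * c1' + w * c2'

/-- The merge inequality depends only on the points of the triangles. -/
theorem HoldsOn.congrT {L : List (ℕ × ℕ × ℤ)} {R : List (ℕ × ℕ × ℕ × ℕ × ℤ)} {Ta Ta' Tb Tb' : Trg}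
    (ha : Trg.eqv Ta Ta' = true) (hb : Trg.eqv Tb Tb' = true) (h : HoldsOn L R Ta' Tb') : HoldsOn L R Ta Tb := by
  intro u v w u' v' w' hu hv hw hu' hv' hw' hs hs'
  rw [Trg.pt_eq_of_eqv ha, Trg.pt_eq_of_eqv hb]
  exact h u v w u' v' w' hu hv hw hu' hv' hw' hs hs'

end

end Vale.Agent.Lib.P154Neg
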