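import Vale.Agent.Lib.P154K.Cham
import Vale.Agent.Lib.P154Q.Three

/-!
# Three colours, negative eigenvalue: a single stationary potential

For `b = -s c` with `c` on the simplex and small `s`, a potential `Ψ` with
`avg6 N Ψ(a ⊕ b) ≤ Ψ a + s ^ 2 Ψ c - T p2 a p2 b` gives nonreconstruction for every offspring law.
-/

open Filter Topology

namespace Vale.Agent.Lib.P154Neg

open Vale.Agent.Lib.P154 Vale.Agent.Lib.P154GW Vale.Agent.Lib.P154K Tp

noncomputable section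

/-- The sorted triples, multiplied by `-p/q`. -/
def chamberN (p q : ℕ) : Trg :=
  ⟨0, 0, 0, -(p : ℤ), -(p : ℤ), 2 * p, -(4 * p : ℤ), 2 * p, 2 * p, 6 * q⟩

/-- The reflected triples, multiplied by `-p/q`. -/
def chamberNR (p q : ℕ) : Trg :=
  ⟨0, 0, 0, -(p : ℤ), 2 * p, -(p : ℤ), -(4 * p : ℤ), 2 * p, 2 * p, 6 * q⟩

lemma chamberN_pt (p q : ℕ) (hq : 0 < q) (u v w : ℝ) :
    (chamberN p q).pt u v w = scale (-((p : ℝ) / q)) ((chamber 1 1).pt u v w) := by
  have hq' : (q : ℝ) ≠ 0 := by exact_mod_cast hq.ne'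
  apply Tp.ext <;>
  · simp only [Trg.pt, chamberN, chamber, scale]
    push_cast
    field_simp
    ring

lemma chamberNR_pt (p q : ℕ) (hq : 0 < q) (u v w : ℝ) :
    (chamberNR p q).pt u v w = scale (-((p : ℝ) / q)) ((chamber 1 1).pt u v w).r3 := by
  have hq' : (q : ℝ) ≠ 0 := by exact_mod_cast hq.ne'
  apply Tp.ext <;>
  · simp only [Trg.pt, chamberNR, chamber, scale, r3]
    push_cast
    field_simp
    ring

lemma chamberN_den (p q : ℕ) (hq : 0 < q) : 0 < (chamberN p q).den := by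
  simp only [chamberN]; omega
lemma chamberNR_den (p q : ℕ) (hq : 0 < q) : 0 < (chamberNR p q).den := by
  simp only [chamberNR]; omega

variable {L : List (ℕ × ℕ × ℤ)} {R : List (ℕ × ℕ × ℕ × ℕ × ℤ)}

/-- The merge inequality on a pair of triangles, where the normalizations are positive. -/
def HoldsOn (L : List (ℕ × ℕ × ℤ)) (R : List (ℕ × ℕ × ℕ × ℕ × ℤ)) (Ta Tb : Trg) : Prop :=
  ∀ u v w u' v' w' : ℝ, 0 ≤ u → 0 ≤ v → 0 ≤ w → 0 ≤ u' → 0 ≤ v' → 0 ≤ w' →
    u + v + w = 1 → u' + v' + w' = 1 →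
    0 < 1 + 3 * sF (Ta.pt u v w) (Tb.pt u' v' w') →
    0 < 1 + 3 * sF (Ta.pt u v w) (Tb.pt u' v' w').r1 →
    0 < 1 + 3 * sF (Ta.pt u v w) (Tb.pt u' v' w').r2 →
    cyc L (Ta.pt u v w) (Tb.pt u' v' w') ≤ rhsL R (Ta.pt u v w) (Tb.pt u' v' w')

/-- The check gives the inequality on the pair of triangles. -/
theorem holdsOn_of_check {W n m e nR mR : ℕ} {Ta Tb : Trg}
    (hc : check W n m (mkF Ta Tb L e R nR mR) = true)
    (hLne : L ≠ []) (hRne : R ≠ [])
    (hL : ∀ t ∈ L, 2 * t.1 + 3 * t.2.1 ≤ e + 1)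
    (hR : ∀ t ∈ R, 2 * t.1 + 3 * t.2.1 ≤ nR ∧ 2 * t.2.2.1 + 3 * t.2.2.2.1 ≤ mR)
    (hDa : 0 < Ta.den) (hDb : 0 < Tb.den) : HoldsOn L R Ta Tb := by
  intro u v w u' v' w' hu hv hw hu' hv' hw' hs hs' h0 h1 h2
  have hr : ∀ i, 0 ≤ mkR u v w u' v' w' i := by
    intro i; fin_cases i <;> simp [mkR] <;> assumption
  refine cyc_le_of_check hc hLne hRne hL hR hDa hDb hr ?_ h0 h1 h2
  refine ⟨by simpa [mkR] using hs, by simpa [mkR] using hs', ?_, ?_⟩
  · rw [exA_val _ _ hDa]; rfl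
  · rw [exB_val _ _ hDb]; rfl

/-- First half of a triangle. -/
def Trg.left (T : Trg) : Trg :=
  ⟨T.x1 + T.x2, T.y1 + T.y2, T.z1 + T.z2, 2 * T.x0, 2 * T.y0, 2 * T.z0, 2 * T.x1, 2 * T.y1, 2 * T.z1,
    2 * T.den⟩

/-- Second half of a triangle. -/
def Trg.right (T : Trg) : Trg :=
  ⟨T.x1 + T.x2, T.y1 + T.y2, T.z1 + T.z2, 2 * T.x2, 2 * T.y2, 2 * T.z2, 2 * T.x0, 2 * T.y0, 2 * T.z0,
    2 * T.den⟩

lemma Trg.left_den {T : Trg} (h : 0 < T.den) : 0 < (Trg.left T).den := by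
  simp only [Trg.left]; omega
lemma Trg.right_den {T : Trg} (h : 0 < T.den) : 0 < (Trg.right T).den := by
  simp only [Trg.right]; omega

lemma Trg.left_pt (T : Trg) (hD : 0 < T.den) (u v w : ℝ) :
    T.pt u v w = (Trg.left T).pt (2 * w) u (v - w) := by
  have h : (T.den : ℝ) ≠ 0 := by exact_mod_cast hD.ne'
  apply Tp.ext <;>
  · simp only [Trg.pt, Trg.left]
    push_cast
    field_simp
    ring

lemma Trg.right_pt (T : Trg) (hD : 0 < T.den) (u v w : ℝ) :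
    T.pt u v w = (Trg.right T).pt (2 * v) (w - v) u := by
  have h : (T.den : ℝ) ≠ 0 := by exact_mod_cast hD.ne'
  apply Tp.ext <;>
  · simp only [Trg.pt, Trg.right]
    push_cast
    field_simp
    ring

/-- Bisect the first triangle. -/
theorem HoldsOn.splitA {Ta Tb : Trg} (hD : 0 < Ta.den) (h1 : HoldsOn L R (Trg.left Ta) Tb)
    (h2 : HoldsOn L R (Trg.right Ta) Tb) : HoldsOn L R Ta Tb := by
  intro u v w u' v' w' hu hv hw hu' hv' hw' hs hs'
  rcases le_total w v with h | h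
  · rw [Trg.left_pt Ta hD u v w]
    exact h1 _ _ _ _ _ _ (by linarith) hu (by linarith) hu' hv' hw' (by linarith) hs'
  · rw [Trg.right_pt Ta hD u v w]
    exact h2 _ _ _ _ _ _ (by linarith) (by linarith) hu hu' hv' hw' (by linarith) hs'

/-- Bisect the second triangle. -/
theorem HoldsOn.splitB {Ta Tb : Trg} (hD : 0 < Tb.den) (h1 : HoldsOn L R Ta (Trg.left Tb))
    (h2 : HoldsOn L R Ta (Trg.right Tb)) : HoldsOn L R Ta Tb := by
  intro u v w u' v' w' hu hv hw hu' hv' hw' hs hs'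
  rcases le_total w' v' with h | h
  · rw [Trg.left_pt Tb hD u' v' w']
    exact h1 _ _ _ _ _ _ hu hv hw (by linarith) hu' (by linarith) hs (by linarith)
  · rw [Trg.right_pt Tb hD u' v' w']
    exact h2 _ _ _ _ _ _ hu hv hw (by linarith) (by linarith) hu' hs (by linarith)

/-- The image of `c` under `-s`. -/
def sc (s : ℝ) (c : Tp) : Tp := scale (-s) c

lemma sc_r1 (s : ℝ) (c : Tp) : sc s c.r1 = (sc s c).r1 := rfl
lemma sc_r2 (s : ℝ) (c : Tp) : sc s c.r2 = (sc s c).r2 := rfl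
lemma sc_r3 (s : ℝ) (c : Tp) : sc s c.r3 = (sc s c).r3 := rfl
lemma sc_r4 (s : ℝ) (c : Tp) : sc s c.r4 = (sc s c).r4 := rfl
lemma sc_r5 (s : ℝ) (c : Tp) : sc s c.r5 = (sc s c).r5 := rfl

/-- From `c` sorted or reflected to all `c`. -/
lemma all_bN (s : ℝ) (a : Tp)
    (hP : ∀ c, InSx 1 c → Srt c → cyc L a (sc s c) ≤ rhsL R a (sc s c))
    (hM : ∀ c, InSx 1 c → Srt c → cyc L a (sc s c).r3 ≤ rhsL R a (sc s c)) (c : Tp) (hc : InSx 1 c) :
    cyc L a (sc s c) ≤ rhsL R a (sc s c) := by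
  rcases le_total c.y c.x with h1 | h1 <;> rcases le_total c.z c.y with h2 | h2 <;>
    rcases le_total c.z c.x with h3 | h3
  · exact hP c hc ⟨h1, h2⟩
  · exact hP c hc ⟨h1, h2⟩
  · have := hM c.r3 hc.r3' ⟨h3, h2⟩
    have e : (sc s c.r3).r3 = sc s c := rfl
    rwa [e, sc_r3, rhsL_b3] at this
  · have := hP c.r2 hc.r2' ⟨h3, h1⟩
    rwa [sc_r2, cyc_r2, rhsL_r2] at this
  · have := hM c.r4 hc.r4' ⟨h1, h3⟩
    have e : (sc s c.r4).r3 = (sc s c).r1 := rfl
    have e' : rhsL R a (sc s c.r4) = rhsL R a (sc s c) := by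
      rw [sc_r4]; simp only [rhsL, p2T_r4, p3T_r4]
    rwa [e, cyc_r1, e'] at this
  · have := hP c.r1 hc.r1' ⟨h2, h3⟩
    rwa [sc_r1, cyc_r1, rhsL_r1] at this
  · have := hP c hc ⟨by linarith, by linarith⟩
    exact this
  · have := hM c.r5 hc.r5' ⟨h2, h1⟩
    have e : (sc s c.r5).r3 = (sc s c).r2 := rfl
    have e' : rhsL R a (sc s c.r5) = rhsL R a (sc s c) := by
      have : sc s c.r5 = (sc s c).r3.r1 := rfl
      rw [this, rhsL_r1, rhsL_b3]
    rwa [e, cyc_r2, e'] at this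

/-- From `a` sorted to all `a`. -/
lemma all_aN (s : ℝ) (hS : ∀ a c, InSx 1 a → Srt a → InSx 1 c →
      cyc L a (sc s c) ≤ rhsL R a (sc s c)) (a c : Tp)
    (ha : InSx 1 a) (hc : InSx 1 c) : cyc L a (sc s c) ≤ rhsL R a (sc s c) := by
  have s3 : ∀ a c, cyc L a.r3 (sc s c.r3) ≤ rhsL R a.r3 (sc s c.r3) →
      cyc L a (sc s c) ≤ rhsL R a (sc s c) := fun a c h => by
    rwa [sc_r3, cyc_r3, rhsL_r3] at h
  have s4 : ∀ a c, cyc L a.r4 (sc s c.r4) ≤ rhsL R a.r4 (sc s c.r4) →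
      cyc L a (sc s c) ≤ rhsL R a (sc s c) := fun a c h => by
    rwa [sc_r4, cyc_r4, rhsL_r4] at h
  rcases le_total a.y a.x with h1 | h1 <;> rcases le_total a.z a.y with h2 | h2 <;>
    rcases le_total a.z a.x with h3 | h3
  · exact hS a c ha ⟨h1, h2⟩ hc
  · exact hS a c ha ⟨h1, h2⟩ hc
  · exact s3 a c (hS _ _ ha.r3' ⟨h3, h2⟩ hc.r3')
  · refine s3 a c (s4 _ _ (hS _ _ ha.r3'.r4' ?_ hc.r3'.r4'))
    exact ⟨h3, h1⟩
  · exact s4 a c (hS _ _ ha.r4' ⟨h1, h3⟩ hc.r4')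
  · refine s4 a c (s3 _ _ (hS _ _ ha.r4'.r3' ?_ hc.r4'.r3'))
    exact ⟨h2, h3⟩
  · have := hS a c ha ⟨by linarith, by linarith⟩ hc
    exact this
  · refine s3 a c (s4 _ _ (s3 _ _ (hS _ _ ha.r3'.r4'.r3' ?_ hc.r3'.r4'.r3')))
    exact ⟨h2, h1⟩

lemma sF_sc (s : ℝ) (a c : Tp) : sF a (sc s c) = -s * sF a c := by
  simp only [sF, sc, scale]
  ring

/-- The normalization is positive for small `s`. -/
lemma Nsc_pos {a c : Tp} {s : ℝ} (ha : InSx 1 a) (hc : InSx 1 c) (hs0 : 0 ≤ s) (hs : 2 * s < 1) :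
    0 < 1 + 3 * sF a (sc s c) := by
  obtain ⟨_, h2⟩ := sF_range ha hc zero_le_one zero_le_one
  rw [sF_sc]
  nlinarith

/-- **The merge inequality for all pairs.** -/
theorem cyc_le_allN {p q : ℕ} (hq : 0 < q) (hs : 2 * p < q)
    (hHP : HoldsOn L R (chamber 1 1) (chamberN p q))
    (hHM : HoldsOn L R (chamber 1 1) (chamberNR p q)) (a c : Tp) (ha : InSx 1 a) (hc : InSx 1 c) :
    cyc L a (sc ((p : ℝ) / q) c) ≤ rhsL R a (sc ((p : ℝ) / q) c) := by
  have hq' : (0 : ℝ) < q := by exact_mod_cast hq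
  set s : ℝ := (p : ℝ) / q with hs'
  have hs0 : 0 ≤ s := by positivity
  have hs1 : 2 * s < 1 := by
    rw [hs', ← mul_div_assoc, div_lt_one hq']
    exact_mod_cast hs
  have h11 : InSx (((1 : ℕ) : ℝ) / ((1 : ℕ) : ℝ)) = InSx (1 : ℝ) := by norm_num
  refine all_aN s (fun a c ha hsa hc => ?_) a c ha hc
  obtain ⟨u, v, w, hu, hv, hw, hs1', rfl⟩ := chamber_coord (p := 1) (q := 1) (by norm_num) (by norm_num)
    (by simpa using ha) hsa
  refine all_bN s _ (fun c' hc' hsc => ?_) (fun c' hc' hsc => ?_) c hc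
  · obtain ⟨u', v', w', hu', hv', hw', hs2, rfl⟩ := chamber_coord (p := 1) (q := 1) (by norm_num)
      (by norm_num) (by simpa using hc') hsc
    have e : sc s ((chamber 1 1).pt u' v' w') = (chamberN p q).pt u' v' w' := by
      rw [chamberN_pt p q hq]; rfl
    have n0 := Nsc_pos ha hc' hs0 hs1
    have n1 := Nsc_pos ha hc'.r1' hs0 hs1
    have n2 := Nsc_pos ha hc'.r2' hs0 hs1
    rw [sc_r1] at n1
    rw [sc_r2] at n2
    rw [e] at n0 n1 n2 ⊢
    exact hHP u v w u' v' w' hu hv hw hu' hv' hw' hs1' hs2 n0 n1 n2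
  · obtain ⟨u', v', w', hu', hv', hw', hs2, rfl⟩ := chamber_coord (p := 1) (q := 1) (by norm_num)
      (by norm_num) (by simpa using hc') hsc
    have e : (sc s ((chamber 1 1).pt u' v' w')).r3 = (chamberNR p q).pt u' v' w' := by
      rw [chamberNR_pt p q hq]; rfl
    have hc3 := hc'.r3'
    have n0 := Nsc_pos ha hc3 hs0 hs1
    have n1 := Nsc_pos ha hc3.r1' hs0 hs1
    have n2 := Nsc_pos ha hc3.r2' hs0 hs1
    rw [sc_r1] at n1
    rw [sc_r2] at n2
    rw [sc_r3, e] at n0 n1 n2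
    have key := hHM u v w u' v' w' hu hv hw hu' hv' hw' hs1' hs2 n0 n1 n2
    rw [← e, rhsL_b3] at key
    rw [e]
    rw [e] at key
    exact key

/-- **The merge inequality with the average over all rearrangements.** -/
theorem avg6_le_allN {p q : ℕ} (hq : 0 < q) (hs : 2 * p < q)
    (hHP : HoldsOn L R (chamber 1 1) (chamberN p q))
    (hHM : HoldsOn L R (chamber 1 1) (chamberNR p q)) (a c : Tp) (ha : InSx 1 a) (hc : InSx 1 c) :
    avg6 (fun b' => (1 + 3 * sF a b') * potL L (wF a b')) (sc ((p : ℝ) / q) c) ≤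
      rhsL R a (sc ((p : ℝ) / q) c) := by
  rw [avg6_cyc]
  have h1 := cyc_le_allN hq hs hHP hHM a c ha hc
  have h2 := cyc_le_allN hq hs hHP hHM a c.r3 ha hc.r3'
  rw [sc_r3, rhsL_b3] at h2
  linarith

/-! ### Polynomial checks on one simplex -/

/-- Nonnegative on the sorted triples implies nonnegative on the simplex, for symmetric functions. -/
lemma nonneg_of_sorted (F : Tp → ℝ) (h3 : ∀ c, F c.r3 = F c) (h4 : ∀ c, F c.r4 = F c)
    (hS : ∀ c, InSx 1 c → Srt c → 0 ≤ F c) (c : Tp) (hc : InSx 1 c) : 0 ≤ F c := by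
  rcases le_total c.y c.x with h1 | h1 <;> rcases le_total c.z c.y with h2 | h2 <;>
    rcases le_total c.z c.x with h' | h'
  · exact hS c hc ⟨h1, h2⟩
  · exact hS c hc ⟨h1, h2⟩
  · rw [← h3]; exact hS _ hc.r3' ⟨h', h2⟩
  · rw [← h3, ← h4]; exact hS _ hc.r3'.r4' ⟨h', h1⟩
  · rw [← h4]; exact hS _ hc.r4' ⟨h1, h'⟩
  · rw [← h4, ← h3]; exact hS _ hc.r4'.r3' ⟨h2, h'⟩
  · exact hS c hc ⟨by linarith, by linarith⟩
  · rw [← h3, ← h4, ← h3]; exact hS _ hc.r3'.r4'.r3' ⟨h2, h1⟩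

/-- The polynomial of a list at a point of the first triangle. -/
def potE (L : List (ℕ × ℕ × ℤ)) (n : ℕ) (Da : Int) (A : E3) : Ex :=
  sumE (L.map fun t => .mul (.c t.2.2) (.mul (.mul (.pow (p2E A) t.1) (.pow (p3E A) t.2.1))
    (.pow (.mul (.c Da) sA) (n - (2 * t.1 + 3 * t.2.1)))))

lemma val_potE {L : List (ℕ × ℕ × ℤ)} (hne : L ≠ []) {n : ℕ} (hL : ∀ t ∈ L, 2 * t.1 + 3 * t.2.1 ≤ n)
    {r : Fin 6 → ℝ} {Da : ℝ} {A : E3} {a : Tp} (iA : ℤ) (h1 : (iA : ℝ) = Da)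
    (hS : sA.val r = 1) (hA : A.val r = scale Da a) :
    (potE L n iA A).val r = Da ^ n * potL L a := by
  rw [potE, val_sumE _ (by simpa using hne), potL, List.map_map, ← List.sum_map_mul_left]
  apply congrArg
  apply List.map_congr_left
  intro t ht
  simp only [Function.comp, Ex.val, val_p2E, val_p3E, hA, p2T_scale', p3T_scale', hS]
  have b1 := hL t ht
  have e1 : Da ^ n = Da ^ (n - (2 * t.1 + 3 * t.2.1)) * (Da ^ 2) ^ t.1 * (Da ^ 3) ^ t.2.1 := by
    have : n = (n - (2 * t.1 + 3 * t.2.1)) + 2 * t.1 + 3 * t.2.1 := by omega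
    conv_lhs => rw [this]
    rw [pow_add, pow_add, pow_mul, pow_mul]
  rw [e1]
  rw [h1, mul_pow, mul_pow]
  simp only [mul_one]
  ring

/-- A list with nonnegative polynomial on the chamber is nonnegative on the simplex. -/
theorem potL_nonneg_of_check {W n : ℕ} {L : List (ℕ × ℕ × ℤ)} (hne : L ≠ [])
    (hL : ∀ t ∈ L, 2 * t.1 + 3 * t.2.1 ≤ n)
    (hc : check W n 0 (potE L n (chamber 1 1).den (chamber 1 1).exA) = true) (c : Tp)
    (hC : InSx 1 c) : 0 ≤ potL L c := by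
  refine nonneg_of_sorted (potL L) (potL_r3 L) (potL_r4 L) (fun c hc' hs => ?_) c hC
  obtain ⟨u, v, w, hu, hv, hw, hs1, rfl⟩ := chamber_coord (p := 1) (q := 1) (by norm_num) (by norm_num)
    (by simpa using hc') hs
  have hr : ∀ i, 0 ≤ mkR u v w 0 0 0 i := by
    intro i; fin_cases i <;> simp [mkR] <;> assumption
  have key := check_val hc _ hr
  have hD : 0 < (chamber 1 1).den := by simp [chamber]
  have hS : sA.val (mkR u v w 0 0 0) = 1 := by
    rw [val_sA]; simpa [mkR] using hs1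
  have hA : (chamber 1 1).exA.val (mkR u v w 0 0 0) =
      scale ((((chamber 1 1).den : ℕ) : ℝ)) ((chamber 1 1).pt u v w) := by
    rw [exA_val _ _ hD]; rfl
  rw [val_potE hne hL _ (by push_cast; rfl) hS hA] at key
  have hD' : (0 : ℝ) < ((chamber 1 1).den : ℕ) := by exact_mod_cast hD
  exact nonneg_of_mul_nonneg_right key (by positivity)

/-- The polynomial of the ray inequality. -/
def rayE (L : List (ℕ × ℕ × ℤ)) (n m : ℕ) (Da : Int) (A : E3) : Ex :=
  sumE (L.map fun t => .mul (.c t.2.2) (.mul (.mul (.mul (.pow (p2E A) t.1) (.pow (p3E A) t.2.1))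
    (.pow (.mul (.c Da) sA) (n - (2 * t.1 + 3 * t.2.1))))
    (.mul (.sub (.pow sB (2 * t.1 + 3 * t.2.1 - 2)) (.pow (.v 3) (2 * t.1 + 3 * t.2.1 - 2)))
      (.pow sB (m - (2 * t.1 + 3 * t.2.1 - 2))))))

lemma potL_scale (L : List (ℕ × ℕ × ℤ)) (hL : ∀ t ∈ L, 2 ≤ 2 * t.1 + 3 * t.2.1) (μ : ℝ) (c : Tp) :
    μ ^ 2 * potL L c - potL L (scale μ c) =
      μ ^ 2 * (L.map fun t => (t.2.2 : ℝ) * (p2T c ^ t.1 * p3T c ^ t.2.1) *
        (1 - μ ^ (2 * t.1 + 3 * t.2.1 - 2))).sum := by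
  induction L with
  | nil => simp [potL]
  | cons x l ih =>
    have ih' := ih (fun t ht => hL t (List.mem_cons_of_mem _ ht))
    have hx := hL x List.mem_cons_self
    simp only [potL, List.map_cons, List.sum_cons] at ih' ⊢
    have e : μ ^ (2 * x.1 + 3 * x.2.1) = μ ^ 2 * μ ^ (2 * x.1 + 3 * x.2.1 - 2) := by
      rw [← pow_add]
      congr 1
      omega
    have e2 : p2T (scale μ c) ^ x.1 * p3T (scale μ c) ^ x.2.1 =
        μ ^ (2 * x.1 + 3 * x.2.1) * (p2T c ^ x.1 * p3T c ^ x.2.1) := by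
      rw [p2T_scale', p3T_scale', mul_pow, mul_pow, pow_add, pow_mul, pow_mul]
      ring
    rw [e2, e]
    linear_combination ih'

lemma val_rayE {L : List (ℕ × ℕ × ℤ)} (hne : L ≠ []) {n m : ℕ} (hL : ∀ t ∈ L, 2 * t.1 + 3 * t.2.1 ≤ n)
    (hL2 : ∀ t ∈ L, 2 * t.1 + 3 * t.2.1 - 2 ≤ m)
    {r : Fin 6 → ℝ} {Da : ℝ} {A : E3} {a : Tp} (iA : ℤ) (h1 : (iA : ℝ) = Da)
    (hS : sA.val r = 1) (hT : sB.val r = 1) (hA : A.val r = scale Da a) :
    (rayE L n m iA A).val r = Da ^ n * (L.map fun t => (t.2.2 : ℝ) * (p2T a ^ t.1 * p3T a ^ t.2.1) *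
        (1 - r 3 ^ (2 * t.1 + 3 * t.2.1 - 2))).sum := by
  rw [rayE, val_sumE _ (by simpa using hne), List.map_map, ← List.sum_map_mul_left]
  apply congrArg
  apply List.map_congr_left
  intro t ht
  simp only [Function.comp, Ex.val, val_p2E, val_p3E, hA, p2T_scale', p3T_scale', hS, hT, one_pow,
    mul_one]
  have b1 := hL t ht
  have e1 : Da ^ n = Da ^ (n - (2 * t.1 + 3 * t.2.1)) * (Da ^ 2) ^ t.1 * (Da ^ 3) ^ t.2.1 := by
    have : n = (n - (2 * t.1 + 3 * t.2.1)) + 2 * t.1 + 3 * t.2.1 := by omega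
    conv_lhs => rw [this]
    rw [pow_add, pow_add, pow_mul, pow_mul]
  rw [e1]
  rw [h1, mul_pow, mul_pow]
  ring

/-- The ray inequality from a check: `Ψ (μ c) ≤ μ ^ 2 Ψ c` for `μ` in `[0, 1]`. -/
theorem potL_ray_of_check {W n m : ℕ} {L : List (ℕ × ℕ × ℤ)} (hne : L ≠ [])
    (hL : ∀ t ∈ L, 2 * t.1 + 3 * t.2.1 ≤ n) (hL2 : ∀ t ∈ L, 2 * t.1 + 3 * t.2.1 - 2 ≤ m)
    (hL3 : ∀ t ∈ L, 2 ≤ 2 * t.1 + 3 * t.2.1)
    (hc : check W n m (rayE L n m (chamber 1 1).den (chamber 1 1).exA) = true) (c : Tp)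
    (hC : InSx 1 c) (μ : ℝ) (h0 : 0 ≤ μ) (h1 : μ ≤ 1) :
    potL L (scale μ c) ≤ μ ^ 2 * potL L c := by
  set Fμ : Tp → ℝ := fun c => (L.map fun t => (t.2.2 : ℝ) * (p2T c ^ t.1 * p3T c ^ t.2.1) *
        (1 - μ ^ (2 * t.1 + 3 * t.2.1 - 2))).sum with hF
  have h3 : ∀ c : Tp, Fμ c.r3 = Fμ c := fun c => by simp only [hF, p2T_r3, p3T_r3]
  have h4 : ∀ c : Tp, Fμ c.r4 = Fμ c := fun c => by simp only [hF, p2T_r4, p3T_r4]
  have key : 0 ≤ Fμ c := by
    refine nonneg_of_sorted Fμ h3 h4 (fun c hc' hs => ?_) c hC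
    obtain ⟨u, v, w, hu, hv, hw, hs1, rfl⟩ := chamber_coord (p := 1) (q := 1) (by norm_num)
      (by norm_num) (by simpa using hc') hs
    have hr : ∀ i, 0 ≤ mkR u v w μ (1 - μ) 0 i := by
      intro i
      fin_cases i <;> simp [mkR] <;> first | assumption | linarith
    have key := check_val hc _ hr
    have hD : 0 < (chamber 1 1).den := by simp [chamber]
    have hS : sA.val (mkR u v w μ (1 - μ) 0) = 1 := by
      rw [val_sA]; simpa [mkR] using hs1
    have hT : sB.val (mkR u v w μ (1 - μ) 0) = 1 := by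
      rw [val_sB]; simp [mkR]
    have hA : (chamber 1 1).exA.val (mkR u v w μ (1 - μ) 0) =
        scale ((((chamber 1 1).den : ℕ) : ℝ)) ((chamber 1 1).pt u v w) := by
      rw [exA_val _ _ hD]; rfl
    rw [val_rayE hne hL hL2 _ (by push_cast; rfl) hS hT hA] at key
    have hD' : (0 : ℝ) < ((chamber 1 1).den : ℕ) := by exact_mod_cast hD
    have e : mkR u v w μ (1 - μ) 0 3 = μ := by simp [mkR]
    rw [e] at key
    exact nonneg_of_mul_nonneg_right key (by positivity)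
  have e := potL_scale L hL3 μ c
  have : 0 ≤ μ ^ 2 * potL L c - potL L (scale μ c) := by
    rw [e]; exact mul_nonneg (sq_nonneg _) key
  linarith

lemma scale_scale (k l : ℝ) (c : Tp) : scale k (scale l c) = scale (k * l) c := by
  apply Tp.ext <;> simp only [scale] <;> ring

lemma scale_one' (c : Tp) : scale 1 c = c := by
  apply Tp.ext <;> simp only [scale] <;> ring

/-- **Nonreconstruction for a negative eigenvalue from a stationary potential**, for every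
offspring law. -/
theorem tendsto_neg {π : ℕ → ℝ} {d lam T C K' s : ℝ} {p q : ℕ}
    (hπ0 : ∀ k, 0 ≤ π k) (hπ : HasSum π 1) (hmean : HasSum (fun k : ℕ => (k : ℝ) * π k) d)
    (k₀ : ℕ) (hπ2 : 0 < π (k₀ + 2)) (hp : 0 < p) (hq : 0 < q) (hpq : 2 * p < q) (hs : s = (p : ℝ) / q)
    (hHP : HoldsOn L R (chamber 1 1) (chamberN p q))
    (hHM : HoldsOn L R (chamber 1 1) (chamberNR p q))
    (hrhs : ∀ a c, rhsL R a (sc s c) = potL L a + s ^ 2 * potL L c - T * (p2T a * p2T (sc s c)))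
    (hT : 0 < T)
    (hray : ∀ c, InSx 1 c → ∀ μ : ℝ, 0 ≤ μ → μ ≤ 1 → potL L (scale μ c) ≤ μ ^ 2 * potL L c)
    (hY : ∀ c, InSx 1 c → potL L (sc s c) ≤ s ^ 2 * potL L c)
    (hzero : potL L ⟨0, 0, 0⟩ ≤ 0) (hn : ∀ c, InSx 1 c → 0 ≤ potL L c)
    (hge : ∀ c, InSx 1 c → p2T c ≤ K' * potL L c) (hbd : ∀ c, InSx 1 c → potL L c ≤ C)
    (hl0 : -s ≤ lam) (hl : lam ≤ 0) (hd : d * lam ^ 2 ≤ 1) :
    Tendsto (Vale.Agent.Lib.P154GW.advantage π 3 lam) atTop (𝓝 0) := by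
  have hq' : (0 : ℝ) < q := by exact_mod_cast hq
  have hp' : (0 : ℝ) < p := by exact_mod_cast hp
  have hs0 : 0 < s := by rw [hs]; positivity
  have hs1 : 2 * s < 1 := by
    rw [hs, ← mul_div_assoc, div_lt_one hq']
    exact_mod_cast hpq
  have hsne : s ≠ 0 := hs0.ne'
  set ψ : Tp → ℝ := potL L with hψ
  set Y : Tp → ℝ := fun b => s ^ 2 * ψ (scale (-s⁻¹) b) with hYd
  have hYc : ∀ c, Y (sc s c) = s ^ 2 * ψ c := by
    intro c
    simp only [hYd, sc, scale_scale]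
    have : -s⁻¹ * -s = 1 := by field_simp
    rw [this, scale_one']
  open Vale.Agent.Lib.P154Q in
  have hD : QData (q := 3) lam (fun b => ∃ c, Vale.Agent.Lib.P154.InSx 1 c ∧ toT b = sc s c)
      (ψ ∘ toT) (Y ∘ toT) (fun _ => 0) (fun _ => 0) (fun _ => 0) (fun _ => 0) (fun _ => 0) 0 T (0 + 1) := by
    refine ⟨?_, ?_, fun _ _ => le_rfl, fun _ _ => le_rfl, fun _ _ => le_rfl, fun _ _ => le_rfl,
      hT.le, le_rfl, ?_, ?_, ?_, le_rfl, ?_, ?_, ?_, ?_⟩
    · rintro a b ha ⟨c, hc, hb⟩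
      rw [KK_three, hb]
      have key := avg6_le_allN (L := L) (R := R) hq hpq hHP hHM (toT a) c (toT_inSx ha) hc
      rw [← hs, hrhs] at key
      simp only [Function.comp, zero_add, pow_one, p2_toT, hb, hYc]
      simp only [mul_zero, sub_zero]
      exact key
    · intro a b _ _
      simp [KK]
    · intro c hc
      have h1 := toT_inSx hc
      refine ⟨scale (-lam / s) (toT c), ?_, ?_⟩
      · have hm0 : 0 ≤ -lam / s := div_nonneg (by linarith) hs0.le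
        have hm1 : -lam / s ≤ 1 := by
          rw [div_le_one hs0]; linarith
        refine ⟨?_, ?_, ?_, ?_⟩
        · have := h1.zs
          simp only [Tp.ZS, scale] at this ⊢
          have e : -lam / s * (toT c).x + -lam / s * (toT c).y + -lam / s * (toT c).z =
            -lam / s * ((toT c).x + (toT c).y + (toT c).z) := by ring
          rw [e, this, mul_zero]
        · simp only [scale]; nlinarith [h1.hx]
        · simp only [scale]; nlinarith [h1.hy]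
        · simp only [scale]; nlinarith [h1.hz]
      · rw [toT_smul]
        simp only [sc, scale_scale]
        congr 1
        field_simp
    · intro i j
      simp only [chan]
      have h3 : ((3 : ℕ) : ℝ) = 3 := by norm_num
      rw [h3]
      split_ifs <;> nlinarith
    · intro c _
      simp
    · intro τ
      exact le_rfl
    · intro c hc
      have h1 := toT_inSx hc
      simp only [Function.comp, toT_smul, hYd, scale_scale]
      have hm0 : 0 ≤ -lam / s := div_nonneg (by linarith) hs0.le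
      have hm1 : -lam / s ≤ 1 := by
        rw [div_le_one hs0]; linarith
      have e : -s⁻¹ * lam = -lam / s := by field_simp
      rw [e]
      have := hray _ h1 _ hm0 hm1
      have e2 : lam ^ 2 = s ^ 2 * (-lam / s) ^ 2 := by field_simp
      rw [e2, mul_assoc]
      exact mul_le_mul_of_nonneg_left this (sq_nonneg _)
    · rintro b ⟨c, hc, hb⟩
      simp only [Function.comp, hb, hYc]
      exact hY c hc
    · have e : toT (0 : Vale.Agent.Lib.P154Q.V 3) = ⟨0, 0, 0⟩ := rfl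
      simp only [Function.comp, e]
      exact hzero
  exact Vale.Agent.Lib.P154Q.tendsto_advantage (K := K') (C := C) hπ0 hπ hmean k₀ hπ2 hD hT
    (fun c hc => hn _ (Vale.Agent.Lib.P154Q.toT_inSx hc))
    (fun c hc => by
      rw [Vale.Agent.Lib.P154Q.p2_toT]
      exact hge _ (Vale.Agent.Lib.P154Q.toT_inSx hc))
    (fun c hc => hbd _ (Vale.Agent.Lib.P154Q.toT_inSx hc)) hd

end

end Vale.Agent.Lib.P154Neg
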