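import Vale.Agent.Lib.P154Neg.Ray

/-!
# The merge inequality with a polynomial bound on the power of the normalization

On the range of the normalization `N`, a polynomial `Q` bounds `1 / N ^ (D - 1)` from above.  Since the potential
is nonnegative on the simplex, this removes all denominators at a much lower degree.
-/

namespace Vale.Agent.Lib.P154Neg

open Vale.Agent.Lib.P154 Vale.Agent.Lib.P154GW Vale.Agent.Lib.P154K Tp

noncomputable section

/-- The value of the polynomial `Q`, as a list of exponents and integer coefficients. -/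
def qPoly (Q : List (ℕ × ℤ)) (y : ℝ) : ℝ := (Q.map fun t => (t.2 : ℝ) * y ^ t.1).sum

/-- The homogeneous form of `Q` of degree `g` in `N` and `σ`. -/
def qHom (Q : List (ℕ × ℤ)) (g : ℕ) (N σ : Ex) : Ex :=
  sumE (Q.map fun t => .mul (.c t.2) (.mul (.pow N t.1) (.pow σ (g - t.1))))

lemma val_qHom {Q : List (ℕ × ℤ)} (hne : Q ≠ []) {g : ℕ} (hQ : ∀ t ∈ Q, t.1 ≤ g) {r : Fin 6 → ℝ}
    {N σ : Ex} {D y : ℝ} (hN : N.val r = D * y) (hσ : σ.val r = D) :
    (qHom Q g N σ).val r = D ^ g * qPoly Q y := by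
  rw [qHom, val_sumE _ (by simpa using hne), qPoly, List.map_map, ← List.sum_map_mul_left]
  apply congrArg
  apply List.map_congr_left
  intro t ht
  simp only [Function.comp, Ex.val, hN, hσ]
  have h := hQ t ht
  have e : D ^ g = D ^ t.1 * D ^ (g - t.1) := by
    rw [← pow_add]; congr 1; omega
  rw [e, mul_pow]
  ring

/-- The polynomial whose nonnegativity gives the merge inequality on the two triangles, with `Q`. -/
def mkFQ (Ta Tb : Trg) (L : List (ℕ × ℕ × ℤ)) (D : ℕ) (Q : List (ℕ × ℤ)) (g : ℕ) (qd : ℤ)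
    (R : List (ℕ × ℕ × ℕ × ℕ × ℤ)) : Ex :=
  let Da : Int := Ta.den
  let Db : Int := Tb.den
  let A := Ta.exA
  let B := Tb.exB
  let N0 := nE Da Db A B
  let N1 := nE Da Db A B.r1
  let N2 := nE Da Db A B.r2
  let C0 := cE Da Db A B
  let C1 := cE Da Db A B.r1
  let C2 := cE Da Db A B.r2
  let σ : Ex := .mul (.c (Da * Db)) (.mul sA sB)
  let T0 := tE L (D - 1) (p2E C0) (p3E C0) N0
  let T1 := tE L (D - 1) (p2E C1) (p3E C1) N1
  let T2 := tE L (D - 1) (p2E C2) (p3E C2) N2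
  .sub (.mul (.c (3 * qd)) (rE R (D + g) (D + g) Da Db A B))
    (.add (.add (.mul T0 (qHom Q g N0 σ)) (.mul T1 (qHom Q g N1 σ))) (.mul T2 (qHom Q g N2 σ)))

/-- What is needed of a rotation. -/
structure GQ (L : List (ℕ × ℕ × ℤ)) (D : ℕ) (Q : List (ℕ × ℤ)) (qd : ℤ) (a b : Tp) : Prop where
  pos : 0 < 1 + 3 * sF a b
  bd : (qd : ℝ) ≤ (1 + 3 * sF a b) ^ (D - 1) * qPoly Q (1 + 3 * sF a b)
  nn : 0 ≤ potL L (wF a b)

/-- The algebra at the end of the reduction. -/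
lemma alg_finalQ (D' Rh qd : ℝ) (D g : ℕ) (N0 N1 N2 P0 P1 P2 Q0 Q1 Q2 : ℝ) (hD : 1 ≤ D) (pD : 0 < D')
    (h0 : 0 < N0) (h1 : 0 < N1) (h2 : 0 < N2) (hqd : 0 < qd)
    (p0 : 0 ≤ P0) (p1 : 0 ≤ P1) (p2 : 0 ≤ P2)
    (b0 : qd ≤ N0 ^ (D - 1) * Q0) (b1 : qd ≤ N1 ^ (D - 1) * Q1) (b2 : qd ≤ N2 ^ (D - 1) * Q2)
    (key : 0 ≤ 3 * qd * (D' ^ (D + g) * Rh) -
      ((D' * N0) ^ D * P0 * (D' ^ g * Q0) + (D' * N1) ^ D * P1 * (D' ^ g * Q1) +
        (D' * N2) ^ D * P2 * (D' ^ g * Q2))) :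
    (N0 * P0 + N1 * P1 + N2 * P2) / 3 ≤ Rh := by
  have e : 3 * qd * (D' ^ (D + g) * Rh) -
      ((D' * N0) ^ D * P0 * (D' ^ g * Q0) + (D' * N1) ^ D * P1 * (D' ^ g * Q1) +
        (D' * N2) ^ D * P2 * (D' ^ g * Q2)) =
      D' ^ (D + g) * (3 * qd * Rh - (N0 ^ D * P0 * Q0 + N1 ^ D * P1 * Q1 + N2 ^ D * P2 * Q2)) := by
    rw [mul_pow, mul_pow, mul_pow, pow_add]
    ring
  rw [e] at key
  have key2 := nonneg_of_mul_nonneg_right key (by positivity)
  have step : ∀ N P Q : ℝ, 0 < N → 0 ≤ P → qd ≤ N ^ (D - 1) * Q → qd * (N * P) ≤ N ^ D * P * Q := by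
    intro N P Q hN hP hb
    have e2 : N ^ D = N * N ^ (D - 1) := by
      rw [← pow_succ']; congr 1; omega
    rw [e2]
    have : qd * (N * P) ≤ (N ^ (D - 1) * Q) * (N * P) :=
      mul_le_mul_of_nonneg_right hb (mul_nonneg hN.le hP)
    calc qd * (N * P) ≤ (N ^ (D - 1) * Q) * (N * P) := this
      _ = N * N ^ (D - 1) * P * Q := by ring
  have s0 := step N0 P0 Q0 h0 p0 b0
  have s1 := step N1 P1 Q1 h1 p1 b1
  have s2 := step N2 P2 Q2 h2 p2 b2
  have : qd * (N0 * P0 + N1 * P1 + N2 * P2) ≤ qd * (3 * Rh) := by nlinarith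
  have := le_of_mul_le_mul_left this hqd
  linarith

/-- **The merge inequality at a point** from the check with the polynomial bound. -/
theorem cyc_le_of_checkQ {W n m : ℕ} {Ta Tb : Trg} {L : List (ℕ × ℕ × ℤ)} {D g : ℕ}
    {Q : List (ℕ × ℤ)} {qd : ℤ} {R : List (ℕ × ℕ × ℕ × ℕ × ℤ)}
    (hc : check W n m (mkFQ Ta Tb L D Q g qd R) = true)
    (hLne : L ≠ []) (hRne : R ≠ []) (hQne : Q ≠ []) (hD1 : 1 ≤ D) (hqd : 0 < qd)
    (hL : ∀ t ∈ L, 2 * t.1 + 3 * t.2.1 ≤ D - 1 + 1)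
    (hR : ∀ t ∈ R, 2 * t.1 + 3 * t.2.1 ≤ D + g ∧ 2 * t.2.2.1 + 3 * t.2.2.2.1 ≤ D + g)
    (hQ : ∀ t ∈ Q, t.1 ≤ g)
    (hDa : 0 < Ta.den) (hDb : 0 < Tb.den)
    {r : Fin 6 → ℝ} (hr : ∀ i, 0 ≤ r i) {a b : Tp} (hP : Pt r Ta Tb a b)
    (h0 : GQ L D Q qd a b) (h1 : GQ L D Q qd a b.r1) (h2 : GQ L D Q qd a b.r2) :
    cyc L a b ≤ rhsL R a b := by
  have key := check_val hc r hr
  set Da : ℝ := (Ta.den : ℝ) with hDa'
  set Db : ℝ := (Tb.den : ℝ) with hDb'
  have pa : 0 < Da := by rw [hDa']; exact_mod_cast hDa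
  have pb : 0 < Db := by rw [hDb']; exact_mod_cast hDb
  have hS : sA.val r = 1 := by rw [val_sA]; exact hP.sa
  have hT : sB.val r = 1 := by rw [val_sB]; exact hP.sb
  have hA : Ta.exA.val r = scale Da a := hP.va
  have hB : Tb.exB.val r = scale Db b := hP.vb
  have hB1 : Tb.exB.r1.val r = scale Db b.r1 := by rw [r1_val, hB, r1_scale]
  have hB2 : Tb.exB.r2.val r = scale Db b.r2 := by rw [r2_val, hB, r2_scale]
  have i1 : (((Ta.den : ℕ) : ℤ) : ℝ) = Da := by rw [hDa']; push_cast; rfl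
  have i2 : (((Tb.den : ℕ) : ℤ) : ℝ) = Db := by rw [hDb']; push_cast; rfl
  set DD := Da * Db with hDD
  have pD : 0 < DD := mul_pos pa pb
  have n0 := val_nE hS hT hA hB _ _ i1 i2
  have n1 := val_nE hS hT hA hB1 _ _ i1 i2
  have n2 := val_nE hS hT hA hB2 _ _ i1 i2
  have c0 := val_cE hS hT hA hB _ _ i1 i2
  have c1 := val_cE hS hT hA hB1 _ _ i1 i2
  have c2 := val_cE hS hT hA hB2 _ _ i1 i2
  have t0 := val_tE (r := r) hLne hL (P2 := p2E (cE Ta.den Tb.den Ta.exA Tb.exB))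
    (P3 := p3E (cE Ta.den Tb.den Ta.exA Tb.exB)) (N := nE Ta.den Tb.den Ta.exA Tb.exB)
    (a := a) (b := b) (D := DD) (ne_of_gt pD) h0.pos
    (by rw [val_p2E, c0, p2T_scale']) (by rw [val_p3E, c0, p3T_scale']) n0
  have t1 := val_tE (r := r) hLne hL (P2 := p2E (cE Ta.den Tb.den Ta.exA Tb.exB.r1))
    (P3 := p3E (cE Ta.den Tb.den Ta.exA Tb.exB.r1)) (N := nE Ta.den Tb.den Ta.exA Tb.exB.r1)
    (a := a) (b := b.r1) (D := DD) (ne_of_gt pD) h1.pos
    (by rw [val_p2E, c1, p2T_scale']) (by rw [val_p3E, c1, p3T_scale']) n1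
  have t2 := val_tE (r := r) hLne hL (P2 := p2E (cE Ta.den Tb.den Ta.exA Tb.exB.r2))
    (P3 := p3E (cE Ta.den Tb.den Ta.exA Tb.exB.r2)) (N := nE Ta.den Tb.den Ta.exA Tb.exB.r2)
    (a := a) (b := b.r2) (D := DD) (ne_of_gt pD) h2.pos
    (by rw [val_p2E, c2, p2T_scale']) (by rw [val_p3E, c2, p3T_scale']) n2
  have rr := val_rE (r := r) hRne hR _ _ i1 i2 hS hT hA hB
  have hσ : (Ex.mul (.c (((Ta.den : ℕ) : ℤ) * ((Tb.den : ℕ) : ℤ))) (.mul sA sB)).val r = DD := by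
    simp only [Ex.val, hS, hT, mul_one]
    push_cast
    rfl
  have q0 := val_qHom hQne hQ n0 hσ
  have q1 := val_qHom hQne hQ n1 hσ
  have q2 := val_qHom hQne hQ n2 hσ
  have e1 : D - 1 + 1 = D := by omega
  rw [e1] at t0 t1 t2
  simp only [mkFQ, Ex.val, t0, t1, t2, q0, q1, q2, rr] at key
  have hqd' : (0 : ℝ) < qd := by exact_mod_cast hqd
  have e2 : ((3 * qd : ℤ) : ℝ) * (Da ^ (D + g) * Db ^ (D + g) * rhsL R a b) =
      3 * (qd : ℝ) * (DD ^ (D + g) * rhsL R a b) := by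
    rw [hDD, mul_pow]
    push_cast
    ring
  rw [e2] at key
  exact alg_finalQ DD (rhsL R a b) qd D g _ _ _ _ _ _ _ _ _ hD1 pD h0.pos h1.pos h2.pos hqd' h0.nn h1.nn h2.nn
    h0.bd h1.bd h2.bd key

/-- The merge inequality on a pair of triangles, where the rotations have the needed property. -/
def HoldsQ (L : List (ℕ × ℕ × ℤ)) (D : ℕ) (Q : List (ℕ × ℤ)) (qd : ℤ)
    (R : List (ℕ × ℕ × ℕ × ℕ × ℤ)) (Ta Tb : Trg) : Prop :=
  ∀ u v w u' v' w' : ℝ, 0 ≤ u → 0 ≤ v → 0 ≤ w → 0 ≤ u' → 0 ≤ v' → 0 ≤ w' →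
    u + v + w = 1 → u' + v' + w' = 1 →
    GQ L D Q qd (Ta.pt u v w) (Tb.pt u' v' w') →
    GQ L D Q qd (Ta.pt u v w) (Tb.pt u' v' w').r1 →
    GQ L D Q qd (Ta.pt u v w) (Tb.pt u' v' w').r2 →
    cyc L (Ta.pt u v w) (Tb.pt u' v' w') ≤ rhsL R (Ta.pt u v w) (Tb.pt u' v' w')

variable {L : List (ℕ × ℕ × ℤ)} {R : List (ℕ × ℕ × ℕ × ℕ × ℤ)} {D g : ℕ} {Q : List (ℕ × ℤ)} {qd : ℤ}

/-- The check gives the inequality on the pair of triangles. -/
theorem holdsQ_of_check {W n m : ℕ} {Ta Tb : Trg}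
    (hc : check W n m (mkFQ Ta Tb L D Q g qd R) = true)
    (hLne : L ≠ []) (hRne : R ≠ []) (hQne : Q ≠ []) (hD1 : 1 ≤ D) (hqd : 0 < qd)
    (hL : ∀ t ∈ L, 2 * t.1 + 3 * t.2.1 ≤ D - 1 + 1)
    (hR : ∀ t ∈ R, 2 * t.1 + 3 * t.2.1 ≤ D + g ∧ 2 * t.2.2.1 + 3 * t.2.2.2.1 ≤ D + g)
    (hQ : ∀ t ∈ Q, t.1 ≤ g)
    (hDa : 0 < Ta.den) (hDb : 0 < Tb.den) : HoldsQ L D Q qd R Ta Tb := by
  intro u v w u' v' w' hu hv hw hu' hv' hw' hs hs' h0 h1 h2
  have hr : ∀ i, 0 ≤ mkR u v w u' v' w' i := by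
    intro i; fin_cases i <;> simp [mkR] <;> assumption
  refine cyc_le_of_checkQ hc hLne hRne hQne hD1 hqd hL hR hQ hDa hDb hr ?_ h0 h1 h2
  refine ⟨by simpa [mkR] using hs, by simpa [mkR] using hs', ?_, ?_⟩
  · rw [exA_val _ _ hDa]; rfl
  · rw [exB_val _ _ hDb]; rfl

/-- Bisect the first triangle. -/
theorem HoldsQ.splitA {Ta Tb : Trg} (hDn : 0 < Ta.den) (h1 : HoldsQ L D Q qd R (Trg.left Ta) Tb)
    (h2 : HoldsQ L D Q qd R (Trg.right Ta) Tb) : HoldsQ L D Q qd R Ta Tb := by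
  intro u v w u' v' w' hu hv hw hu' hv' hw' hs hs'
  rcases le_total w v with h | h
  · rw [Trg.left_pt Ta hDn u v w]
    exact h1 _ _ _ _ _ _ (by linarith) hu (by linarith) hu' hv' hw' (by linarith) hs'
  · rw [Trg.right_pt Ta hDn u v w]
    exact h2 _ _ _ _ _ _ (by linarith) (by linarith) hu hu' hv' hw' (by linarith) hs'

/-- Bisect the second triangle. -/
theorem HoldsQ.splitB {Ta Tb : Trg} (hDn : 0 < Tb.den) (h1 : HoldsQ L D Q qd R Ta (Trg.left Tb))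
    (h2 : HoldsQ L D Q qd R Ta (Trg.right Tb)) : HoldsQ L D Q qd R Ta Tb := by
  intro u v w u' v' w' hu hv hw hu' hv' hw' hs hs'
  rcases le_total w' v' with h | h
  · rw [Trg.left_pt Tb hDn u' v' w']
    exact h1 _ _ _ _ _ _ hu hv hw (by linarith) hu' (by linarith) hs (by linarith)
  · rw [Trg.right_pt Tb hDn u' v' w']
    exact h2 _ _ _ _ _ _ hu hv hw (by linarith) (by linarith) hu' hs (by linarith)

/-! ### The bound on the range of the normalization -/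

/-- The polynomial of the bound on an interval `[l, h] / e`. -/
def qBoundE (Q : List (ℕ × ℤ)) (D g : ℕ) (qd l h e : ℤ) : Ex :=
  let y : Ex := .add (.mul (.c l) (.v 3)) (.mul (.c h) (.v 4))
  let σ : Ex := .mul (.c e) (.add (.v 3) (.v 4))
  .sub (.mul (.pow y (D - 1)) (qHom Q g y σ)) (.mul (.c qd) (.pow σ (D - 1 + g)))

/-- The bound on an interval from a check. -/
theorem qBound_of_check {W : ℕ} {Q : List (ℕ × ℤ)} {D g : ℕ} {qd l h e : ℤ} (hQne : Q ≠ [])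
    (hQ : ∀ t ∈ Q, t.1 ≤ g) (he : 0 < e) (hlh : l < h)
    (hc : check W 0 (D - 1 + g) (qBoundE Q D g qd l h e) = true) {y : ℝ}
    (hy0 : (l : ℝ) / e ≤ y) (hy1 : y ≤ (h : ℝ) / e) :
    (qd : ℝ) ≤ y ^ (D - 1) * qPoly Q y := by
  have he' : (0 : ℝ) < e := by exact_mod_cast he
  have hlh' : (l : ℝ) < h := by exact_mod_cast hlh
  have hd : (0 : ℝ) < h - l := by linarith
  set v : ℝ := y * e with hv
  have h1 : (l : ℝ) ≤ v := by
    rw [hv]; rwa [div_le_iff₀ he'] at hy0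
  have h2 : v ≤ (h : ℝ) := by
    rw [hv]; rwa [le_div_iff₀ he'] at hy1
  set r : Fin 6 → ℝ := ![0, 0, 0, (h - v) / (h - l), (v - l) / (h - l), 0] with hr'
  have hr : ∀ i, 0 ≤ r i := by
    intro i
    fin_cases i
    · simp [hr']
    · simp [hr']
    · simp [hr']
    · simp only [hr']; exact div_nonneg (by linarith) hd.le
    · simp only [hr']; exact div_nonneg (by linarith) hd.le
    · simp [hr']
  have key := check_val hc r hr
  have hT : (Ex.add (.v 3) (.v 4)).val r = 1 := by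
    simp only [Ex.val, hr']
    simp
    field_simp
    ring
  have hyv : (Ex.add (.mul (.c l) (.v 3)) (.mul (.c h) (.v 4))).val r = e * y := by
    simp only [Ex.val, hr']
    simp
    rw [hv]
    field_simp
    ring
  have hσ : (Ex.mul (.c e) (.add (.v 3) (.v 4))).val r = e := by
    simp only [Ex.val] at hT ⊢
    rw [hT, mul_one]
  have q0 := val_qHom hQne hQ hyv hσ
  have hyv' : (l : ℝ) * r 3 + h * r 4 = e * y := by
    simpa only [Ex.val] using hyv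
  have hT' : r 3 + r 4 = 1 := by simpa only [Ex.val] using hT
  simp only [qBoundE, Ex.val, q0, hyv', hT', mul_one] at key
  have e3 : (e * y : ℝ) ^ (D - 1) * ((e : ℝ) ^ g * qPoly Q y) - (qd : ℝ) * (e : ℝ) ^ (D - 1 + g) =
      (e : ℝ) ^ (D - 1 + g) * (y ^ (D - 1) * qPoly Q y - qd) := by
    rw [mul_pow, pow_add]
    ring
  rw [e3] at key
  have := nonneg_of_mul_nonneg_right key (by positivity)
  linarith

/-! ### The simplex -/

lemma sc_inSx {s : ℝ} {c : Tp} (hc : InSx 1 c) (hs0 : 0 ≤ s) (hs : 2 * s ≤ 1) : InSx 1 (sc s c) := by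
  have hz := ZS_z hc.zs
  refine ⟨?_, ?_, ?_, ?_⟩
  · simp only [sc, scale, Tp.ZS]
    have := hc.zs
    simp only [Tp.ZS] at this
    linear_combination (-s) * this
  · simp only [sc, scale]
    have h1 := hc.hy
    have h2 := hc.hz
    nlinarith
  · simp only [sc, scale]
    have h1 := hc.hx
    have h2 := hc.hz
    nlinarith
  · simp only [sc, scale]
    have h1 := hc.hx
    have h2 := hc.hy
    nlinarith

lemma wF_inSx {a b : Tp} (ha : InSx 1 a) (hb : InSx 1 b) (hN : 0 < 1 + 3 * sF a b) :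
    InSx 1 (wF a b) := by
  have e : ∀ x y : ℝ, 0 ≤ 1 / 3 + x → 0 ≤ 1 / 3 + y →
      -1 / 3 ≤ (x + y + 3 * (x * y) - sF a b) / (1 + 3 * sF a b) := by
    intro x y hx hy
    rw [le_div_iff₀ hN]
    nlinarith [mul_nonneg hx hy]
  refine ⟨?_, ?_, ?_, ?_⟩
  · simp only [Tp.ZS, wF, cF]
    rw [← add_div, ← add_div]
    have hza := ha.zs
    have hzb := hb.zs
    simp only [Tp.ZS] at hza hzb
    have : a.x + b.x + 3 * (a.x * b.x) - sF a b + (a.y + b.y + 3 * (a.y * b.y) - sF a b) +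
        (a.z + b.z + 3 * (a.z * b.z) - sF a b) = 0 := by
      simp only [sF]
      linear_combination hza + hzb
    rw [this, zero_div]
  · exact e _ _ (by linarith [ha.hx]) (by linarith [hb.hx])
  · exact e _ _ (by linarith [ha.hy]) (by linarith [hb.hy])
  · exact e _ _ (by linarith [ha.hz]) (by linarith [hb.hz])

/-- The chamber is in the simplex. -/
lemma chamber_inSx {u v w : ℝ} (hu : 0 ≤ u) (hv : 0 ≤ v) (hw : 0 ≤ w) (hs : u + v + w = 1) :
    InSx 1 ((chamber 1 1).pt u v w) := by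
  refine ⟨?_, ?_, ?_, ?_⟩
  · simp only [Tp.ZS, Trg.pt, chamber]
    push_cast
    ring
  · simp only [Trg.pt, chamber]
    push_cast
    nlinarith
  · simp only [Trg.pt, chamber]
    push_cast
    nlinarith
  · simp only [Trg.pt, chamber]
    push_cast
    nlinarith

/-- From the checks with `Q` on the chambers to the inequality used for the main theorem. -/
theorem holdsOn_of_holdsQ {p q : ℕ} (hq : 0 < q) (hpq : 2 * p < q)
    (hψ : ∀ c, InSx 1 c → 0 ≤ potL L c)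
    (hB : ∀ y : ℝ, 1 - 2 * ((p : ℝ) / q) ≤ y → y ≤ 1 + (p : ℝ) / q →
      (qd : ℝ) ≤ y ^ (D - 1) * qPoly Q y)
    (hP : HoldsQ L D Q qd R (chamber 1 1) (chamberN p q))
    (hM : HoldsQ L D Q qd R (chamber 1 1) (chamberNR p q)) :
    HoldsOn L R (chamber 1 1) (chamberN p q) ∧ HoldsOn L R (chamber 1 1) (chamberNR p q) := by
  have hq' : (0 : ℝ) < q := by exact_mod_cast hq
  set s : ℝ := (p : ℝ) / q with hs'
  have hs0 : 0 ≤ s := by positivity
  have hs1 : 2 * s < 1 := by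
    rw [hs', ← mul_div_assoc, div_lt_one hq']
    exact_mod_cast hpq
  have key : ∀ a c, InSx 1 a → InSx 1 c → GQ L D Q qd a (sc s c) := by
    intro a c ha hc
    have hN := Nsc_pos ha hc hs0 hs1
    obtain ⟨r1, r2⟩ := sF_range ha hc zero_le_one zero_le_one
    refine ⟨hN, hB _ ?_ ?_, hψ _ (wF_inSx ha (sc_inSx hc hs0 hs1.le) hN)⟩
    · rw [sF_sc]; nlinarith
    · rw [sF_sc]; nlinarith
  constructor
  · intro u v w u' v' w' hu hv hw hu' hv' hw' hs hs2 _ _ _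
    have ha := chamber_inSx hu hv hw hs
    have hc := chamber_inSx hu' hv' hw' hs2
    have e : (chamberN p q).pt u' v' w' = sc s ((chamber 1 1).pt u' v' w') := by
      rw [chamberN_pt p q hq]; rfl
    refine hP u v w u' v' w' hu hv hw hu' hv' hw' hs hs2 ?_ ?_ ?_
    · rw [e]; exact key _ _ ha hc
    · rw [e, ← sc_r1]; exact key _ _ ha hc.r1'
    · rw [e, ← sc_r2]; exact key _ _ ha hc.r2'
  · intro u v w u' v' w' hu hv hw hu' hv' hw' hs hs2 _ _ _
    have ha := chamber_inSx hu hv hw hs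
    have hc := (chamber_inSx hu' hv' hw' hs2).r3'
    have e : (chamberNR p q).pt u' v' w' = sc s ((chamber 1 1).pt u' v' w').r3 := by
      rw [chamberNR_pt p q hq]; rfl
    refine hM u v w u' v' w' hu hv hw hu' hv' hw' hs hs2 ?_ ?_ ?_
    · rw [e]; exact key _ _ ha hc
    · rw [e, ← sc_r1]; exact key _ _ ha hc.r1'
    · rw [e, ← sc_r2]; exact key _ _ ha hc.r2'

end

end Vale.Agent.Lib.P154Neg
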