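import Vale.Agent.Lib.P154Neg.Far
import Vale.Agent.Lib.P154Neg.Grid

/-!
# The merge inequality with all six rearrangements in one polynomial

On a pair of triangles, each of the six rearrangements of the second message has its own bound: a polynomial
bound on the power of the normalization, valid on an interval which contains the range of that normalization,
or the upper bound of the potential.
-/

namespace Vale.Agent.Lib.P154Neg

open Vale.Agent.Lib.P154 Vale.Agent.Lib.P154GW Vale.Agent.Lib.P154K Tp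

/-- The transposition of the last two expressions. -/
def e3sw (B : E3) : E3 := ⟨B.x, B.z, B.y⟩

/-- The bound used for a rearrangement. -/
structure QEnt where
  /-- The polynomial. -/
  Q : List (ℕ × ℤ)
  lo : ℤ
  hi : ℤ
  e : ℤ
  /-- If present, the bound `qd * potential ≤ cap` is used instead of the polynomial. -/
  cap : Option ℤ

/-- The term of one rearrangement. -/
def term6 (Da Db : Int) (A : E3) (L : List (ℕ × ℕ × ℤ)) (D g : ℕ) (E : QEnt) (B : E3) : Ex :=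
  match E.cap with
  | none =>
    .mul (tE L (D - 1) (p2E (cE Da Db A B)) (p3E (cE Da Db A B)) (nE Da Db A B))
      (qHom E.Q g (nE Da Db A B) (.mul (.c (Da * Db)) (.mul sA sB)))
  | some m =>
    .mul (.mul (.c m) (nE Da Db A B)) (.pow (.mul (.c (Da * Db)) (.mul sA sB)) (D + g - 1))

/-- The polynomial of the merge inequality on a pair of triangles. -/
def mkF6 (Ta Tb : Trg) (L : List (ℕ × ℕ × ℤ)) (D g : ℕ) (qd : ℤ) (R : List (ℕ × ℕ × ℕ × ℕ × ℤ))
    (E0 E1 E2 E3' E4 E5 : QEnt) : Ex :=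
  .sub (.mul (.c (6 * qd)) (rE R (D + g) (D + g) Ta.den Tb.den Ta.exA Tb.exB))
    (.add (.add (.add (.add (.add
      (term6 Ta.den Tb.den Ta.exA L D g E0 Tb.exB)
      (term6 Ta.den Tb.den Ta.exA L D g E1 Tb.exB.r1))
      (term6 Ta.den Tb.den Ta.exA L D g E2 Tb.exB.r2))
      (term6 Ta.den Tb.den Ta.exA L D g E3' (e3sw Tb.exB)))
      (term6 Ta.den Tb.den Ta.exA L D g E4 (e3sw Tb.exB).r1))
      (term6 Ta.den Tb.den Ta.exA L D g E5 (e3sw Tb.exB).r2))

/-- The normalization of a rearrangement is in the interval. -/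
def rangeOK (Da Db : Int) (A B : E3) (E : QEnt) : Bool :=
  match E.cap with
  | some _ => true
  | none =>
    check 64 1 1 (.sub (.mul (.c E.e) (nE Da Db A B)) (.mul (.c E.lo) (.mul (.c (Da * Db)) (.mul sA sB)))) &&
    check 64 1 1 (.sub (.mul (.c E.hi) (.mul (.c (Da * Db)) (.mul sA sB))) (.mul (.c E.e) (nE Da Db A B)))

/-- All the checks of a pair of triangles. -/
def leaf6 (W : ℕ) (Ta Tb : Trg) (L : List (ℕ × ℕ × ℤ)) (D g : ℕ) (qd : ℤ)
    (R : List (ℕ × ℕ × ℕ × ℕ × ℤ)) (E0 E1 E2 E3' E4 E5 : QEnt) : Bool :=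
  check W (D + g) (D + g) (mkF6 Ta Tb L D g qd R E0 E1 E2 E3' E4 E5) &&
  rangeOK Ta.den Tb.den Ta.exA Tb.exB E0 &&
  rangeOK Ta.den Tb.den Ta.exA Tb.exB.r1 E1 &&
  rangeOK Ta.den Tb.den Ta.exA Tb.exB.r2 E2 &&
  rangeOK Ta.den Tb.den Ta.exA (e3sw Tb.exB) E3' &&
  rangeOK Ta.den Tb.den Ta.exA (e3sw Tb.exB).r1 E4 &&
  rangeOK Ta.den Tb.den Ta.exA (e3sw Tb.exB).r2 E5

noncomputable section

/-- A valid entry: the polynomial bounds the power of the normalization on the interval (and the interval consists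
of positive numbers), or the cap bounds the potential on the simplex. -/
def ValidE (L : List (ℕ × ℕ × ℤ)) (D g : ℕ) (qd : ℤ) (E : QEnt) : Prop :=
  match E.cap with
  | none => E.Q ≠ [] ∧ (∀ t ∈ E.Q, t.1 ≤ g) ∧ 0 < E.e ∧ 0 < E.lo ∧
      ∀ y : ℝ, (E.lo : ℝ) / E.e ≤ y → y ≤ (E.hi : ℝ) / E.e → (qd : ℝ) ≤ y ^ (D - 1) * qPoly E.Q y
  | some m => ∀ c, InSx 1 c → (qd : ℝ) * potL L c ≤ m

/-- The average over the six rearrangements written with the two sums over rotations. -/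
def sum6 (L : List (ℕ × ℕ × ℤ)) (a b : Tp) : ℝ := (cyc L a b + cyc L a b.r3) / 2

lemma avg6_sum6 (L : List (ℕ × ℕ × ℤ)) (a b : Tp) :
    avg6 (fun b' => (1 + 3 * sF a b') * potL L (wF a b')) b = sum6 L a b := avg6_cyc L a b

lemma sum6_r3 (L : List (ℕ × ℕ × ℤ)) (a b : Tp) : sum6 L a.r3 b.r3 = sum6 L a b := by
  simp only [sum6]
  have e : b.r3.r3 = b := rfl
  have h1 := cyc_r3 L a b
  have h2 := cyc_r3 L a b.r3
  rw [e] at h2
  rw [e, h1, h2]

lemma sum6_r4 (L : List (ℕ × ℕ × ℤ)) (a b : Tp) : sum6 L a.r4 b.r4 = sum6 L a b := by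
  have e1 : b.r4.r3 = b.r1 := rfl
  have e2 : b.r3.r4 = b.r2 := rfl
  have h1 := cyc_r4 L a b
  have h2 := cyc_r4 L a b.r3
  rw [e2, cyc_r2] at h2
  simp only [sum6]
  rw [e1, cyc_r1, h1, h2]

lemma sum6_b3 (L : List (ℕ × ℕ × ℤ)) (a b : Tp) : sum6 L a b.r3 = sum6 L a b := by
  simp only [sum6]
  have e : b.r3.r3 = b := rfl
  rw [e]
  ring

lemma sum6_b4 (L : List (ℕ × ℕ × ℤ)) (a b : Tp) : sum6 L a b.r4 = sum6 L a b := by
  simp only [sum6]
  have e1 : b.r4 = b.r3.r2 := rfl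
  have e2 : b.r4.r3 = b.r1 := rfl
  rw [e2, cyc_r1, e1, cyc_r2]
  ring

/-- What is needed of a rearrangement, apart from the bounds. -/
structure GN (a b : Tp) : Prop where
  nn : 0 ≤ 1 + 3 * sF a b
  ins : 0 < 1 + 3 * sF a b → InSx 1 (wF a b)

section point

variable {r : Fin 6 → ℝ} {Da Db : ℝ}

/-- The value of a term, in the first case. -/
lemma val_term6Q {L : List (ℕ × ℕ × ℤ)} {D g : ℕ} {Q : List (ℕ × ℤ)} (hLne : L ≠ []) (hQne : Q ≠ [])
    (hD1 : 1 ≤ D) (hL : ∀ t ∈ L, 2 * t.1 + 3 * t.2.1 ≤ D - 1 + 1) (hQ : ∀ t ∈ Q, t.1 ≤ g)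
    {A B : E3} {a b : Tp} (iA iB : ℤ) (h1 : (iA : ℝ) = Da) (h2 : (iB : ℝ) = Db) (pD : 0 < Da * Db)
    (hS : sA.val r = 1) (hT : sB.val r = 1) (hA : A.val r = scale Da a) (hB : B.val r = scale Db b)
    (hpos : 0 < 1 + 3 * sF a b) :
    (Ex.mul (tE L (D - 1) (p2E (cE iA iB A B)) (p3E (cE iA iB A B)) (nE iA iB A B))
      (qHom Q g (nE iA iB A B) (.mul (.c (iA * iB)) (.mul sA sB)))).val r =
      (Da * Db * (1 + 3 * sF a b)) ^ D * potL L (wF a b) *
      ((Da * Db) ^ g * qPoly Q (1 + 3 * sF a b)) := by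
  have n0 := val_nE hS hT hA hB iA iB h1 h2
  have c0 := val_cE hS hT hA hB iA iB h1 h2
  have t0 := val_tE (r := r) hLne hL (P2 := p2E (cE iA iB A B)) (P3 := p3E (cE iA iB A B))
    (N := nE iA iB A B) (a := a) (b := b) (D := Da * Db) (ne_of_gt pD) hpos
    (by rw [val_p2E, c0, p2T_scale']) (by rw [val_p3E, c0, p3T_scale']) n0
  have hσ : (Ex.mul (.c (iA * iB)) (.mul sA sB)).val r = Da * Db := by
    simp only [Ex.val, hS, hT, mul_one]
    push_cast
    rw [h1, h2]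
  have q0 := val_qHom hQne hQ n0 hσ
  have e1 : D - 1 + 1 = D := by omega
  rw [e1] at t0
  simp only [Ex.val, t0, q0]

/-- The range of the normalization from the check. -/
lemma range_of_check {A B : E3} {a b : Tp} {E : QEnt} (iA iB : ℤ) (h1 : (iA : ℝ) = Da)
    (h2 : (iB : ℝ) = Db) (pD : 0 < Da * Db) (he : 0 < E.e) (hr : ∀ i, 0 ≤ r i)
    (hS : sA.val r = 1) (hT : sB.val r = 1) (hA : A.val r = scale Da a) (hB : B.val r = scale Db b)
    (hcap : E.cap = none) (hc : rangeOK iA iB A B E = true) :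
    (E.lo : ℝ) / E.e ≤ 1 + 3 * sF a b ∧ 1 + 3 * sF a b ≤ (E.hi : ℝ) / E.e := by
  simp only [rangeOK, hcap, Bool.and_eq_true] at hc
  have k1 := check_val hc.1 r hr
  have k2 := check_val hc.2 r hr
  have n0 := val_nE hS hT hA hB iA iB h1 h2
  have hσ : (Ex.mul (.c (iA * iB)) (.mul sA sB)).val r = Da * Db := by
    simp only [Ex.val, hS, hT, mul_one]
    push_cast
    rw [h1, h2]
  have he' : (0 : ℝ) < E.e := by exact_mod_cast he
  simp only [Ex.val] at hσ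
  simp only [Ex.val, n0, hσ] at k1 k2
  constructor
  · rw [div_le_iff₀ he']
    have e : (E.e : ℝ) * (Da * Db * (1 + 3 * sF a b)) - (E.lo : ℝ) * (Da * Db) =
        (Da * Db) * ((1 + 3 * sF a b) * E.e - E.lo) := by ring
    rw [e] at k1
    have := nonneg_of_mul_nonneg_right k1 pD
    linarith
  · rw [le_div_iff₀ he']
    have e : (E.hi : ℝ) * (Da * Db) - (E.e : ℝ) * (Da * Db * (1 + 3 * sF a b)) =
        (Da * Db) * (E.hi - (1 + 3 * sF a b) * E.e) := by ring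
    rw [e] at k2
    have := nonneg_of_mul_nonneg_right k2 pD
    linarith

/-- **The bound of one term.** -/
lemma term_bound {L : List (ℕ × ℕ × ℤ)} {D g : ℕ} {qd : ℤ} {E : QEnt} (hLne : L ≠ []) (hD1 : 1 ≤ D)
    (hL : ∀ t ∈ L, 2 * t.1 + 3 * t.2.1 ≤ D - 1 + 1) (hV : ValidE L D g qd E)
    (hψ : ∀ c, InSx 1 c → 0 ≤ potL L c) (hg : 1 ≤ D + g)
    {A B : E3} {a b : Tp} (iA iB : ℤ) (h1 : (iA : ℝ) = Da) (h2 : (iB : ℝ) = Db) (pD : 0 < Da * Db)
    (hr : ∀ i, 0 ≤ r i)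
    (hS : sA.val r = 1) (hT : sB.val r = 1) (hA : A.val r = scale Da a) (hB : B.val r = scale Db b)
    (hG : GN a b) (hc : rangeOK iA iB A B E = true) :
    (Da * Db) ^ (D + g) * ((qd : ℝ) * ((1 + 3 * sF a b) * potL L (wF a b))) ≤
      (term6 iA iB A L D g E B).val r := by
  have hσ : (Ex.mul (.c (iA * iB)) (.mul sA sB)).val r = Da * Db := by
    simp only [Ex.val, hS, hT, mul_one]
    push_cast
    rw [h1, h2]
  have n0 := val_nE hS hT hA hB iA iB h1 h2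
  rcases hcap : E.cap with _ | m
  · have hV' := hV
    simp only [ValidE, hcap] at hV'
    obtain ⟨hQne, hQ, he, hlo, hb⟩ := hV'
    obtain ⟨r0, r1⟩ := range_of_check iA iB h1 h2 pD he hr hS hT hA hB hcap hc
    have he' : (0 : ℝ) < E.e := by exact_mod_cast he
    have hlo' : (0 : ℝ) < E.lo := by exact_mod_cast hlo
    have hN : 0 < 1 + 3 * sF a b := lt_of_lt_of_le (div_pos hlo' he') r0
    simp only [term6, hcap]
    rw [val_term6Q hLne hQne hD1 hL hQ iA iB h1 h2 pD hS hT hA hB hN]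
    have hP := hψ _ (hG.ins hN)
    have hb2 := hb _ r0 r1
    set N := 1 + 3 * sF a b with hNd
    set P := potL L (wF a b) with hPd
    set Qv := qPoly E.Q N with hQd
    have e2 : N ^ D = N * N ^ (D - 1) := by
      rw [← pow_succ']; congr 1; omega
    have h3 : (qd : ℝ) * (N * P) ≤ (N ^ (D - 1) * Qv) * (N * P) :=
      mul_le_mul_of_nonneg_right hb2 (mul_nonneg hN.le hP)
    have h4 : (Da * Db * N) ^ D * P * ((Da * Db) ^ g * Qv) =
        (Da * Db) ^ (D + g) * ((N ^ (D - 1) * Qv) * (N * P)) := by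
      rw [mul_pow, e2, pow_add]
      ring
    rw [h4]
    exact mul_le_mul_of_nonneg_left h3 (by positivity)
  · have hV' := hV
    simp only [ValidE, hcap] at hV'
    simp only [Ex.val] at hσ
    simp only [term6, hcap, Ex.val, n0, hσ]
    have e1 : (Da * Db) ^ (D + g) = (Da * Db) ^ (D + g - 1) * (Da * Db) := by
      rw [← pow_succ]; congr 1; omega
    rw [e1]
    have hpw : 0 ≤ (Da * Db) ^ (D + g - 1) * (Da * Db) := by positivity
    have e3 : (m : ℝ) * (Da * Db * (1 + 3 * sF a b)) * (Da * Db) ^ (D + g - 1) =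
        (Da * Db) ^ (D + g - 1) * (Da * Db) * ((1 + 3 * sF a b) * (m : ℝ)) := by ring
    rw [e3]
    refine mul_le_mul_of_nonneg_left ?_ hpw
    rcases hG.nn.eq_or_lt with h0 | hN
    · rw [← h0]; simp
    · have h3 := hV' _ (hG.ins hN)
      have e4 : (qd : ℝ) * ((1 + 3 * sF a b) * potL L (wF a b)) =
          (1 + 3 * sF a b) * ((qd : ℝ) * potL L (wF a b)) := by ring
      rw [e4]
      exact mul_le_mul_of_nonneg_left h3 hN.le

end point

/-- The merge inequality on a pair of triangles, where the rearrangements have the needed property. -/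
def Holds6 (L : List (ℕ × ℕ × ℤ)) (R : List (ℕ × ℕ × ℕ × ℕ × ℤ)) (Ta Tb : Trg) : Prop :=
  ∀ u v w u' v' w' : ℝ, 0 ≤ u → 0 ≤ v → 0 ≤ w → 0 ≤ u' → 0 ≤ v' → 0 ≤ w' →
    u + v + w = 1 → u' + v' + w' = 1 →
    GN (Ta.pt u v w) (Tb.pt u' v' w') →
    GN (Ta.pt u v w) (Tb.pt u' v' w').r1 →
    GN (Ta.pt u v w) (Tb.pt u' v' w').r2 →
    GN (Ta.pt u v w) (Tb.pt u' v' w').r3 →
    GN (Ta.pt u v w) (Tb.pt u' v' w').r3.r1 →
    GN (Ta.pt u v w) (Tb.pt u' v' w').r3.r2 →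
    sum6 L (Ta.pt u v w) (Tb.pt u' v' w') ≤ rhsL R (Ta.pt u v w) (Tb.pt u' v' w')

variable {L : List (ℕ × ℕ × ℤ)} {R : List (ℕ × ℕ × ℕ × ℕ × ℤ)} {D g : ℕ} {qd : ℤ}

/-- **The check on a pair of triangles.** -/
theorem holds6_of_leaf {W : ℕ} {Ta Tb : Trg} {E0 E1 E2 E3' E4 E5 : QEnt}
    (hc : leaf6 W Ta Tb L D g qd R E0 E1 E2 E3' E4 E5 = true)
    (hLne : L ≠ []) (hRne : R ≠ []) (hD1 : 1 ≤ D) (hqd : 0 < qd)
    (hL : ∀ t ∈ L, 2 * t.1 + 3 * t.2.1 ≤ D - 1 + 1)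
    (hR : ∀ t ∈ R, 2 * t.1 + 3 * t.2.1 ≤ D + g ∧ 2 * t.2.2.1 + 3 * t.2.2.2.1 ≤ D + g)
    (hψ : ∀ c, InSx 1 c → 0 ≤ potL L c)
    (hE : ∀ E ∈ [E0, E1, E2, E3', E4, E5], ValidE L D g qd E)
    (hDa : 0 < Ta.den) (hDb : 0 < Tb.den) : Holds6 L R Ta Tb := by
  intro u v w u' v' w' hu hv hw hu' hv' hw' hs hs' g0 g1 g2 g3 g4 g5
  simp only [leaf6, Bool.and_eq_true] at hc
  obtain ⟨⟨⟨⟨⟨⟨hc0, r0⟩, r1⟩, r2⟩, r3⟩, r4⟩, r5⟩ := hc
  set a := Ta.pt u v w with ha
  set b := Tb.pt u' v' w' with hb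
  set r : Fin 6 → ℝ := mkR u v w u' v' w' with hrd
  have hr : ∀ i, 0 ≤ r i := by
    intro i; fin_cases i <;> simp [hrd, mkR] <;> assumption
  have hS : sA.val r = 1 := by rw [val_sA]; simpa [hrd, mkR] using hs
  have hT : sB.val r = 1 := by rw [val_sB]; simpa [hrd, mkR] using hs'
  have hA : Ta.exA.val r = scale Ta.den a := by rw [exA_val _ _ hDa]; rfl
  have hB : Tb.exB.val r = scale Tb.den b := by rw [exB_val _ _ hDb]; rfl
  set Da : ℝ := (Ta.den : ℝ) with hDa'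
  set Db : ℝ := (Tb.den : ℝ) with hDb'
  have pa : 0 < Da := by rw [hDa']; exact_mod_cast hDa
  have pb : 0 < Db := by rw [hDb']; exact_mod_cast hDb
  have pD : 0 < Da * Db := mul_pos pa pb
  have i1 : (((Ta.den : ℕ) : ℤ) : ℝ) = Da := by rw [hDa']; push_cast; rfl
  have i2 : (((Tb.den : ℕ) : ℤ) : ℝ) = Db := by rw [hDb']; push_cast; rfl
  have hB1 : Tb.exB.r1.val r = scale Db b.r1 := by rw [r1_val, hB, r1_scale]
  have hB2 : Tb.exB.r2.val r = scale Db b.r2 := by rw [r2_val, hB, r2_scale]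
  have hB3 : (e3sw Tb.exB).val r = scale Db b.r3 := by
    have := congrArg Tp.x hB
    have h2 := congrArg Tp.y hB
    have h3 := congrArg Tp.z hB
    apply Tp.ext
    · exact this
    · exact h3
    · exact h2
  have hB4 : (e3sw Tb.exB).r1.val r = scale Db b.r3.r1 := by rw [r1_val, hB3, r1_scale]
  have hB5 : (e3sw Tb.exB).r2.val r = scale Db b.r3.r2 := by rw [r2_val, hB3, r2_scale]
  have hqd' : (0 : ℝ) < qd := by exact_mod_cast hqd
  have hg : 1 ≤ D + g := by omega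
  have s0 := term_bound hLne hD1 hL (hE E0 (by simp)) hψ hg _ _ i1 i2 pD hr hS hT hA hB g0 r0
  have s1 := term_bound hLne hD1 hL (hE E1 (by simp)) hψ hg _ _ i1 i2 pD hr hS hT hA hB1 g1 r1
  have s2 := term_bound hLne hD1 hL (hE E2 (by simp)) hψ hg _ _ i1 i2 pD hr hS hT hA hB2 g2 r2
  have s3 := term_bound hLne hD1 hL (hE E3' (by simp)) hψ hg _ _ i1 i2 pD hr hS hT hA hB3 g3 r3
  have s4 := term_bound hLne hD1 hL (hE E4 (by simp)) hψ hg _ _ i1 i2 pD hr hS hT hA hB4 g4 r4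
  have s5 := term_bound hLne hD1 hL (hE E5 (by simp)) hψ hg _ _ i1 i2 pD hr hS hT hA hB5 g5 r5
  have key := check_val hc0 r hr
  have rr := val_rE (r := r) hRne hR _ _ i1 i2 hS hT hA hB
  simp only [mkF6, Ex.val, rr] at key
  have e6 : ((6 * qd : ℤ) : ℝ) * (Da ^ (D + g) * Db ^ (D + g) * rhsL R a b) =
      (Da * Db) ^ (D + g) * (6 * (qd : ℝ) * rhsL R a b) := by
    rw [mul_pow]
    push_cast
    ring
  rw [e6] at key
  have hsum : (Da * Db) ^ (D + g) * ((qd : ℝ) * (6 * sum6 L a b)) ≤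
      (Da * Db) ^ (D + g) * (6 * (qd : ℝ) * rhsL R a b) := by
    have e7 : (Da * Db) ^ (D + g) * ((qd : ℝ) * (6 * sum6 L a b)) =
        (Da * Db) ^ (D + g) * ((qd : ℝ) * ((1 + 3 * sF a b) * potL L (wF a b))) +
        (Da * Db) ^ (D + g) * ((qd : ℝ) * ((1 + 3 * sF a b.r1) * potL L (wF a b.r1))) +
        (Da * Db) ^ (D + g) * ((qd : ℝ) * ((1 + 3 * sF a b.r2) * potL L (wF a b.r2))) +
        (Da * Db) ^ (D + g) * ((qd : ℝ) * ((1 + 3 * sF a b.r3) * potL L (wF a b.r3))) +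
        (Da * Db) ^ (D + g) * ((qd : ℝ) * ((1 + 3 * sF a b.r3.r1) * potL L (wF a b.r3.r1))) +
        (Da * Db) ^ (D + g) * ((qd : ℝ) * ((1 + 3 * sF a b.r3.r2) * potL L (wF a b.r3.r2))) := by
      simp only [sum6, cyc]
      ring
    rw [e7]
    linarith
  have hpow : 0 < (Da * Db) ^ (D + g) := by positivity
  have h2 := le_of_mul_le_mul_left hsum hpow
  have h3 : (qd : ℝ) * sum6 L a b ≤ (qd : ℝ) * rhsL R a b := by linarith
  exact le_of_mul_le_mul_left h3 hqd'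

/-- Bisect the first triangle. -/
theorem Holds6.splitA {Ta Tb : Trg} (hDn : 0 < Ta.den) (h1 : Holds6 L R (Trg.left Ta) Tb)
    (h2 : Holds6 L R (Trg.right Ta) Tb) : Holds6 L R Ta Tb := by
  intro u v w u' v' w' hu hv hw hu' hv' hw' hs hs'
  rcases le_total w v with h | h
  · rw [Trg.left_pt Ta hDn u v w]
    exact h1 _ _ _ _ _ _ (by linarith) hu (by linarith) hu' hv' hw' (by linarith) hs'
  · rw [Trg.right_pt Ta hDn u v w]
    exact h2 _ _ _ _ _ _ (by linarith) (by linarith) hu hu' hv' hw' (by linarith) hs'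

/-- Bisect the second triangle. -/
theorem Holds6.splitB {Ta Tb : Trg} (hDn : 0 < Tb.den) (h1 : Holds6 L R Ta (Trg.left Tb))
    (h2 : Holds6 L R Ta (Trg.right Tb)) : Holds6 L R Ta Tb := by
  intro u v w u' v' w' hu hv hw hu' hv' hw' hs hs'
  rcases le_total w' v' with h | h
  · rw [Trg.left_pt Tb hDn u' v' w']
    exact h1 _ _ _ _ _ _ hu hv hw (by linarith) hu' (by linarith) hs (by linarith)
  · rw [Trg.right_pt Tb hDn u' v' w']
    exact h2 _ _ _ _ _ _ hu hv hw (by linarith) (by linarith) hu' hs (by linarith)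

/-- The normalization is nonnegative for small `s`. -/
lemma Nsc_nonneg {a c : Tp} {s : ℝ} (ha : InSx 1 a) (hc : InSx 1 c) (hs0 : 0 ≤ s) (hs : 2 * s ≤ 1) :
    0 ≤ 1 + 3 * sF a (sc s c) := by
  obtain ⟨_, h2⟩ := sF_range ha hc zero_le_one zero_le_one
  rw [sF_sc]
  nlinarith

/-- From the check on the chamber to the inequality for all messages. -/
theorem avg6_le_of_holds6 {p q : ℕ} (hq : 0 < q) (hpq : 2 * p ≤ q)
    (hH : Holds6 L R (chamber 1 1) (chamberN p q)) (a c : Tp) (ha : InSx 1 a) (hc : InSx 1 c) :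
    KT (potL L) a (sc ((p : ℝ) / q) c) ≤ rhsL R a (sc ((p : ℝ) / q) c) := by
  have hq' : (0 : ℝ) < q := by exact_mod_cast hq
  set s : ℝ := (p : ℝ) / q with hs'
  have hs0 : 0 ≤ s := by positivity
  have hs1 : 2 * s ≤ 1 := by
    rw [hs', ← mul_div_assoc, div_le_one hq']
    exact_mod_cast hpq
  have key : ∀ a c, InSx 1 a → InSx 1 c → GN a (sc s c) := by
    intro a c ha hc
    have hN := Nsc_nonneg ha hc hs0 hs1
    exact ⟨hN, fun h => wF_inSx ha (sc_inSx hc hs0 hs1) h⟩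
  have hS : ∀ a c, InSx 1 a → Srt a → InSx 1 c → Srt c →
      sum6 L a (sc s c) ≤ rhsL R a (sc s c) := by
    intro a c ha hsa hc hsc
    obtain ⟨u, v, w, hu, hv, hw, hs1', rfl⟩ := chamber_coord (p := 1) (q := 1) (by norm_num) (by norm_num)
      (by simpa using ha) hsa
    obtain ⟨u', v', w', hu', hv', hw', hs2, rfl⟩ := chamber_coord (p := 1) (q := 1) (by norm_num)
      (by norm_num) (by simpa using hc) hsc
    have e : sc s ((chamber 1 1).pt u' v' w') = (chamberN p q).pt u' v' w' := by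
      rw [chamberN_pt p q hq]; rfl
    have ha' : InSx 1 ((chamber 1 1).pt u v w) := ha
    have hc' : InSx 1 ((chamber 1 1).pt u' v' w') := hc
    have k0 := key _ _ ha' hc'
    have k1 := key _ _ ha' hc'.r1'
    have k2 := key _ _ ha' hc'.r2'
    have k3 := key _ _ ha' hc'.r3'
    have k4 := key _ _ ha' hc'.r3'.r1'
    have k5 := key _ _ ha' hc'.r3'.r2'
    rw [sc_r1] at k1
    rw [sc_r2] at k2
    rw [sc_r3] at k3
    rw [sc_r1, sc_r3] at k4
    rw [sc_r2, sc_r3] at k5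
    rw [e] at k0 k1 k2 k3 k4 k5 ⊢
    exact hH u v w u' v' w' hu hv hw hu' hv' hw' hs1' hs2 k0 k1 k2 k3 k4 k5
  -- all `c`
  have hSc : ∀ a c, InSx 1 a → Srt a → InSx 1 c → sum6 L a (sc s c) ≤ rhsL R a (sc s c) := by
    intro a c ha hsa hc
    have := nonneg_of_sorted (fun c => rhsL R a (sc s c) - sum6 L a (sc s c))
      (fun c => by simp only [sc_r3, rhsL_b3, sum6_b3])
      (fun c => by
        have e : rhsL R a (sc s c.r4) = rhsL R a (sc s c) := by
          rw [sc_r4]; simp only [rhsL, p2T_r4, p3T_r4]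
        simp only [sc_r4] at e ⊢
        rw [e, sum6_b4])
      (fun c hc hsc => sub_nonneg.2 (hS a c ha hsa hc hsc)) c hc
    simpa using this
  -- all `a`
  have s3 : ∀ a c, sum6 L a.r3 (sc s c.r3) ≤ rhsL R a.r3 (sc s c.r3) →
      sum6 L a (sc s c) ≤ rhsL R a (sc s c) := fun a c h => by
    rwa [sc_r3, sum6_r3, rhsL_r3] at h
  have s4 : ∀ a c, sum6 L a.r4 (sc s c.r4) ≤ rhsL R a.r4 (sc s c.r4) →
      sum6 L a (sc s c) ≤ rhsL R a (sc s c) := fun a c h => by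
    rwa [sc_r4, sum6_r4, rhsL_r4] at h
  have hAll : sum6 L a (sc s c) ≤ rhsL R a (sc s c) := by
    rcases le_total a.y a.x with h1 | h1 <;> rcases le_total a.z a.y with h2 | h2 <;>
      rcases le_total a.z a.x with h3 | h3
    · exact hSc a c ha ⟨h1, h2⟩ hc
    · exact hSc a c ha ⟨h1, h2⟩ hc
    · exact s3 a c (hSc _ _ ha.r3' ⟨h3, h2⟩ hc.r3')
    · refine s3 a c (s4 _ _ (hSc _ _ ha.r3'.r4' ?_ hc.r3'.r4'))
      exact ⟨h3, h1⟩
    · exact s4 a c (hSc _ _ ha.r4' ⟨h1, h3⟩ hc.r4')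
    · refine s4 a c (s3 _ _ (hSc _ _ ha.r4'.r3' ?_ hc.r4'.r3'))
      exact ⟨h2, h3⟩
    · have := hSc a c ha ⟨by linarith, by linarith⟩ hc
      exact this
    · refine s3 a c (s4 _ _ (s3 _ _ (hSc _ _ ha.r3'.r4'.r3' ?_ hc.r3'.r4'.r3')))
      exact ⟨h2, h1⟩
  have e : KT (potL L) a (sc s c) = sum6 L a (sc s c) := avg6_cyc L a (sc s c)
  rw [e]
  exact hAll

end

end Vale.Agent.Lib.P154Neg
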