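import Vale.Agent.Lib.P154Neg.Main

/-!
# The ray inequality from a discriminant

The potential is written as a quadratic form in `(p2T, p3T)` with coefficients polynomial in
`A = p2T` and `μ`.  Three checks in the two variables `A`, `μ` give the ray inequality.
-/

namespace Vale.Agent.Lib.P154Neg

open Vale.Agent.Lib.P154 Vale.Agent.Lib.P154GW Vale.Agent.Lib.P154K Tp

noncomputable section

/-- The value of a coefficient list: terms `c A ^ i (1 - μ ^ k)`. -/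
def qVal (Q : List (ℕ × ℕ × ℤ)) (A μ : ℝ) : ℝ :=
  (Q.map fun t => (t.2.2 : ℝ) * (A ^ t.1 * (1 - μ ^ t.2.1))).sum

/-- The expression of a coefficient list.  The first group of variables stands for `A = 2/3 y`,
the second for `μ = (q τ - p (1 - τ)) / q`. -/
def qE (Q : List (ℕ × ℕ × ℤ)) (na m : ℕ) (p q : ℤ) : Ex :=
  sumE (Q.map fun t => .mul (.c t.2.2) (.mul (.mul (.pow (.mul (.c 2) (.v 0)) t.1)
    (.pow (.mul (.c 3) sA) (na - t.1)))
    (.mul (.sub (.pow (.mul (.c q) sB) t.2.1)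
        (.pow (.sub (.mul (.c q) (.v 3)) (.mul (.c p) (.v 4))) t.2.1))
      (.pow (.mul (.c q) sB) (m - t.2.1)))))

lemma val_qE {Q : List (ℕ × ℕ × ℤ)} (hne : Q ≠ []) {na m : ℕ} (h1 : ∀ t ∈ Q, t.1 ≤ na)
    (h2 : ∀ t ∈ Q, t.2.1 ≤ m) (p q : ℤ) (hq : (q : ℝ) ≠ 0) (r : Fin 6 → ℝ)
    (hS : sA.val r = 1) (hT : sB.val r = 1) {A μ : ℝ} (hA : 3 * A = 2 * r 0)
    (hμ : (q : ℝ) * μ = q * r 3 - p * r 4) :
    (qE Q na m p q).val r = 3 ^ na * q ^ m * qVal Q A μ := by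
  rw [qE, val_sumE _ (by simpa using hne), qVal, List.map_map, ← List.sum_map_mul_left]
  apply congrArg
  apply List.map_congr_left
  intro t ht
  simp only [Function.comp, Ex.val, hS, hT, mul_one]
  have b1 := h1 t ht
  have b2 := h2 t ht
  rw [← hμ]
  have hr : ((2 : ℤ) : ℝ) * r 0 = 3 * A := by push_cast; exact hA.symm
  rw [hr]
  have e1 : (3 : ℝ) ^ na = 3 ^ (na - t.1) * 3 ^ t.1 := by
    rw [← pow_add]; congr 1; omega
  have e2 : (q : ℝ) ^ m = q ^ t.2.1 * q ^ (m - t.2.1) := by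
    rw [← pow_add]; congr 1; omega
  rw [e1, e2, mul_pow, mul_pow]
  push_cast
  ring

/-- The point of the check. -/
def qPt (A μ s : ℝ) : Fin 6 → ℝ :=
  ![3 / 2 * A, 1 - 3 / 2 * A, 0, (μ + s) / (1 + s), (1 - μ) / (1 + s), 0]

/-- The three checks give the three inequalities. -/
theorem qVal_of_check {W na m : ℕ} {Q : List (ℕ × ℕ × ℤ)} {p q : ℕ} (hq : 0 < q) (hne : Q ≠ [])
    (h1 : ∀ t ∈ Q, t.1 ≤ na) (h2 : ∀ t ∈ Q, t.2.1 ≤ m)
    (hc : check W na m (qE Q na m p q) = true) {A μ : ℝ} (hA0 : 0 ≤ A) (hA1 : A ≤ 2 / 3)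
    (hμ0 : -((p : ℝ) / q) ≤ μ) (hμ1 : μ ≤ 1) : 0 ≤ qVal Q A μ := by
  have hq' : (0 : ℝ) < q := by exact_mod_cast hq
  have hs0 : 0 ≤ (p : ℝ) / q := by positivity
  set s : ℝ := (p : ℝ) / q with hs
  have hs1 : 0 < 1 + s := by linarith
  have hr : ∀ i, 0 ≤ qPt A μ s i := by
    intro i
    fin_cases i
    · simp [qPt]; linarith
    · simp [qPt]; linarith
    · simp [qPt]
    · simp only [qPt]; exact div_nonneg (by linarith) hs1.le
    · simp only [qPt]; exact div_nonneg (by linarith) hs1.le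
    · simp [qPt]
  have key := check_val hc _ hr
  have e := val_qE (p := p) (q := q) hne h1 h2 (by simpa using hq'.ne') (qPt A μ s)
    (by rw [val_sA]; simp [qPt]) (by
      rw [val_sB]; simp only [qPt]; simp; field_simp; ring)
    (A := A) (μ := μ) (by simp [qPt]; ring) (by
      simp only [qPt]
      simp
      have e1 : (p : ℝ) = s * q := by rw [hs]; field_simp
      rw [e1]
      field_simp
      ring)
  rw [e] at key
  have hpos : (0 : ℝ) < 3 ^ na * ((q : ℤ) : ℝ) ^ m := by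
    have : (0 : ℝ) < ((q : ℤ) : ℝ) := by exact_mod_cast hq
    positivity
  exact nonneg_of_mul_nonneg_right key hpos

/-- The discriminant check. -/
def discE (Qa Qb Qg : List (ℕ × ℕ × ℤ)) (na m : ℕ) (p q : ℤ) : Ex :=
  .sub (.mul (.c 4) (.mul (qE Qa na m p q) (qE Qg na m p q))) (.pow (qE Qb na m p q) 2)

theorem disc_of_check {W na m : ℕ} {Qa Qb Qg : List (ℕ × ℕ × ℤ)} {p q : ℕ} (hq : 0 < q)
    (hneA : Qa ≠ []) (hneB : Qb ≠ []) (hneG : Qg ≠ [])
    (h1A : ∀ t ∈ Qa, t.1 ≤ na) (h2A : ∀ t ∈ Qa, t.2.1 ≤ m)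
    (h1B : ∀ t ∈ Qb, t.1 ≤ na) (h2B : ∀ t ∈ Qb, t.2.1 ≤ m)
    (h1G : ∀ t ∈ Qg, t.1 ≤ na) (h2G : ∀ t ∈ Qg, t.2.1 ≤ m)
    (hc : check W (2 * na) (2 * m) (discE Qa Qb Qg na m p q) = true) {A μ : ℝ} (hA0 : 0 ≤ A)
    (hA1 : A ≤ 2 / 3) (hμ0 : -((p : ℝ) / q) ≤ μ) (hμ1 : μ ≤ 1) :
    qVal Qb A μ ^ 2 ≤ 4 * (qVal Qa A μ * qVal Qg A μ) := by
  have hq' : (0 : ℝ) < q := by exact_mod_cast hq
  have hs0 : 0 ≤ (p : ℝ) / q := by positivity
  set s : ℝ := (p : ℝ) / q with hs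
  have hs1 : 0 < 1 + s := by linarith
  have hr : ∀ i, 0 ≤ qPt A μ s i := by
    intro i
    fin_cases i
    · simp [qPt]; linarith
    · simp [qPt]; linarith
    · simp [qPt]
    · simp only [qPt]; exact div_nonneg (by linarith) hs1.le
    · simp only [qPt]; exact div_nonneg (by linarith) hs1.le
    · simp [qPt]
  have key := check_val hc _ hr
  have hS : sA.val (qPt A μ s) = 1 := by rw [val_sA]; simp [qPt]
  have hT : sB.val (qPt A μ s) = 1 := by
    rw [val_sB]; simp only [qPt]; simp; field_simp; ring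
  have hAa : 3 * A = 2 * qPt A μ s 0 := by simp [qPt]; ring
  have hμa : (((q : ℤ) : ℝ)) * μ = ((q : ℤ) : ℝ) * qPt A μ s 3 - ((p : ℤ) : ℝ) * qPt A μ s 4 := by
    simp only [qPt]
    simp
    have e1 : (p : ℝ) = s * q := by rw [hs]; field_simp
    rw [e1]
    field_simp
    ring
  have hqne : (((q : ℤ) : ℝ)) ≠ 0 := by simpa using hq'.ne'
  have ea := val_qE (p := p) (q := q) hneA h1A h2A hqne _ hS hT hAa hμa
  have eb := val_qE (p := p) (q := q) hneB h1B h2B hqne _ hS hT hAa hμa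
  have eg := val_qE (p := p) (q := q) hneG h1G h2G hqne _ hS hT hAa hμa
  simp only [discE, Ex.val, ea, eb, eg] at key
  have hpos : (0 : ℝ) < (3 ^ na * ((q : ℤ) : ℝ) ^ m) ^ 2 := by
    have : (0 : ℝ) < ((q : ℤ) : ℝ) := by exact_mod_cast hq
    positivity
  have e2 : ((4 : ℤ) : ℝ) * (3 ^ na * ((q : ℤ) : ℝ) ^ m * qVal Qa A μ *
      (3 ^ na * ((q : ℤ) : ℝ) ^ m * qVal Qg A μ)) -
      (3 ^ na * ((q : ℤ) : ℝ) ^ m * qVal Qb A μ) ^ 2 =
      (3 ^ na * ((q : ℤ) : ℝ) ^ m) ^ 2 * (4 * (qVal Qa A μ * qVal Qg A μ) - qVal Qb A μ ^ 2) := by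
    push_cast
    ring
  rw [e2] at key
  have := nonneg_of_mul_nonneg_right key hpos
  linarith

/-- A quadratic form with nonnegative outer coefficients and nonpositive discriminant. -/
lemma form_nonneg {α β γ A P : ℝ} (hα : 0 ≤ α) (hγ : 0 ≤ γ) (hd : β ^ 2 ≤ 4 * (α * γ)) :
    0 ≤ α * A ^ 2 + β * (A * P) + γ * P ^ 2 := by
  rcases hα.lt_or_eq with h | h
  · have e : 4 * α * (α * A ^ 2 + β * (A * P) + γ * P ^ 2) =
        (2 * α * A + β * P) ^ 2 + (4 * (α * γ) - β ^ 2) * P ^ 2 := by ring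
    have h2 : 0 ≤ (2 * α * A + β * P) ^ 2 + (4 * (α * γ) - β ^ 2) * P ^ 2 :=
      add_nonneg (sq_nonneg _) (mul_nonneg (by linarith) (sq_nonneg _))
    rw [← e] at h2
    exact nonneg_of_mul_nonneg_right h2 (by linarith)
  · subst h
    have hb : β = 0 := by
      have : β ^ 2 ≤ 0 := by linarith
      exact pow_eq_zero_iff (two_ne_zero) |>.1 (le_antisymm this (sq_nonneg _))
    subst hb
    simp only [zero_mul, add_zero, zero_add]
    positivity

end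

end Vale.Agent.Lib.P154Neg
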