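import Vale.Agent.Lib.P154Neg.Leaf

/-!
# The ray inequality on pieces

`Ψ (μ c) ≤ μ ^ 2 Ψ c` for `μ` in an interval that may contain negative numbers, from Bernstein checks on pieces of the
chamber and of the interval.
-/

namespace Vale.Agent.Lib.P154Neg

open Vale.Agent.Lib.P154 Vale.Agent.Lib.P154GW Vale.Agent.Lib.P154K Tp

noncomputable section

/-- The function of the ray inequality. -/
def hVal (L : List (ℕ × ℕ × ℤ)) (c : Tp) (μ : ℝ) : ℝ :=
  (L.map fun t => (t.2.2 : ℝ) * (p2T c ^ t.1 * p3T c ^ t.2.1) * (1 - μ ^ (2 * t.1 + 3 * t.2.1 - 2))).sum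

/-- The polynomial of the ray inequality on a piece. -/
def rayEc (L : List (ℕ × ℕ × ℤ)) (n m : ℕ) (Da : Int) (A : E3) (l h e : ℤ) : Ex :=
  sumE (L.map fun t => .mul (.c t.2.2) (.mul (.mul (.mul (.pow (p2E A) t.1) (.pow (p3E A) t.2.1))
    (.pow (.mul (.c Da) sA) (n - (2 * t.1 + 3 * t.2.1))))
    (.mul (.sub (.pow (.mul (.c e) (.add (.v 3) (.v 4))) (2 * t.1 + 3 * t.2.1 - 2))
        (.pow (.add (.mul (.c h) (.v 3)) (.mul (.c l) (.v 4))) (2 * t.1 + 3 * t.2.1 - 2)))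
      (.pow (.mul (.c e) (.add (.v 3) (.v 4))) (m - (2 * t.1 + 3 * t.2.1 - 2))))))

lemma val_rayEc {L : List (ℕ × ℕ × ℤ)} (hne : L ≠ []) {n m : ℕ} (hL : ∀ t ∈ L, 2 * t.1 + 3 * t.2.1 ≤ n)
    (hL2 : ∀ t ∈ L, 2 * t.1 + 3 * t.2.1 - 2 ≤ m)
    {r : Fin 6 → ℝ} {Da : ℝ} {A : E3} {a : Tp} (iA : ℤ) (h1 : (iA : ℝ) = Da) {l h e : ℤ} {μ : ℝ}
    (he : (e : ℝ) ≠ 0) (hS : sA.val r = 1) (hT : r 3 + r 4 = 1) (hM : (h : ℝ) * r 3 + l * r 4 = e * μ)
    (hA : A.val r = scale Da a) :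
    (rayEc L n m iA A l h e).val r = Da ^ n * (e : ℝ) ^ m * hVal L a μ := by
  rw [rayEc, val_sumE _ (by simpa using hne), hVal, List.map_map, ← List.sum_map_mul_left]
  apply congrArg
  apply List.map_congr_left
  intro t ht
  simp only [Function.comp, Ex.val, val_p2E, val_p3E, hA, p2T_scale', p3T_scale', hS, hT, hM, mul_one]
  have b1 := hL t ht
  have b2 := hL2 t ht
  have e1 : Da ^ n = Da ^ (n - (2 * t.1 + 3 * t.2.1)) * (Da ^ 2) ^ t.1 * (Da ^ 3) ^ t.2.1 := by
    have : n = (n - (2 * t.1 + 3 * t.2.1)) + 2 * t.1 + 3 * t.2.1 := by omega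
    conv_lhs => rw [this]
    rw [pow_add, pow_add, pow_mul, pow_mul]
  have e2 : (e : ℝ) ^ m = (e : ℝ) ^ (2 * t.1 + 3 * t.2.1 - 2) * (e : ℝ) ^ (m - (2 * t.1 + 3 * t.2.1 - 2)) := by
    rw [← pow_add]
    congr 1
    omega
  rw [e1, e2, h1, mul_pow, mul_pow, mul_pow (e : ℝ) μ]
  ring

/-- The ray inequality on a piece of the chamber and an interval. -/
def RayOn (L : List (ℕ × ℕ × ℤ)) (T : Trg) (μ0 μ1 : ℝ) : Prop :=
  ∀ u v w : ℝ, 0 ≤ u → 0 ≤ v → 0 ≤ w → u + v + w = 1 → ∀ μ : ℝ, μ0 ≤ μ → μ ≤ μ1 → 0 ≤ hVal L (T.pt u v w) μ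

/-- A check gives the ray inequality on a piece. -/
theorem rayOn_of_check {W n m : ℕ} {L : List (ℕ × ℕ × ℤ)} {T : Trg} {l h e : ℤ} (hne : L ≠ [])
    (hL : ∀ t ∈ L, 2 * t.1 + 3 * t.2.1 ≤ n) (hL2 : ∀ t ∈ L, 2 * t.1 + 3 * t.2.1 - 2 ≤ m)
    (hD : 0 < T.den) (he : 0 < e) (hlh : l < h)
    (hc : check W n m (rayEc L n m T.den T.exA l h e) = true) :
    RayOn L T ((l : ℝ) / e) ((h : ℝ) / e) := by
  intro u v w hu hv hw hs μ h0 h1
  have he' : (0 : ℝ) < e := by exact_mod_cast he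
  have hlh' : (l : ℝ) < h := by exact_mod_cast hlh
  have hd : (0 : ℝ) < h - l := by linarith
  have h0' : (l : ℝ) ≤ e * μ := by
    rw [div_le_iff₀ he'] at h0
    linarith
  have h1' : e * μ ≤ (h : ℝ) := by
    rw [le_div_iff₀ he'] at h1
    linarith
  set r : Fin 6 → ℝ := mkR u v w ((e * μ - l) / (h - l)) ((h - e * μ) / (h - l)) 0 with hr'
  have hr : ∀ i, 0 ≤ r i := by
    intro i
    fin_cases i
    · simpa [hr', mkR] using hu
    · simpa [hr', mkR] using hv
    · simpa [hr', mkR] using hw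
    · simp only [hr', mkR]; exact div_nonneg (by linarith) hd.le
    · simp only [hr', mkR]; exact div_nonneg (by linarith) hd.le
    · simp [hr', mkR]
  have key := check_val hc r hr
  have hS : sA.val r = 1 := by
    rw [val_sA]
    simpa [hr', mkR] using hs
  have hT : r 3 + r 4 = 1 := by
    have e3 : r 3 = (e * μ - l) / (h - l) := by simp [hr', mkR]
    have e4 : r 4 = (h - e * μ) / (h - l) := by simp [hr', mkR]
    rw [e3, e4, ← add_div, div_eq_one_iff_eq hd.ne']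
    ring
  have hM : (h : ℝ) * r 3 + l * r 4 = e * μ := by
    have e3 : r 3 = (e * μ - l) / (h - l) := by simp [hr', mkR]
    have e4 : r 4 = (h - e * μ) / (h - l) := by simp [hr', mkR]
    rw [e3, e4]
    field_simp
    ring
  have hA : T.exA.val r = scale ((T.den : ℕ) : ℝ) (T.pt u v w) := by
    rw [hr', exA_val _ _ hD]
    rfl
  rw [val_rayEc hne hL hL2 _ (by push_cast; rfl) he'.ne' hS hT hM hA] at key
  have hD' : (0 : ℝ) < ((T.den : ℕ) : ℝ) := by exact_mod_cast hD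
  exact nonneg_of_mul_nonneg_right key (by positivity)

variable {L : List (ℕ × ℕ × ℤ)}

/-- Bisect the piece of the chamber. -/
theorem RayOn.splitT {T : Trg} {μ0 μ1 : ℝ} (hD : 0 < T.den) (h1 : RayOn L (Trg.left T) μ0 μ1)
    (h2 : RayOn L (Trg.right T) μ0 μ1) : RayOn L T μ0 μ1 := by
  intro u v w hu hv hw hs
  rcases le_total w v with h | h
  · rw [Trg.left_pt T hD u v w]
    exact h1 _ _ _ (by linarith) hu (by linarith) (by linarith)
  · rw [Trg.right_pt T hD u v w]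
    exact h2 _ _ _ (by linarith) (by linarith) hu (by linarith)

/-- Split the interval. -/
theorem RayOn.splitM {T : Trg} {μ0 μm μ1 : ℝ} (h1 : RayOn L T μ0 μm) (h2 : RayOn L T μm μ1) :
    RayOn L T μ0 μ1 := by
  intro u v w hu hv hw hs μ h0 h3
  rcases le_total μ μm with h | h
  · exact h1 u v w hu hv hw hs μ h0 h
  · exact h2 u v w hu hv hw hs μ h h3

/-- A subdivision of a piece of the chamber and an interval. -/
inductive RT where
  | leaf
  | sT (a b : RT)
  | sM (μ : ℤ) (a b : RT)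

/-- The checks on the cells of a subdivision. -/
def rayChk (W n m : ℕ) (L : List (ℕ × ℕ × ℤ)) : RT → Trg → ℤ → ℤ → ℤ → Bool
  | .leaf, T, l, h, e => check W n m (rayEc L n m T.den T.exA l h e)
  | .sT a b, T, l, h, e => rayChk W n m L a (Trg.left T) l h e && rayChk W n m L b (Trg.right T) l h e
  | .sM μ a b, T, l, h, e =>
    decide (l < μ) && decide (μ < h) && rayChk W n m L a T l μ e && rayChk W n m L b T μ h e

/-- The ray inequality from the checks on a subdivision. -/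
theorem rayOn_of_rayChk {W n m : ℕ} (hne : L ≠ []) (hL : ∀ t ∈ L, 2 * t.1 + 3 * t.2.1 ≤ n)
    (hL2 : ∀ t ∈ L, 2 * t.1 + 3 * t.2.1 - 2 ≤ m) (t : RT) :
    ∀ (T : Trg) (l h e : ℤ), 0 < T.den → 0 < e → l < h → rayChk W n m L t T l h e = true →
      RayOn L T ((l : ℝ) / e) ((h : ℝ) / e) := by
  induction t with
  | leaf =>
    intro T l h e hD he hlh hc
    exact rayOn_of_check hne hL hL2 hD he hlh hc
  | sT a b iha ihb =>
    intro T l h e hD he hlh hc
    simp only [rayChk, Bool.and_eq_true] at hc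
    exact RayOn.splitT hD (iha _ l h e (Trg.left_den hD) he hlh hc.1)
      (ihb _ l h e (Trg.right_den hD) he hlh hc.2)
  | sM μ a b iha ihb =>
    intro T l h e hD he hlh hc
    simp only [rayChk, Bool.and_eq_true, decide_eq_true_eq] at hc
    obtain ⟨⟨⟨h1, h2⟩, h3⟩, h4⟩ := hc
    exact RayOn.splitM (iha T l μ e hD he h1 h3) (ihb T μ h e hD he h2 h4)

/-- A list with nonnegative value on a piece. -/
def PotOn (L : List (ℕ × ℕ × ℤ)) (T : Trg) : Prop :=
  ∀ u v w : ℝ, 0 ≤ u → 0 ≤ v → 0 ≤ w → u + v + w = 1 → 0 ≤ potL L (T.pt u v w)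

/-- The checks on the cells of a subdivision of a piece. -/
def potChk (W n : ℕ) (L : List (ℕ × ℕ × ℤ)) : RT → Trg → Bool
  | .leaf, T => check W n 0 (potE L n T.den T.exA)
  | .sT a b, T => potChk W n L a (Trg.left T) && potChk W n L b (Trg.right T)
  | .sM _ _ _, _ => false

/-- Nonnegativity on a piece from the checks on a subdivision. -/
theorem potOn_of_potChk {W n : ℕ} (hne : L ≠ []) (hL : ∀ t ∈ L, 2 * t.1 + 3 * t.2.1 ≤ n) (t : RT) :
    ∀ T : Trg, 0 < T.den → potChk W n L t T = true → PotOn L T := by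
  induction t with
  | leaf =>
    intro T hD hc u v w hu hv hw hs
    have hr : ∀ i, 0 ≤ mkR u v w 0 0 0 i := by
      intro i; fin_cases i <;> simp [mkR] <;> assumption
    have key := check_val hc _ hr
    have hS : sA.val (mkR u v w 0 0 0) = 1 := by
      rw [val_sA]; simpa [mkR] using hs
    have hA : T.exA.val (mkR u v w 0 0 0) = scale ((T.den : ℕ) : ℝ) (T.pt u v w) := by
      rw [exA_val _ _ hD]; rfl
    rw [val_potE hne hL _ (by push_cast; rfl) hS hA] at key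
    have hD' : (0 : ℝ) < (T.den : ℕ) := by exact_mod_cast hD
    exact nonneg_of_mul_nonneg_right key (by positivity)
  | sT a b iha ihb =>
    intro T hD hc u v w hu hv hw hs
    simp only [potChk, Bool.and_eq_true] at hc
    rcases le_total w v with h | h
    · rw [Trg.left_pt T hD u v w]
      exact iha _ (Trg.left_den hD) hc.1 _ _ _ (by linarith) hu (by linarith) (by linarith)
    · rw [Trg.right_pt T hD u v w]
      exact ihb _ (Trg.right_den hD) hc.2 _ _ _ (by linarith) (by linarith) hu (by linarith)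
  | sM μ a b _ _ =>
    intro T _ hc
    simp [potChk] at hc

/-- Nonnegativity on the simplex. -/
theorem pot_all (h : PotOn L (chamber 1 1)) (c : Tp) (hC : InSx 1 c) : 0 ≤ potL L c := by
  refine nonneg_of_sorted (potL L) (potL_r3 L) (potL_r4 L) (fun c hc' hs => ?_) c hC
  obtain ⟨u, v, w, hu, hv, hw, hs1, rfl⟩ := chamber_coord (p := 1) (q := 1) (by norm_num) (by norm_num)
    (by simpa using hc') hs
  exact h u v w hu hv hw hs1

/-- The ray inequality on the simplex. -/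
theorem ray_all (hL3 : ∀ t ∈ L, 2 ≤ 2 * t.1 + 3 * t.2.1) {μ0 μ1 : ℝ} (h : RayOn L (chamber 1 1) μ0 μ1)
    (c : Tp) (hC : InSx 1 c) (μ : ℝ) (h0 : μ0 ≤ μ) (h1 : μ ≤ μ1) :
    0 ≤ hVal L c μ ∧ potL L (scale μ c) ≤ μ ^ 2 * potL L c := by
  have h3 : ∀ c : Tp, hVal L c.r3 μ = hVal L c μ := fun c => by simp only [hVal, p2T_r3, p3T_r3]
  have h4 : ∀ c : Tp, hVal L c.r4 μ = hVal L c μ := fun c => by simp only [hVal, p2T_r4, p3T_r4]
  have key : 0 ≤ hVal L c μ := by
    refine nonneg_of_sorted (fun c => hVal L c μ) h3 h4 (fun c hc' hs => ?_) c hC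
    obtain ⟨u, v, w, hu, hv, hw, hs1, rfl⟩ := chamber_coord (p := 1) (q := 1) (by norm_num)
      (by norm_num) (by simpa using hc') hs
    exact h u v w hu hv hw hs1 μ h0 h1
  refine ⟨key, ?_⟩
  have e := potL_scale L hL3 μ c
  have : 0 ≤ μ ^ 2 * potL L c - potL L (scale μ c) := by
    rw [e]
    exact mul_nonneg (sq_nonneg _) key
  linarith

end

end Vale.Agent.Lib.P154Neg
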