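import Vale.Agent.Lib.P154Neg.Far
import Vale.Agent.Lib.P154Neg.RayL

/-!
# One potential with a relaxed merge inequality

A stationary potential whose merge inequality holds with an additional term `C p2T a p2T b ^ 3 - β p2T b ^ 3`, with a
bound on the merge of `p2T` and bounds on the moments at all large depths, gives nonreconstruction on the `d`-ary tree.
-/

open Filter Topology

namespace Vale.Agent.Lib.P154Neg

open Vale.Agent.Lib.P154 Vale.Agent.Lib.P154GW Vale.Agent.Lib.P154K Vale.Agent.Lib.P154Anti Tp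

noncomputable section

/-- Small negative multiples of a point of the simplex lie in the simplex. -/
lemma inSx_scale_neg {c : Tp} (hc : InSx 1 c) {μ : ℝ} (h0 : 0 ≤ μ) (h1 : μ ≤ 1 / 2) :
    InSx 1 (scale (-μ) c) := by
  have hz := hc.zs
  simp only [Tp.ZS] at hz
  have hx := hc.hx
  have hy := hc.hy
  have hzz := hc.hz
  refine ⟨?_, ?_, ?_, ?_⟩
  · simp only [Tp.ZS, scale]
    have e : -μ * c.x + -μ * c.y + -μ * c.z = -μ * (c.x + c.y + c.z) := by ring
    rw [e, hz, mul_zero]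
  · simp only [scale]
    have : c.x ≤ 2 / 3 := by linarith
    nlinarith
  · simp only [scale]
    have : c.y ≤ 2 / 3 := by linarith
    nlinarith
  · simp only [scale]
    have : c.z ≤ 2 / 3 := by linarith
    nlinarith

lemma sum_chain (C X : ℝ) (k : ℕ) :
    ∑ j ∈ Finset.range (k + 1), C * (((j : ℝ) + 1) * X) = C * X * (((k : ℝ) + 1) * ((k : ℝ) + 2) / 2) := by
  induction k with
  | zero => simp
  | succ n ih =>
    rw [Finset.sum_range_succ, ih]
    push_cast
    ring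

/-- **Nonreconstruction from one potential with a relaxed merge inequality.** -/
theorem tendsto_rel {L LP : List (ℕ × ℕ × ℤ)} {R RP : List (ℕ × ℕ × ℕ × ℕ × ℤ)} {p q k N : ℕ}
    {lam s T C β δ M y₀ m₀ K₀ E : ℝ}
    (hp : 0 < p) (hq : 0 < q) (hpq : 2 * p < q) (hs : s = (p : ℝ) / q)
    (hHP : HoldsOn L R (chamber 1 1) (chamberN p q)) (hHM : HoldsOn L R (chamber 1 1) (chamberNR p q))
    (hrhs : ∀ a c, rhsL R a (sc s c) = potL L a + s ^ 2 * potL L c - T * (p2T a * p2T (sc s c)) +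
      C * (p2T a * p2T (sc s c) ^ 3) - β * p2T (sc s c) ^ 3)
    (hT : 0 < T) (hC : 0 ≤ C)
    (hray : ∀ c, InSx 1 c → ∀ μ : ℝ, 0 ≤ μ → μ ≤ 1 → potL L (scale μ c) ≤ μ ^ 2 * potL L c)
    (hFY : ∀ c, InSx 1 c → potL L (sc s c) + β * p2T (sc s c) ^ 3 ≤ s ^ 2 * potL L c)
    (hPP : HoldsOn LP RP (chamber 1 1) (chamberN p q)) (hPM : HoldsOn LP RP (chamber 1 1) (chamberNR p q))
    (hE : 0 < E) (hLP : ∀ c, potL LP c = E * p2T c)
    (hRP : ∀ a b, rhsL RP a b = E * (p2T a + (1 + δ) * p2T b + M * p2T b ^ 2))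
    (hδ : 0 ≤ δ) (hM : 0 ≤ M) (hK : 0 < K₀) (hge : ∀ c, InSx 1 c → p2T c ≤ K₀ * potL L c)
    (hl0 : -s ≤ lam) (hl : lam < 0) (hd : ((k : ℝ) + 2) * lam ^ 2 ≤ 1)
    (hfar : ∀ n, N ≤ n → PhiN k lam p2T n ≤ y₀ ∧ PhiN k lam (fun c => p2T c ^ 2) n ≤ m₀)
    (hy0 : 0 ≤ y₀) (hm0 : 0 ≤ m₀)
    (hbudget : C * (((k : ℝ) + 1) / 2 * ((1 + δ) * (y₀ / ((k : ℝ) + 2)) + M * (m₀ / ((k : ℝ) + 2) ^ 2))) ≤ β) :
    Tendsto (reconDist 3 (k + 2) lam) atTop (𝓝 0) := by
  have hq' : (0 : ℝ) < q := by exact_mod_cast hq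
  have hp' : (0 : ℝ) < p := by exact_mod_cast hp
  have hs0 : 0 < s := by rw [hs]; positivity
  have hs1 : 2 * s < 1 := by
    rw [hs, ← mul_div_assoc, div_lt_one hq']
    exact_mod_cast hpq
  have hsne : s ≠ 0 := hs0.ne'
  have hlne : lam ≠ 0 := hl.ne
  have hl0' : -1 / 2 ≤ lam := by linarith
  set ψ : Tp → ℝ := potL L with hψ
  set Y : Tp → ℝ := fun b => s ^ 2 * ψ (scale (-s⁻¹) b) - β * p2T b ^ 3 with hYd
  -- a multiple of the eigenvalue as a multiple of `-s`
  have hm0' : 0 ≤ -lam / s := div_nonneg (by linarith) hs0.le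
  have hm1' : -lam / s ≤ 1 := by
    rw [div_le_one hs0]; linarith
  have hsc : ∀ c, scale lam c = sc s (scale (-lam / s) c) := by
    intro c
    simp only [sc, scale_scale]
    congr 1
    field_simp
  have hcb : ∀ c, InSx 1 c → InSx 1 (scale (-lam / s) c) := by
    intro c hc
    have h := (InSx.scale hc hm0').mono hm1'
    exact h
  have hYc : ∀ c, Y (sc s c) = s ^ 2 * ψ c - β * p2T (sc s c) ^ 3 := by
    intro c
    simp only [hYd, sc, scale_scale]
    have : -s⁻¹ * -s = 1 := by field_simp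
    rw [this, scale_one']
  -- the merge
  have hmerge : ∀ a c', InSx 1 a → InSx 1 c' → KT ψ a (scale lam c') ≤
      ψ a + Y (scale lam c') + C * (p2T a * p2T (scale lam c') ^ 3) - T * (p2T a * p2T (scale lam c')) := by
    intro a c' ha hc'
    have hc := hcb c' hc'
    have key := avg6_le_allN (L := L) (R := R) hq hpq hHP hHM a _ ha hc
    rw [← hs, hrhs, ← hsc] at key
    rw [hsc c', hYc, ← hsc]
    simp only [KT]
    linarith
  have hp2a : ∀ a, 0 ≤ p2T a := p2T_nonneg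
  refine tendsto_far (pot := fun _ => ψ) (Y := Y) (Cc := fun _ => C) (t := T) (β := β) (δ := δ) (M := M)
    (y₀ := y₀) (m₀ := m₀) (K₀ := K₀) (N := N) hl0' (by linarith) hlne hd hT hδ hM hK (fun _ => hC) ?_ ?_ ?_ ?_
    hge hfar ?_
  · -- the first two children
    intro c c' hc hc'
    have hA : InSx 1 (scale lam c) := by
      have : lam = -(-lam) := by ring
      rw [this]
      exact inSx_scale_neg hc (by linarith) (by linarith)
    have h1 := hmerge _ c' hA hc'
    have h2 : ψ (scale lam c) ≤ Y (scale lam c) := by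
      rw [hsc c, hYc]
      have := hFY _ (hcb c hc)
      linarith
    linarith
  · intro j _ _ a c' ha hc'
    have h1 := hmerge a c' ha hc'
    have h2 : 0 ≤ T * (p2T a * p2T (scale lam c')) :=
      mul_nonneg hT.le (mul_nonneg (hp2a _) (hp2a _))
    linarith
  · intro c hc
    rw [hsc c, hYc, ← hsc c]
    have h1 := hray c hc _ hm0' hm1'
    have e2 : lam ^ 2 = s ^ 2 * (-lam / s) ^ 2 := by field_simp
    rw [e2]
    have h2 : s ^ 2 * ψ (scale (-lam / s) c) ≤ s ^ 2 * ((-lam / s) ^ 2 * ψ c) :=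
      mul_le_mul_of_nonneg_left h1 (sq_nonneg _)
    linarith [h2]
  · intro a c' ha hc'
    have hc := hcb c' hc'
    have key := avg6_le_allN (L := LP) (R := RP) hq hpq hPP hPM a _ ha hc
    rw [← hs, hRP, ← hsc] at key
    have e : avg6 (fun b' => (1 + 3 * sF a b') * potL LP (wF a b')) (scale lam c') =
        E * KT p2T a (scale lam c') := by
      simp only [KT, avg6, hLP]
      ring
    rw [e] at key
    exact le_of_mul_le_mul_left key hE
  · -- the budget
    rw [sum_chain]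
    have hk2 : (0 : ℝ) < (k : ℝ) + 2 := by positivity
    have hk1 : (0 : ℝ) < (k : ℝ) + 1 := by positivity
    have hl2 : lam ^ 2 ≤ 1 / ((k : ℝ) + 2) := by
      rw [le_div_iff₀ hk2]
      linarith
    have hl4 : lam ^ 4 ≤ 1 / ((k : ℝ) + 2) ^ 2 := by
      have : lam ^ 4 = (lam ^ 2) ^ 2 := by ring
      rw [this, ← one_div_pow]
      exact pow_le_pow_left₀ (sq_nonneg _) hl2 2
    have hX : (1 + δ) * (lam ^ 2 * y₀) + M * (lam ^ 4 * m₀) ≤
        (1 + δ) * (y₀ / ((k : ℝ) + 2)) + M * (m₀ / ((k : ℝ) + 2) ^ 2) := by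
      have a1 : lam ^ 2 * y₀ ≤ y₀ / ((k : ℝ) + 2) := by
        rw [div_eq_mul_one_div, mul_comm]
        exact mul_le_mul_of_nonneg_left hl2 hy0
      have a2 : lam ^ 4 * m₀ ≤ m₀ / ((k : ℝ) + 2) ^ 2 := by
        rw [div_eq_mul_one_div, mul_comm]
        exact mul_le_mul_of_nonneg_left hl4 hm0
      have a3 := mul_le_mul_of_nonneg_left a1 (by linarith : (0 : ℝ) ≤ 1 + δ)
      have a4 := mul_le_mul_of_nonneg_left a2 hM
      linarith
    have h3 : C * ((1 + δ) * (lam ^ 2 * y₀) + M * (lam ^ 4 * m₀)) * (((k : ℝ) + 1) / 2) ≤ β := by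
      have := mul_le_mul_of_nonneg_left hX (mul_nonneg hC (by positivity : (0 : ℝ) ≤ ((k : ℝ) + 1) / 2))
      nlinarith [hbudget]
    have h4 := mul_le_mul_of_nonneg_left h3 hk2.le
    nlinarith [h4]

end

end Vale.Agent.Lib.P154Neg
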