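import Vale.Agent.Lib.P154Neg.Ray

/-!
# A stationary potential for a negative eigenvalue of absolute value at most `1/10`
-/

open Filter Topology

namespace Vale.Agent.Lib.P154Neg

open Vale.Agent.Lib.P154 Vale.Agent.Lib.P154GW Vale.Agent.Lib.P154K Tp

namespace S10

/-- The terms of the potential. -/
def Lq : List (ℕ × ℕ × ℤ) := [(1, 0, 10000), (2, 0, 893), (1, 1, -11538), (0, 2, 46000), (3, 0, 347)]

/-- The terms of the right side. -/
def Rq : List (ℕ × ℕ × ℕ × ℕ × ℤ) :=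
  [(1, 0, 0, 0, 10000), (0, 0, 1, 0, 10000), (2, 0, 0, 0, 893), (0, 0, 2, 0, 89300), (1, 1, 0, 0, -11538), (0, 0, 1, 1, 11538000), (0, 2, 0, 0, 46000), (0, 0, 0, 2, 460000000), (3, 0, 0, 0, 347), (0, 0, 3, 0, 3470000), (1, 0, 1, 0, -290)]

/-- The first coefficient of the quadratic form. -/
def Qa : List (ℕ × ℕ × ℤ) := [(0, 2, 893), (1, 4, 347)]
/-- The second coefficient of the quadratic form. -/
def Qb : List (ℕ × ℕ × ℤ) := [(0, 3, -11538)]
/-- The third coefficient of the quadratic form. -/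
def Qg : List (ℕ × ℕ × ℤ) := [(0, 4, 46000)]

/-- A constant minus the potential. -/
def Lc : List (ℕ × ℕ × ℤ) := [(0, 0, 20000), (1, 0, -10000), (2, 0, -893), (1, 1, 11538), (0, 2, -46000), (3, 0, -347)]

theorem aC : check 40 1 4 (qE Qa 1 4 1 10) = true := by
  decide +kernel

theorem gC : check 40 1 4 (qE Qg 1 4 1 10) = true := by
  decide +kernel

theorem dC : check 80 (2 * 1) (2 * 4) (discE Qa Qb Qg 1 4 1 10) = true := by
  decide +kernel

theorem cC : check 44 6 0 (potE Lc 6 (chamber 1 1).den (chamber 1 1).exA) = true := by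
  decide +kernel

lemma hLq : ∀ t ∈ Lq, 2 * t.1 + 3 * t.2.1 ≤ 5 + 1 := by
  intro t ht
  simp only [Lq, List.mem_cons, List.not_mem_nil, or_false] at ht
  repeat' (rcases ht with rfl | ht)
  all_goals norm_num

lemma hRq : ∀ t ∈ Rq, 2 * t.1 + 3 * t.2.1 ≤ 6 ∧ 2 * t.2.2.1 + 3 * t.2.2.2.1 ≤ 6 := by
  intro t ht
  simp only [Rq, List.mem_cons, List.not_mem_nil, or_false] at ht
  repeat' (rcases ht with rfl | ht)
  all_goals norm_num

lemma hQa1 : ∀ t ∈ Qa, t.1 ≤ 1 := by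
  intro t ht
  simp only [Qa, List.mem_cons, List.not_mem_nil, or_false] at ht
  repeat' (rcases ht with rfl | ht)
  all_goals norm_num

lemma hQa2 : ∀ t ∈ Qa, t.2.1 ≤ 4 := by
  intro t ht
  simp only [Qa, List.mem_cons, List.not_mem_nil, or_false] at ht
  repeat' (rcases ht with rfl | ht)
  all_goals norm_num

lemma hQb1 : ∀ t ∈ Qb, t.1 ≤ 1 := by
  intro t ht
  simp only [Qb, List.mem_cons, List.not_mem_nil, or_false] at ht
  repeat' (rcases ht with rfl | ht)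
  all_goals norm_num

lemma hQb2 : ∀ t ∈ Qb, t.2.1 ≤ 4 := by
  intro t ht
  simp only [Qb, List.mem_cons, List.not_mem_nil, or_false] at ht
  repeat' (rcases ht with rfl | ht)
  all_goals norm_num

lemma hQg1 : ∀ t ∈ Qg, t.1 ≤ 1 := by
  intro t ht
  simp only [Qg, List.mem_cons, List.not_mem_nil, or_false] at ht
  repeat' (rcases ht with rfl | ht)
  all_goals norm_num

lemma hQg2 : ∀ t ∈ Qg, t.2.1 ≤ 4 := by
  intro t ht
  simp only [Qg, List.mem_cons, List.not_mem_nil, or_false] at ht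
  repeat' (rcases ht with rfl | ht)
  all_goals norm_num

lemma hLq2 : ∀ t ∈ Lq, 2 ≤ 2 * t.1 + 3 * t.2.1 := by
  intro t ht
  simp only [Lq, List.mem_cons, List.not_mem_nil, or_false] at ht
  repeat' (rcases ht with rfl | ht)
  all_goals norm_num

lemma hLc : ∀ t ∈ Lc, 2 * t.1 + 3 * t.2.1 ≤ 6 := by
  intro t ht
  simp only [Lc, List.mem_cons, List.not_mem_nil, or_false] at ht
  repeat' (rcases ht with rfl | ht)
  all_goals norm_num

lemma hrhs (a c : Tp) : rhsL Rq a (sc (((1 : ℕ) : ℝ) / ((10 : ℕ) : ℝ)) c) =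
    potL Lq a + (((1 : ℕ) : ℝ) / ((10 : ℕ) : ℝ)) ^ 2 * potL Lq c -
      (290 / 1) * (p2T a * p2T (sc (((1 : ℕ) : ℝ) / ((10 : ℕ) : ℝ)) c)) := by
  simp only [rhsL, potL, Rq, Lq, List.map_cons, List.map_nil, List.sum_cons, List.sum_nil, sc,
    p2T_scale', p3T_scale']
  norm_num
  ring

lemma hform (c : Tp) (μ : ℝ) :
    (Lq.map fun t => (t.2.2 : ℝ) * (p2T c ^ t.1 * p3T c ^ t.2.1) *
        (1 - μ ^ (2 * t.1 + 3 * t.2.1 - 2))).sum =
      qVal Qa (p2T c) μ * p2T c ^ 2 + qVal Qb (p2T c) μ * (p2T c * p3T c) +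
        qVal Qg (p2T c) μ * p3T c ^ 2 := by
  simp only [qVal, Lq, Qa, Qb, Qg, List.map_cons, List.map_nil, List.sum_cons, List.sum_nil]
  norm_num
  ring

lemma hfn (c : Tp) (hc : InSx 1 c) (μ : ℝ) (h0 : -(((1 : ℕ) : ℝ) / ((10 : ℕ) : ℝ)) ≤ μ) (h1 : μ ≤ 1) :
    0 ≤ qVal Qa (p2T c) μ * p2T c ^ 2 + qVal Qb (p2T c) μ * (p2T c * p3T c) +
        qVal Qg (p2T c) μ * p3T c ^ 2 := by
  have hA0 := p2T_nonneg c
  have hA1 := p2T_le_of_inSx hc
  refine form_nonneg ?_ ?_ ?_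
  · exact qVal_of_check (p := 1) (q := 10) (by norm_num) (by simp [Qa]) hQa1 hQa2 aC hA0 hA1 h0 h1
  · exact qVal_of_check (p := 1) (q := 10) (by norm_num) (by simp [Qg]) hQg1 hQg2 gC hA0 hA1 h0 h1
  · exact disc_of_check (p := 1) (q := 10) (by norm_num) (by simp [Qa]) (by simp [Qb]) (by simp [Qg])
      hQa1 hQa2 hQb1 hQb2 hQg1 hQg2 dC hA0 hA1 h0 h1

lemma hRayAll (c : Tp) (hc : InSx 1 c) (μ : ℝ) (h0 : -(((1 : ℕ) : ℝ) / ((10 : ℕ) : ℝ)) ≤ μ) (h1 : μ ≤ 1) :
    potL Lq (scale μ c) ≤ μ ^ 2 * potL Lq c := by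
  have e := potL_scale Lq hLq2 μ c
  rw [hform] at e
  have h := hfn c hc μ h0 h1
  have : 0 ≤ μ ^ 2 * potL Lq c - potL Lq (scale μ c) := by
    rw [e]; exact mul_nonneg (sq_nonneg _) h
  linarith

lemma hG (c : Tp) (hc : InSx 1 c) : ((10000 : ℝ)) * p2T c ≤ potL Lq c := by
  have h := hfn c hc 0 (by norm_num) (by norm_num)
  have e : potL Lq c - ((10000 : ℝ)) * p2T c =
      qVal Qa (p2T c) 0 * p2T c ^ 2 + qVal Qb (p2T c) 0 * (p2T c * p3T c) +
        qVal Qg (p2T c) 0 * p3T c ^ 2 := by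
    simp only [potL, qVal, Lq, Qa, Qb, Qg, List.map_cons, List.map_nil, List.sum_cons, List.sum_nil]
    norm_num
    ring
  rw [← e] at h
  linarith

lemma hBd (c : Tp) (hc : InSx 1 c) : potL Lq c ≤ (20000 : ℝ) := by
  have h := potL_nonneg_of_check (L := Lc) (by simp [Lc]) hLc cC c hc
  have e : potL Lc c = (20000 : ℝ) - potL Lq c := by
    simp only [potL, Lc, Lq, List.map_cons, List.map_nil, List.sum_cons, List.sum_nil]
    norm_num
    ring
  rw [e] at h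
  linarith

theorem checkP : check 272 21 21 (mkF (chamber 1 1) (chamberN 1 10) Lq 5 Rq 6 6) = true := by
  decide +kernel

theorem checkM : check 272 21 21 (mkF (chamber 1 1) (chamberNR 1 10) Lq 5 Rq 6 6) = true := by
  decide +kernel

lemma hHP : HoldsOn Lq Rq (chamber 1 1) (chamberN 1 10) :=
  holdsOn_of_check checkP (by simp [Lq]) (by simp [Rq]) hLq hRq (by decide) (by decide)

lemma hHM : HoldsOn Lq Rq (chamber 1 1) (chamberNR 1 10) :=
  holdsOn_of_check checkM (by simp [Lq]) (by simp [Rq]) hLq hRq (by decide) (by decide)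

/-- **Nonreconstruction for `-1/10 ≤ lam ≤ 0`**, for every offspring law with mean `d` and
`d lam ^ 2 ≤ 1`. -/
theorem tendsto {π : ℕ → ℝ} {d lam : ℝ} (hπ0 : ∀ k, 0 ≤ π k) (hπ : HasSum π 1)
    (hmean : HasSum (fun k : ℕ => (k : ℝ) * π k) d) (k₀ : ℕ) (hπ2 : 0 < π (k₀ + 2))
    (hl0 : -(((1 : ℕ) : ℝ) / ((10 : ℕ) : ℝ)) ≤ lam) (hl : lam ≤ 0) (hd : d * lam ^ 2 ≤ 1) :
    Tendsto (advantage π 3 lam) atTop (𝓝 0) := by
  refine tendsto_neg (L := Lq) (R := Rq) (p := 1) (q := 10) (T := 290 / 1) (C := 20000)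
    (K' := 1 / 10000) hπ0 hπ hmean k₀ hπ2 (by norm_num) (by norm_num) (by norm_num) rfl
    hHP hHM
    hrhs (by norm_num) ?_ ?_ ?_ ?_ ?_ hBd hl0 hl hd
  · intro c hc μ h0 h1
    exact hRayAll c hc μ (by have : (0 : ℝ) ≤ (((1 : ℕ) : ℝ) / ((10 : ℕ) : ℝ)) := by positivity
                             linarith) h1
  · intro c hc
    have := hRayAll c hc (-(((1 : ℕ) : ℝ) / ((10 : ℕ) : ℝ))) le_rfl (by norm_num)
    rw [neg_sq] at this
    exact this
  · have : potL Lq ⟨0, 0, 0⟩ = 0 := by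
      simp only [potL, Lq, List.map_cons, List.map_nil, List.sum_cons, List.sum_nil, p2T, p3T]
      norm_num
    exact this.le
  · intro c hc
    have := hG c hc
    have h2 := p2T_nonneg c
    nlinarith
  · intro c hc
    have := hG c hc
    rw [div_mul_eq_mul_div, le_div_iff₀ (by norm_num)]
    linarith

end S10

end Vale.Agent.Lib.P154Neg

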