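import Vale.Agent.Lib.P154Neg.QForm6

/-!
# A stationary potential with a budget: from the checks to nonreconstruction on the `d`-ary tree
-/

open Filter Topology

namespace Vale.Agent.Lib.P154Neg

open Vale.Agent.Lib.P154 Vale.Agent.Lib.P154Anti Vale.Agent.Lib.P154GW Vale.Agent.Lib.P154K Tp

noncomputable section

/-! ### Nonnegativity of potentials and the ray inequality, with bisection -/

/-- Nonnegativity on a triangle. -/
def PotNN (L : List (ℕ × ℕ × ℤ)) (T : Trg) : Prop :=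
  ∀ u v w : ℝ, 0 ≤ u → 0 ≤ v → 0 ≤ w → u + v + w = 1 → 0 ≤ potL L (T.pt u v w)

theorem potNN_of_check {W n : ℕ} {L : List (ℕ × ℕ × ℤ)} {T : Trg} (hne : L ≠ [])
    (hL : ∀ t ∈ L, 2 * t.1 + 3 * t.2.1 ≤ n) (hD : 0 < T.den)
    (hc : check W n 0 (potE L n T.den T.exA) = true) : PotNN L T := by
  intro u v w hu hv hw hs1
  have hr : ∀ i, 0 ≤ mkR u v w 0 0 0 i := by
    intro i; fin_cases i <;> simp [mkR] <;> assumption
  have key := check_val hc _ hr
  have hS : sA.val (mkR u v w 0 0 0) = 1 := by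
    rw [val_sA]; simpa [mkR] using hs1
  have hA : T.exA.val (mkR u v w 0 0 0) = scale ((T.den : ℕ) : ℝ) (T.pt u v w) := by
    rw [exA_val _ _ hD]; rfl
  rw [val_potE hne hL _ (by push_cast; rfl) hS hA] at key
  have hD' : (0 : ℝ) < (T.den : ℕ) := by exact_mod_cast hD
  exact nonneg_of_mul_nonneg_right key (by positivity)

theorem PotNN.split {L : List (ℕ × ℕ × ℤ)} {T : Trg} (hD : 0 < T.den) (h1 : PotNN L (Trg.left T))
    (h2 : PotNN L (Trg.right T)) : PotNN L T := by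
  intro u v w hu hv hw hs
  rcases le_total w v with h | h
  · rw [Trg.left_pt T hD u v w]
    exact h1 _ _ _ (by linarith) hu (by linarith) (by linarith)
  · rw [Trg.right_pt T hD u v w]
    exact h2 _ _ _ (by linarith) (by linarith) hu (by linarith)

theorem potL_nonneg_of_potNN {L : List (ℕ × ℕ × ℤ)} (h : PotNN L (chamber 1 1)) (c : Tp)
    (hC : InSx 1 c) : 0 ≤ potL L c := by
  refine nonneg_of_sorted (potL L) (potL_r3 L) (potL_r4 L) (fun c hc' hs => ?_) c hC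
  obtain ⟨u, v, w, hu, hv, hw, hs1, rfl⟩ := chamber_coord (p := 1) (q := 1) (by norm_num) (by norm_num)
    (by simpa using hc') hs
  exact h u v w hu hv hw hs1

/-- The function of the ray inequality. -/
def rayF (L : List (ℕ × ℕ × ℤ)) (μ : ℝ) (c : Tp) : ℝ :=
  (L.map fun t => (t.2.2 : ℝ) * (p2T c ^ t.1 * p3T c ^ t.2.1) *
        (1 - μ ^ (2 * t.1 + 3 * t.2.1 - 2))).sum

/-- The ray inequality on a triangle. -/
def RayNN (L : List (ℕ × ℕ × ℤ)) (T : Trg) : Prop :=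
  ∀ u v w : ℝ, 0 ≤ u → 0 ≤ v → 0 ≤ w → u + v + w = 1 → ∀ μ : ℝ, 0 ≤ μ → μ ≤ 1 →
    0 ≤ rayF L μ (T.pt u v w)

theorem rayNN_of_check {W n m : ℕ} {L : List (ℕ × ℕ × ℤ)} {T : Trg} (hne : L ≠ [])
    (hL : ∀ t ∈ L, 2 * t.1 + 3 * t.2.1 ≤ n) (hL2 : ∀ t ∈ L, 2 * t.1 + 3 * t.2.1 - 2 ≤ m)
    (hD : 0 < T.den) (hc : check W n m (rayE L n m T.den T.exA) = true) : RayNN L T := by
  intro u v w hu hv hw hs1 μ h0 h1
  have hr : ∀ i, 0 ≤ mkR u v w μ (1 - μ) 0 i := by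
    intro i
    fin_cases i <;> simp [mkR] <;> first | assumption | linarith
  have key := check_val hc _ hr
  have hS : sA.val (mkR u v w μ (1 - μ) 0) = 1 := by
    rw [val_sA]; simpa [mkR] using hs1
  have hT : sB.val (mkR u v w μ (1 - μ) 0) = 1 := by
    rw [val_sB]; simp [mkR]
  have hA : T.exA.val (mkR u v w μ (1 - μ) 0) = scale ((T.den : ℕ) : ℝ) (T.pt u v w) := by
    rw [exA_val _ _ hD]; rfl
  rw [val_rayE hne hL hL2 _ (by push_cast; rfl) hS hT hA] at key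
  have hD' : (0 : ℝ) < (T.den : ℕ) := by exact_mod_cast hD
  have e : mkR u v w μ (1 - μ) 0 3 = μ := by simp [mkR]
  rw [e] at key
  exact nonneg_of_mul_nonneg_right key (by positivity)

theorem RayNN.split {L : List (ℕ × ℕ × ℤ)} {T : Trg} (hD : 0 < T.den) (h1 : RayNN L (Trg.left T))
    (h2 : RayNN L (Trg.right T)) : RayNN L T := by
  intro u v w hu hv hw hs
  rcases le_total w v with h | h
  · rw [Trg.left_pt T hD u v w]
    exact h1 _ _ _ (by linarith) hu (by linarith) (by linarith)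
  · rw [Trg.right_pt T hD u v w]
    exact h2 _ _ _ (by linarith) (by linarith) hu (by linarith)

theorem rayF_nonneg {L : List (ℕ × ℕ × ℤ)} (h : RayNN L (chamber 1 1)) (c : Tp) (hC : InSx 1 c)
    (μ : ℝ) (h0 : 0 ≤ μ) (h1 : μ ≤ 1) : 0 ≤ rayF L μ c := by
  refine nonneg_of_sorted (rayF L μ) (fun c => by simp only [rayF, p2T_r3, p3T_r3])
    (fun c => by simp only [rayF, p2T_r4, p3T_r4]) (fun c hc' hs => ?_) c hC
  obtain ⟨u, v, w, hu, hv, hw, hs1, rfl⟩ := chamber_coord (p := 1) (q := 1) (by norm_num) (by norm_num)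
    (by simpa using hc') hs
  exact h u v w hu hv hw hs1 μ h0 h1

/-- The ray inequality. -/
theorem ray_of_rayNN {L : List (ℕ × ℕ × ℤ)} (hL3 : ∀ t ∈ L, 2 ≤ 2 * t.1 + 3 * t.2.1)
    (h : RayNN L (chamber 1 1)) (c : Tp) (hC : InSx 1 c) (μ : ℝ) (h0 : 0 ≤ μ) (h1 : μ ≤ 1) :
    potL L (scale μ c) ≤ μ ^ 2 * potL L c := by
  have e := potL_scale L hL3 μ c
  have k := rayF_nonneg h c hC μ h0 h1
  have : 0 ≤ μ ^ 2 * potL L c - potL L (scale μ c) := by
    rw [e]; exact mul_nonneg (sq_nonneg _) k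
  linarith


/-! ### Trees of bisections -/

/-- A tree of bisections of a pair of triangles. -/
inductive PTree where
  | leaf (W : ℕ)
  | a (l r : PTree)
  | b (l r : PTree)

/-- The check of a tree of bisections, with one polynomial bound for all rearrangements. -/
def PTree.ok (L : List (ℕ × ℕ × ℤ)) (D g : ℕ) (qd : ℤ) (R : List (ℕ × ℕ × ℕ × ℕ × ℤ)) (E : QEnt) :
    PTree → Trg → Trg → Bool
  | .leaf W, Ta, Tb => leaf6 W Ta Tb L D g qd R E E E E E E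
  | .a l r, Ta, Tb => PTree.ok L D g qd R E l (Trg.left Ta) Tb && PTree.ok L D g qd R E r (Trg.right Ta) Tb
  | .b l r, Ta, Tb => PTree.ok L D g qd R E l Ta (Trg.left Tb) && PTree.ok L D g qd R E r Ta (Trg.right Tb)

/-- A tree of bisections of a triangle. -/
inductive TTree where
  | leaf (W : ℕ)
  | node (l r : TTree)

/-- The check of nonnegativity on a tree of bisections. -/
def TTree.okN (L : List (ℕ × ℕ × ℤ)) (n : ℕ) : TTree → Trg → Bool
  | .leaf W, T => check W n 0 (potE L n T.den T.exA)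
  | .node l r, T => TTree.okN L n l (Trg.left T) && TTree.okN L n r (Trg.right T)

/-- The check of the ray inequality on a tree of bisections. -/
def TTree.okR (L : List (ℕ × ℕ × ℤ)) (n m : ℕ) : TTree → Trg → Bool
  | .leaf W, T => check W n m (rayE L n m T.den T.exA)
  | .node l r, T => TTree.okR L n m l (Trg.left T) && TTree.okR L n m r (Trg.right T)

theorem holds6_of_tree {L : List (ℕ × ℕ × ℤ)} {D g : ℕ} {qd : ℤ} {R : List (ℕ × ℕ × ℕ × ℕ × ℤ)} {E : QEnt}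
    (hLne : L ≠ []) (hRne : R ≠ []) (hD1 : 1 ≤ D) (hqd : 0 < qd)
    (hL : ∀ t ∈ L, 2 * t.1 + 3 * t.2.1 ≤ D - 1 + 1)
    (hR : ∀ t ∈ R, 2 * t.1 + 3 * t.2.1 ≤ D + g ∧ 2 * t.2.2.1 + 3 * t.2.2.2.1 ≤ D + g)
    (hψ : ∀ c, InSx 1 c → 0 ≤ potL L c)
    (hE : ValidE L D g qd E) (T : PTree) :
    ∀ Ta Tb : Trg, 0 < Ta.den → 0 < Tb.den → PTree.ok L D g qd R E T Ta Tb = true → Holds6 L R Ta Tb := by
  induction T with
  | leaf W =>
    intro Ta Tb h1 h2 hc
    refine holds6_of_leaf (W := W) (E0 := E) (E1 := E) (E2 := E) (E3' := E) (E4 := E) (E5 := E) hc hLne hRne hD1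
      hqd hL hR hψ ?_ h1 h2
    intro x hx
    simp only [List.mem_cons, List.not_mem_nil, or_false, or_self] at hx
    rw [hx]
    exact hE
  | a l r ihl ihr =>
    intro Ta Tb h1 h2 hc
    simp only [PTree.ok, Bool.and_eq_true] at hc
    exact Holds6.splitA h1 (ihl _ _ (Trg.left_den h1) h2 hc.1) (ihr _ _ (Trg.right_den h1) h2 hc.2)
  | b l r ihl ihr =>
    intro Ta Tb h1 h2 hc
    simp only [PTree.ok, Bool.and_eq_true] at hc
    exact Holds6.splitB h2 (ihl _ _ h1 (Trg.left_den h2) hc.1) (ihr _ _ h1 (Trg.right_den h2) hc.2)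

theorem potNN_of_tree {L : List (ℕ × ℕ × ℤ)} {n : ℕ} (hne : L ≠ [])
    (hL : ∀ t ∈ L, 2 * t.1 + 3 * t.2.1 ≤ n) (T : TTree) :
    ∀ Ta : Trg, 0 < Ta.den → TTree.okN L n T Ta = true → PotNN L Ta := by
  induction T with
  | leaf W =>
    intro Ta h1 hc
    exact potNN_of_check hne hL h1 hc
  | node l r ihl ihr =>
    intro Ta h1 hc
    simp only [TTree.okN, Bool.and_eq_true] at hc
    exact PotNN.split h1 (ihl _ (Trg.left_den h1) hc.1) (ihr _ (Trg.right_den h1) hc.2)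

theorem rayNN_of_tree {L : List (ℕ × ℕ × ℤ)} {n m : ℕ} (hne : L ≠ [])
    (hL : ∀ t ∈ L, 2 * t.1 + 3 * t.2.1 ≤ n) (hL2 : ∀ t ∈ L, 2 * t.1 + 3 * t.2.1 - 2 ≤ m) (T : TTree) :
    ∀ Ta : Trg, 0 < Ta.den → TTree.okR L n m T Ta = true → RayNN L Ta := by
  induction T with
  | leaf W =>
    intro Ta h1 hc
    exact rayNN_of_check hne hL hL2 h1 hc
  | node l r ihl ihr =>
    intro Ta h1 hc
    simp only [TTree.okR, Bool.and_eq_true] at hc
    exact RayNN.split h1 (ihl _ (Trg.left_den h1) hc.1) (ihr _ (Trg.right_den h1) hc.2)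

/-- The bound on the normalization from two grids, on both sides of one. -/
theorem validE_of_grids {L : List (ℕ × ℕ × ℤ)} {D g : ℕ} {qd : ℤ} {E : QEnt} {W1 W2 K1 K2 : ℕ}
    (hcap : E.cap = none) (hK1 : 0 < K1) (hK2 : 0 < K2)
    (hQne : E.Q ≠ []) (hQ : ∀ t ∈ E.Q, t.1 ≤ g) (he : 0 < E.e) (h0 : 0 < E.lo) (hlo : E.lo < E.e) (hhi : E.e < E.hi)
    (h1 : qGrid W1 E.Q D g qd E.lo E.e E.e K1 = true)
    (h2 : qGrid W2 E.Q D g qd E.e E.hi E.e K2 = true) : ValidE L D g qd E := by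
  simp only [ValidE, hcap]
  refine ⟨hQne, hQ, he, h0, ?_⟩
  intro y h0 h3
  have he' : (0 : ℝ) < E.e := by exact_mod_cast he
  rcases le_total y 1 with h | h
  · refine qGrid_bound hK1 hQne hQ he hlo h1 h0 ?_
    rw [div_self he'.ne']
    exact h
  · refine qGrid_bound hK2 hQne hQ he hhi h2 ?_ h3
    rw [div_self he'.ne']
    exact h

/-- The bound on the normalization from one grid. -/
theorem validE_of_grid {L : List (ℕ × ℕ × ℤ)} {D g : ℕ} {qd : ℤ} {E : QEnt} {W1 K1 : ℕ}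
    (hcap : E.cap = none) (hK1 : 0 < K1)
    (hQne : E.Q ≠ []) (hQ : ∀ t ∈ E.Q, t.1 ≤ g) (he : 0 < E.e) (h0 : 0 < E.lo) (hlo : E.lo < E.hi)
    (h1 : qGrid W1 E.Q D g qd E.lo E.hi E.e K1 = true) : ValidE L D g qd E := by
  simp only [ValidE, hcap]
  refine ⟨hQne, hQ, he, h0, ?_⟩
  intro y h0 h3
  exact qGrid_bound hK1 hQne hQ he hlo h1 h0 h3


/-! ### A leaf with its own polynomial bounds -/

/-- An entry with the data of the check of its polynomial bound. -/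
structure VEnt where
  E : QEnt
  m : ℤ
  K1 : ℕ
  K2 : ℕ

/-- The check of the polynomial bound of an entry, on the two parts of its interval. -/
def validB (D g : ℕ) (qd : ℤ) (W : ℕ) (V : VEnt) : Bool :=
  (match V.E.cap with
    | none => true
    | some _ => false) &&
  (match V.E.Q with
    | [] => false
    | _ :: _ => true) &&
  V.E.Q.all (fun t => Nat.ble t.1 g) && decide (0 < V.E.e) && decide (0 < V.E.lo) &&
  decide (V.E.lo < V.m) && decide (V.m < V.E.hi) && Nat.blt 0 V.K1 && Nat.blt 0 V.K2 &&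
  qGrid W V.E.Q D g qd V.E.lo V.m V.E.e V.K1 && qGrid W V.E.Q D g qd V.m V.E.hi V.E.e V.K2

theorem validE_of_validB {L : List (ℕ × ℕ × ℤ)} {D g : ℕ} {qd : ℤ} {W : ℕ} {V : VEnt}
    (h : validB D g qd W V = true) : ValidE L D g qd V.E := by
  simp only [validB, Bool.and_eq_true, decide_eq_true_eq] at h
  obtain ⟨⟨⟨⟨⟨⟨⟨⟨⟨⟨h1, h2⟩, h3⟩, h4⟩, h5⟩, h6⟩, h7⟩, h8⟩, h9⟩, h10⟩, h11⟩ := h
  have hcap : V.E.cap = none := by
    cases hc : V.E.cap with
    | none => rfl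
    | some m => simp [hc] at h1
  have hQne : V.E.Q ≠ [] := by
    intro hc
    simp [hc] at h2
  have hQ : ∀ t ∈ V.E.Q, t.1 ≤ g := by
    intro t ht
    have := List.all_eq_true.1 h3 t ht
    exact Nat.le_of_ble_eq_true this
  have hK1 : 0 < V.K1 := by simpa [Nat.blt_eq] using h8
  have hK2 : 0 < V.K2 := by simpa [Nat.blt_eq] using h9
  simp only [ValidE, hcap]
  refine ⟨hQne, hQ, h4, h5, ?_⟩
  intro y hy0 hy1
  have he' : (0 : ℝ) < V.E.e := by exact_mod_cast h4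
  rcases le_total y ((V.m : ℝ) / V.E.e) with hm | hm
  · exact qGrid_bound hK1 hQne hQ h4 h6 h10 hy0 hm
  · exact qGrid_bound hK2 hQne hQ h4 h7 h11 hm hy1

/-- All the checks of a leaf with its own polynomial bounds. -/
def leafV (W W3 : ℕ) (Ta Tb : Trg) (L : List (ℕ × ℕ × ℤ)) (D g : ℕ) (qd : ℤ)
    (R : List (ℕ × ℕ × ℕ × ℕ × ℤ)) (V0 V1 V2 V3 V4 V5 : VEnt) : Bool :=
  leaf6 W Ta Tb L D g qd R V0.E V1.E V2.E V3.E V4.E V5.E &&
  validB D g qd W3 V0 && validB D g qd W3 V1 && validB D g qd W3 V2 &&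
  validB D g qd W3 V3 && validB D g qd W3 V4 && validB D g qd W3 V5

theorem holds6_of_leafV {W W3 : ℕ} {Ta Tb : Trg} {L : List (ℕ × ℕ × ℤ)} {D g : ℕ} {qd : ℤ}
    {R : List (ℕ × ℕ × ℕ × ℕ × ℤ)} {V0 V1 V2 V3 V4 V5 : VEnt}
    (h : leafV W W3 Ta Tb L D g qd R V0 V1 V2 V3 V4 V5 = true)
    (hLne : L ≠ []) (hRne : R ≠ []) (hD1 : 1 ≤ D) (hqd : 0 < qd)
    (hL : ∀ t ∈ L, 2 * t.1 + 3 * t.2.1 ≤ D - 1 + 1)
    (hR : ∀ t ∈ R, 2 * t.1 + 3 * t.2.1 ≤ D + g ∧ 2 * t.2.2.1 + 3 * t.2.2.2.1 ≤ D + g)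
    (hψ : ∀ c, InSx 1 c → 0 ≤ potL L c) (hDa : 0 < Ta.den) (hDb : 0 < Tb.den) : Holds6 L R Ta Tb := by
  simp only [leafV, Bool.and_eq_true] at h
  obtain ⟨⟨⟨⟨⟨⟨h0, h1⟩, h2⟩, h3⟩, h4⟩, h5⟩, h6⟩ := h
  refine holds6_of_leaf h0 hLne hRne hD1 hqd hL hR hψ ?_ hDa hDb
  intro x hx
  simp only [List.mem_cons, List.not_mem_nil, or_false] at hx
  rcases hx with rfl | rfl | rfl | rfl | rfl | rfl
  · exact validE_of_validB h1
  · exact validE_of_validB h2
  · exact validE_of_validB h3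
  · exact validE_of_validB h4
  · exact validE_of_validB h5
  · exact validE_of_validB h6

/-! ### The merge operator -/

lemma KT_smul (U : ℝ) (ψ : Tp → ℝ) (a b : Tp) :
    KT (fun c => U * ψ c) a b = U * KT ψ a b := by
  simp only [KT, avg6]
  ring

/-- At the zero message the merge operator does nothing. -/
lemma KT_zero (L : List (ℕ × ℕ × ℤ)) (b : Tp) : KT (potL L) ⟨0, 0, 0⟩ b = potL L b := by
  have hs : ∀ b' : Tp, sF ⟨0, 0, 0⟩ b' = 0 := fun b' => by simp [sF]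
  have hw : ∀ b' : Tp, wF ⟨0, 0, 0⟩ b' = b' := fun b' => by
    simp only [wF, cF, hs]
    apply Tp.ext <;> simp
  have e1 : potL L b.r1 = potL L b := by simp only [potL, p2T_r1, p3T_r1]
  have e2 : potL L b.r2 = potL L b := by simp only [potL, p2T_r2, p3T_r2]
  have e3 : potL L b.r3 = potL L b := potL_r3 L b
  have e4 : potL L b.r4 = potL L b := potL_r4 L b
  have e5 : potL L b.r5 = potL L b := by
    have : b.r5 = b.r3.r1 := rfl
    rw [this]
    simp only [potL, p2T_r1, p3T_r1, p2T_r3, p3T_r3]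
  simp only [KT, avg6, hs, hw, e1, e2, e3, e4, e5]
  ring

lemma zero_inSx : InSx 1 (⟨0, 0, 0⟩ : Tp) := by
  refine ⟨?_, ?_, ?_, ?_⟩
  · simp [Tp.ZS]
  all_goals norm_num

lemma scale_inSx {μ : ℝ} {c : Tp} (hc : InSx 1 c) (h0 : 0 ≤ μ) (h1 : μ ≤ 1) : InSx 1 (scale μ c) := by
  refine ⟨?_, ?_, ?_, ?_⟩
  · have := hc.zs
    simp only [Tp.ZS, scale] at this ⊢
    have e : μ * c.x + μ * c.y + μ * c.z = μ * (c.x + c.y + c.z) := by ring
    rw [e, this, mul_zero]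
  · simp only [scale]; nlinarith [hc.hx]
  · simp only [scale]; nlinarith [hc.hy]
  · simp only [scale]; nlinarith [hc.hz]

lemma p2T_nonneg' (c : Tp) : 0 ≤ p2T c := p2T_nonneg c

variable {k : ℕ} {lam : ℝ}


/-! ### Consequences of the ray inequality, the second moment, the budget -/

lemma rayF_zero_aux (L' : List (ℕ × ℕ × ℤ)) (h : ∀ t ∈ L', 3 ≤ 2 * t.1 + 3 * t.2.1) (c : Tp) :
    rayF L' 0 c = potL L' c := by
  induction L' with
  | nil => simp [rayF, potL]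
  | cons x l ih =>
    have h1 := ih (fun t ht => h t (List.mem_cons_of_mem _ ht))
    have h2 := h x List.mem_cons_self
    have e : (0 : ℝ) ^ (2 * x.1 + 3 * x.2.1 - 2) = 0 := zero_pow (by omega)
    simp only [rayF, potL, List.map_cons, List.sum_cons, e] at h1 ⊢
    rw [h1]
    ring

/-- The potential is bounded below by its leading term. -/
theorem hge_of_ray {U : ℤ} {L' : List (ℕ × ℕ × ℤ)} (hU : 0 < U) (h : ∀ t ∈ L', 3 ≤ 2 * t.1 + 3 * t.2.1)
    (hR : RayNN ((1, 0, U) :: L') (chamber 1 1)) (c : Tp) (hc : InSx 1 c) :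
    p2T c ≤ (1 / (U : ℝ)) * potL ((1, 0, U) :: L') c := by
  have k := rayF_nonneg hR c hc 0 le_rfl zero_le_one
  have hU' : (0 : ℝ) < U := by exact_mod_cast hU
  have e : rayF ((1, 0, U) :: L') 0 c = potL ((1, 0, U) :: L') c - (U : ℝ) * p2T c := by
    have e1 := rayF_zero_aux L' h c
    simp only [rayF, potL, List.map_cons, List.sum_cons] at e1 ⊢
    rw [e1]
    norm_num
  rw [e] at k
  rw [div_mul_eq_mul_div, le_div_iff₀ hU']
  linarith

/-- The inequality for the second moment from a check with the potential `U p2T`. -/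
theorem hP_of_holds6 {U : ℤ} {R : List (ℕ × ℕ × ℕ × ℕ × ℤ)} {p q : ℕ} {δ M : ℝ} (hU : 0 < U) (hq : 0 < q)
    (hpq : 2 * p ≤ q) (hH : Holds6 [(1, 0, U)] R (chamber 1 1) (chamberN p q))
    (hrhs : ∀ a b, rhsL R a b = (U : ℝ) * (p2T a + (1 + δ) * p2T b + M * p2T b ^ 2))
    (a c : Tp) (ha : InSx 1 a) (hc : InSx 1 c) :
    KT p2T a (sc ((p : ℝ) / q) c) ≤
      p2T a + (1 + δ) * p2T (sc ((p : ℝ) / q) c) + M * p2T (sc ((p : ℝ) / q) c) ^ 2 := by
  have hU' : (0 : ℝ) < U := by exact_mod_cast hU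
  have e : potL [(1, 0, U)] = fun c => (U : ℝ) * p2T c := by
    funext c
    simp [potL]
  have h := avg6_le_of_holds6 (L := [(1, 0, U)]) (R := R) hq hpq hH a c ha hc
  rw [e, KT_smul, hrhs] at h
  exact le_of_mul_le_mul_left h hU'

/-- The budget, from a numerical inequality at the critical eigenvalue. -/
lemma budget_of_num {k : ℕ} {lam C β δ M y₀ m₀ : ℝ} (hC : 0 ≤ C) (hδ : 0 ≤ δ) (hM : 0 ≤ M) (hy : 0 ≤ y₀)
    (hm : 0 ≤ m₀) (hd : ((k : ℝ) + 2) * lam ^ 2 ≤ 1)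
    (hnum : C * (((k : ℝ) + 1) * ((1 + δ) * (y₀ / ((k : ℝ) + 2)) + M * (m₀ / ((k : ℝ) + 2) ^ 2))) ≤ 2 * β) :
    C * (((k : ℝ) + 1) * ((1 + δ) * (lam ^ 2 * y₀) + M * (lam ^ 4 * m₀))) ≤ 2 * β := by
  have hk : (0 : ℝ) < (k : ℝ) + 2 := by positivity
  have h2 : lam ^ 2 ≤ 1 / ((k : ℝ) + 2) := by
    rw [le_div_iff₀ hk]; linarith
  have h4 : lam ^ 4 ≤ 1 / ((k : ℝ) + 2) ^ 2 := by
    have e : lam ^ 4 = (lam ^ 2) ^ 2 := by ring
    have e2 : 1 / ((k : ℝ) + 2) ^ 2 = (1 / ((k : ℝ) + 2)) ^ 2 := by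
      rw [div_pow, one_pow]
    rw [e, e2]
    exact pow_le_pow_left₀ (sq_nonneg _) h2 2
  have a1 : lam ^ 2 * y₀ ≤ y₀ / ((k : ℝ) + 2) := by
    have := mul_le_mul_of_nonneg_right h2 hy
    rw [div_mul_eq_mul_div, one_mul] at this
    exact this
  have a2 : lam ^ 4 * m₀ ≤ m₀ / ((k : ℝ) + 2) ^ 2 := by
    have := mul_le_mul_of_nonneg_right h4 hm
    rw [div_mul_eq_mul_div, one_mul] at this
    exact this
  refine le_trans ?_ hnum
  refine mul_le_mul_of_nonneg_left ?_ hC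
  refine mul_le_mul_of_nonneg_left ?_ (by positivity)
  have b1 := mul_le_mul_of_nonneg_left a1 (by linarith : (0 : ℝ) ≤ 1 + δ)
  have b2 := mul_le_mul_of_nonneg_left a2 hM
  linarith

/-- The eigenvalue is above a rational lower end, when its square is small. -/
lemma lam_ge_of_sq {k : ℕ} {lam l : ℝ} (hl : 0 < l) (hd : ((k : ℝ) + 2) * lam ^ 2 ≤ 1)
    (hnum : 1 ≤ ((k : ℝ) + 2) * l ^ 2) : -l ≤ lam := by
  by_contra h
  push Not at h
  have hk : (0 : ℝ) < (k : ℝ) + 2 := by positivity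
  have h1 : l ^ 2 < lam ^ 2 := by nlinarith
  have h2 : ((k : ℝ) + 2) * l ^ 2 < ((k : ℝ) + 2) * lam ^ 2 := mul_lt_mul_of_pos_left h1 hk
  linarith

/-- **Nonreconstruction from a stationary potential with a budget.** -/
theorem tendsto_stat {L : List (ℕ × ℕ × ℤ)} {s β C t δ M y₀ m₀ K₀ : ℝ} {N : ℕ}
    (hs0 : 0 < s) (hs1 : s ≤ 1 / 2) (hl0 : -s ≤ lam) (hl1 : lam < 0)
    (hd : ((k : ℝ) + 2) * lam ^ 2 ≤ 1) (ht : 0 < t) (hδ : 0 ≤ δ) (hM : 0 ≤ M) (hK : 0 < K₀) (hC : 0 ≤ C)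
    (hzero : potL L ⟨0, 0, 0⟩ = 0)
    (hmerge : ∀ a c, InSx 1 a → InSx 1 c → KT (potL L) a (sc s c) ≤
      potL L a + s ^ 2 * potL L c - β * p2T (sc s c) ^ 3 + C * (p2T a * p2T (sc s c) ^ 3) -
        t * (p2T a * p2T (sc s c)))
    (hray : ∀ c, InSx 1 c → ∀ μ : ℝ, 0 ≤ μ → μ ≤ 1 → potL L (scale μ c) ≤ μ ^ 2 * potL L c)
    (hP : ∀ a c, InSx 1 a → InSx 1 c → KT p2T a (sc s c) ≤
      p2T a + (1 + δ) * p2T (sc s c) + M * p2T (sc s c) ^ 2)
    (hge : ∀ c, InSx 1 c → p2T c ≤ K₀ * potL L c)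
    (hfar : ∀ n, N ≤ n → PhiN k lam p2T n ≤ y₀ ∧ PhiN k lam (fun c => p2T c ^ 2) n ≤ m₀)
    (hbudget : C * (((k : ℝ) + 1) * ((1 + δ) * (lam ^ 2 * y₀) + M * (lam ^ 4 * m₀))) ≤ 2 * β) :
    Tendsto (reconDist 3 (k + 2) lam) atTop (𝓝 0) := by
  set F := potL L with hF
  set μ : ℝ := -lam / s with hμ
  have hμ0 : 0 ≤ μ := div_nonneg (by linarith) hs0.le
  have hμ1 : μ ≤ 1 := by
    rw [hμ, div_le_one hs0]; linarith
  have hμs : s * μ = -lam := by rw [hμ]; field_simp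
  have hsc : ∀ c : Tp, scale lam c = sc s (scale μ c) := by
    intro c
    simp only [sc, scale_scale]
    congr 1
    nlinarith
  set Y : Tp → ℝ := fun b => s ^ 2 * F (scale (-s⁻¹) b) - β * p2T b ^ 3 with hYd
  have hYc : ∀ c, Y (sc s c) = s ^ 2 * F c - β * p2T (sc s c) ^ 3 := by
    intro c
    simp only [hYd, sc, scale_scale]
    have : -s⁻¹ * -s = 1 := by field_simp
    rw [this, scale_one']
  have hs2 : 2 * s ≤ 1 := by linarith
  have hscx : ∀ c, InSx 1 c → InSx 1 (sc s c) := fun c hc => sc_inSx hc hs0.le hs2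
  -- the potential is at most `Y` on the image
  have hFY : ∀ c, InSx 1 c → F (sc s c) ≤ Y (sc s c) := by
    intro c hc
    have h := hmerge ⟨0, 0, 0⟩ c zero_inSx hc
    rw [KT_zero, hzero] at h
    rw [hYc]
    have e0 : p2T (⟨0, 0, 0⟩ : Tp) = 0 := by simp [p2T]
    rw [e0] at h
    linarith
  have hp3 : ∀ (a b : Tp), 0 ≤ t * (p2T a * p2T b) := fun a b =>
    mul_nonneg ht.le (mul_nonneg (p2T_nonneg a) (p2T_nonneg b))
  have hsum : ∀ n : ℕ, ∑ j ∈ Finset.range (n + 1), ((j : ℝ) + 1) = ((n : ℝ) + 1) * ((n : ℝ) + 2) / 2 := by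
    intro n
    induction n with
    | zero => simp
    | succ n ih =>
      rw [Finset.sum_range_succ, ih]
      push_cast
      ring
  refine tendsto_far (pot := fun _ => F) (Y := Y) (Cc := fun _ => C) (t := t) (β := β) (δ := δ) (M := M)
    (y₀ := y₀) (m₀ := m₀) (K₀ := K₀) (N := N) (by linarith) (by linarith) hl1.ne hd ht hδ hM hK
    (fun _ => hC) ?_ ?_ ?_ ?_ hge hfar ?_
  · intro c c' hc hc'
    have hc1 := scale_inSx hc hμ0 hμ1
    have hc1' := scale_inSx hc' hμ0 hμ1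
    rw [hsc c, hsc c']
    have h := hmerge _ _ (hscx _ hc1) hc1'
    have h2 := hFY _ hc1
    rw [hYc] at h2 ⊢
    rw [hYc]
    linarith
  · intro j _ _ a c' ha hc'
    have hc1' := scale_inSx hc' hμ0 hμ1
    rw [hsc c']
    have h := hmerge _ _ ha hc1'
    have h2 := hp3 a (sc s (scale μ c'))
    rw [hYc]
    linarith
  · intro c hc
    rw [hsc c, hYc]
    have h := hray c hc μ hμ0 hμ1
    have e2 : lam ^ 2 = s ^ 2 * μ ^ 2 := by
      rw [← mul_pow, hμs]; ring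
    have h3 := mul_le_mul_of_nonneg_left h (sq_nonneg s)
    rw [e2]
    have e3 : s ^ 2 * μ ^ 2 * F c = s ^ 2 * (μ ^ 2 * F c) := by ring
    rw [e3]
    linarith
  · intro a c' ha hc'
    rw [hsc c']
    exact hP _ _ ha (scale_inSx hc' hμ0 hμ1)
  · have e : ∑ j ∈ Finset.range (k + 1), C * (((j : ℝ) + 1) * ((1 + δ) * (lam ^ 2 * y₀) + M * (lam ^ 4 * m₀))) =
        C * ((1 + δ) * (lam ^ 2 * y₀) + M * (lam ^ 4 * m₀)) * ∑ j ∈ Finset.range (k + 1), ((j : ℝ) + 1) := by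
      rw [Finset.mul_sum]
      apply Finset.sum_congr rfl
      intro j _
      ring
    rw [e, hsum]
    have hk : (0 : ℝ) ≤ (k : ℝ) + 2 := by positivity
    have := mul_le_mul_of_nonneg_left hbudget hk
    nlinarith

end

end Vale.Agent.Lib.P154Neg
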